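import Vale.Agent.P088.R2.H509.S3.Re

/-!
# P088, stage 3: real models of rank one
-/

set_option linter.all false

open Bundle Manifold MeasureTheory Set Filter Topology
open scoped ContDiff

noncomputable section

namespace Vale.Agent.P088.R2.H509.S3

open Vale.Agent.P088 Vale.Agent.P088.EYM Vale.Agent.P088.TM
open Vale.Agent.P088.EYM.Q (IsMod)

universe u

/-- `t e_0` -/
def io : ℝ →L[ℝ] Fib 1 :=
  LinearMap.toContinuousLinearMap
    { toFun := fun t => EuclideanSpace.single (0 : Fin 1) (t : ℂ)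
      map_add' := fun s t => by
        ext i
        fin_cases i
        simp
      map_smul' := fun c t => by
        ext i
        fin_cases i
        simp }

theorem io_apply (t : ℝ) (i : Fin 1) : io t i = (t : ℂ) := by
  fin_cases i
  show EuclideanSpace.single (0 : Fin 1) (t : ℂ) 0 = _
  simp

theorem io_re (t : ℝ) : (io t 0).re = t := by rw [io_apply, Complex.ofReal_re]

theorem io_eq {v : Fib 1} (h : cj 1 v = v) : v = io (v 0).re := by
  ext i
  rw [io_apply]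
  have h1 : (starRingEnd ℂ) (v i) = v i := by rw [← cj_apply, h]
  fin_cases i
  exact (Complex.conj_eq_iff_re.1 h1).symm

theorem norm_io (t : ℝ) : ‖io t‖ = |t| := by
  show ‖EuclideanSpace.single (0 : Fin 1) (t : ℂ)‖ = _
  simp

theorem inner_io (s t : ℝ) : inner ℂ (io s) (io t) = ((s * t : ℝ) : ℂ) := by
  simp only [PiLp.inner_apply, io_apply, RCLike.inner_apply, Finset.univ_unique,
    Finset.sum_singleton, Complex.conj_ofReal]
  push_cast
  ring

/-- the section with real values `f` -/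
def cf {α : Type*} (f : α → ℝ) : α → Fib 1 := fun x => io (f x)

theorem cf_apply {α : Type*} (f : α → ℝ) (x : α) : cf f x = io (f x) := rfl

variable {n : ℕ} [NeZero n] {D : Set (E n)}

theorem cf_smooth {f : E n → ℝ} {m : WithTop ℕ∞} (hf : ContDiffOn ℝ m f D) :
    ContDiffOn ℝ m (cf f) D := io.contDiff.comp_contDiffOn hf

theorem pd_cf (hD : RelOpen D) {f : E n → ℝ} (hf : ContDiffOn ℝ ∞ f D) {x : E n} (hx : x ∈ D)
    (j : Fin n) : pd j (cf f) x = io (pd j f x) := hD.pd_clm io hf hx j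

theorem pdm (hD : RelOpen D) {a b : E n → ℝ} (ha : ContDiffOn ℝ ∞ a D) (hb : ContDiffOn ℝ ∞ b D)
    {x : E n} (hx : x ∈ D) (k : Fin n) :
    pd k (fun y => a y * b y) x = pd k a x * b x + a x * pd k b x := by
  have := hD.pd_mul ha hb hx k
  rw [add_comm]
  exact this

theorem pdi (hD : RelOpen D) {a : E n → ℝ} (ha : ContDiffOn ℝ ∞ a D) (hp : ∀ x ∈ D, 0 < a x)
    {x : E n} (hx : x ∈ D) (k : Fin n) :
    pd k (fun y => (a y)⁻¹) x = - pd k a x / a x ^ 2 := by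
  have hi : ContDiffOn ℝ ∞ (fun y => (a y)⁻¹) D := ha.inv fun y hy => (hp y hy).ne'
  have h5 : EqOn (fun y => a y * (a y)⁻¹) (fun _ => (1 : ℝ)) D := fun y hy =>
    mul_inv_cancel₀ (hp y hy).ne'
  have h6 := hD.pd_congr h5 hx k
  rw [pd_const, pdm hD ha hi hx] at h6
  have h7 := (hp x hx).ne'
  field_simp
  field_simp at h6
  linarith

theorem rsmul_io (a t : ℝ) : (a • (1 : EndF 1)) (io t) = io (a * t) := by
  show a • (io t) = _
  rw [← map_smul, smul_eq_mul]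

/-- A real model of rank one with frame `ρ`. -/
structure RM (W : Model n 1) (ρ : E n → ℝ) (D : Set (E n)) : Prop where
  rel : RelOpen D
  mod : IsMod 0 W D
  sm : ContDiffOn ℝ ∞ ρ D
  pos : ∀ x ∈ D, 0 < ρ x
  h : ∀ x ∈ D, W.h x = (ρ x ^ 2) • (1 : EndF 1)
  B : ∀ x ∈ D, ∀ j, W.B j x = (pd j ρ x / ρ x) • (1 : EndF 1)
  c : ∀ a, ∀ x ∈ D, W.c a x = io (x a)

theorem RM.mono {W : Model n 1} {ρ : E n → ℝ} {D D' : Set (E n)} (h : RM W ρ D)
    (hD' : RelOpen D') (hs : D' ⊆ D) : RM W ρ D' where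
  rel := hD'
  mod := ⟨cERel_okMono h.mod.ok hs, fun v => cERel_solMono (h.mod.frame v) hs,
    fun a => cERel_solMono (h.mod.sol a) hs, fun a x hx => h.mod.re a x (hs hx)⟩
  sm := h.sm.mono hs
  pos := fun x hx => h.pos x (hs hx)
  h := fun x hx => h.h x (hs hx)
  B := fun x hx => h.B x (hs hx)
  c := fun a x hx => h.c a x (hs hx)

/-- `∑_k √g g^{jk} ∂_k F` -/
def fx (g : E n → Matrix (Fin n) (Fin n) ℝ) (F : E n → ℝ) (j : Fin n) (x : E n) : ℝ :=
  ∑ k, gg g j k x * pd k F x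

/-- `∑_j ∂_j (√g g^{jk} ∂_k F)` -/
def dG (g : E n → Matrix (Fin n) (Fin n) ℝ) (F : E n → ℝ) (x : E n) : ℝ :=
  ∑ j, pd j (fx g F j) x

/-- `ρ² √g g^{jk}` -/
def sg (g : E n → Matrix (Fin n) (Fin n) ℝ) (ρ : E n → ℝ) (j k : Fin n) (x : E n) : ℝ :=
  ρ x ^ 2 * gg g j k x

/-- `∑_k σ^{jk} ∂_k f` -/
def fs (g : E n → Matrix (Fin n) (Fin n) ℝ) (ρ : E n → ℝ) (f : E n → ℝ) (j : Fin n)
    (x : E n) : ℝ := ∑ k, sg g ρ j k x * pd k f x

/-- `div σ grad f` -/
def dS (g : E n → Matrix (Fin n) (Fin n) ℝ) (ρ : E n → ℝ) (f : E n → ℝ) (x : E n) : ℝ :=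
  ∑ j, pd j (fs g ρ f j) x

variable {W : Model n 1} {ρ : E n → ℝ}

theorem RM.ggs (h : RM W ρ D) (j k : Fin n) : ContDiffOn ℝ ∞ (gg W.g j k) D :=
  h.rel.gg_smooth h.mod.ok.g_smooth h.mod.ok.g_pos j k

theorem RM.sgs (h : RM W ρ D) (j k : Fin n) : ContDiffOn ℝ ∞ (sg W.g ρ j k) D :=
  (h.sm.pow 2).mul (h.ggs j k)

theorem RM.fx_sm (h : RM W ρ D) {F : E n → ℝ} (hF : ContDiffOn ℝ ∞ F D) (j : Fin n) :
    ContDiffOn ℝ ∞ (fx W.g F j) D :=
  ContDiffOn.sum fun k _ => (h.ggs j k).mul (h.rel.pd_smooth hF k)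

theorem RM.fs_sm (h : RM W ρ D) {F : E n → ℝ} (hF : ContDiffOn ℝ ∞ F D) (j : Fin n) :
    ContDiffOn ℝ ∞ (fs W.g ρ F j) D :=
  ContDiffOn.sum fun k _ => (h.sgs j k).mul (h.rel.pd_smooth hF k)

theorem RM.nab_cf (h : RM W ρ D) {f : E n → ℝ} (hf : ContDiffOn ℝ ∞ f D) {x : E n} (hx : x ∈ D)
    (k : Fin n) : nab W.toLD k (cf f) x = io ((ρ x)⁻¹ * pd k (fun y => ρ y * f y) x) := by
  have hp := (h.pos x hx).ne'
  have h1 : pd k (fun y => ρ y * f y) x = pd k ρ x * f x + ρ x * pd k f x := pdm h.rel h.sm hf hx k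
  unfold nab
  rw [pd_cf h.rel hf hx, h.B x hx k, cf_apply, rsmul_io, ← map_add, h1]
  congr 1
  field_simp
  ring

theorem RM.flux_cf (h : RM W ρ D) {f : E n → ℝ} (hf : ContDiffOn ℝ ∞ f D) {x : E n} (hx : x ∈ D)
    (j : Fin n) : flux W.toLD j (cf f) x = io ((ρ x)⁻¹ * fx W.g (fun y => ρ y * f y) j x) := by
  unfold flux fx
  rw [Finset.mul_sum, map_sum]
  refine Finset.sum_congr rfl fun k _ => ?_
  rw [h.nab_cf hf hx k, ← map_smul, smul_eq_mul]
  congr 1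
  ring

theorem RM.lop_cf (h : RM W ρ D) {f : E n → ℝ} (hf : ContDiffOn ℝ ∞ f D) {x : E n} (hx : x ∈ D) :
    Lop W.toLD (cf f) x = io ((ρ x)⁻¹ * dG W.g (fun y => ρ y * f y) x) := by
  have hF : ContDiffOn ℝ ∞ (fun y => ρ y * f y) D := h.sm.mul hf
  have hi : ContDiffOn ℝ ∞ (fun y => (ρ y)⁻¹) D := h.sm.inv fun y hy => (h.pos y hy).ne'
  have hp := (h.pos x hx).ne'
  unfold Lop dG
  rw [Finset.mul_sum, map_sum]
  refine Finset.sum_congr rfl fun j _ => ?_
  have e1 : EqOn (flux W.toLD j (cf f)) (cf fun y => (ρ y)⁻¹ * fx W.g (fun y => ρ y * f y) j y) D :=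
    fun y hy => h.flux_cf hf hy j
  have e2 : pd j (flux W.toLD j (cf f)) x =
      io (pd j (fun y => (ρ y)⁻¹ * fx W.g (fun y => ρ y * f y) j y) x) := by
    rw [h.rel.pd_congr e1 hx j, pd_cf h.rel (hi.mul (h.fx_sm hF j)) hx]
  have e3 : pd j (fun y => (ρ y)⁻¹ * fx W.g (fun y => ρ y * f y) j y) x =
      pd j (fun y => (ρ y)⁻¹) x * fx W.g (fun y => ρ y * f y) j x +
        (ρ x)⁻¹ * pd j (fx W.g (fun y => ρ y * f y) j) x := pdm h.rel hi (h.fx_sm hF j) hx j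
  have e4 : pd j (fun y => (ρ y)⁻¹) x = - pd j ρ x / ρ x ^ 2 := pdi h.rel h.sm h.pos hx j
  rw [e2, h.B x hx j, h.flux_cf hf hx j, rsmul_io, ← map_add, e3, e4]
  congr 1
  field_simp
  ring

/-- the frame solves the equation -/
theorem RM.dG_rho (h : RM W ρ D) {x : E n} (hx : x ∈ D) : dG W.g ρ x = 0 := by
  have h1 := (h.mod.frame (io 1)).2 x hx
  have h2 : (fun _ : E n => io 1) = cf (fun _ : E n => (1 : ℝ)) := rfl
  rw [h2, h.lop_cf contDiffOn_const hx] at h1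
  have h3 := congrArg (fun v : Fib 1 => (v 0).re) h1
  simp only [io_re, mul_one] at h3
  have h4 : ((0 : Fib 1) 0).re = 0 := rfl
  rw [h4] at h3
  have hp := (h.pos x hx).ne'
  rcases mul_eq_zero.1 h3 with h5 | h5
  · exact absurd (inv_eq_zero.1 h5) hp
  · exact h5

/-- `div σ grad f = ρ div (√g g⁻¹ grad (ρ f))` -/
theorem RM.dS_eq (h : RM W ρ D) {f : E n → ℝ} (hf : ContDiffOn ℝ ∞ f D) {x : E n} (hx : x ∈ D) :
    dS W.g ρ f x = ρ x * dG W.g (fun y => ρ y * f y) x := by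
  have hF : ContDiffOn ℝ ∞ (fun y => ρ y * f y) D := h.sm.mul hf
  have h0 := h.dG_rho hx
  have e1 : ∀ j, EqOn (fs W.g ρ f j)
      (fun y => ρ y * fx W.g (fun y => ρ y * f y) j y - (ρ y * f y) * fx W.g ρ j y) D := by
    intro j y hy
    simp only [fs, fx, sg, Finset.mul_sum]
    rw [← Finset.sum_sub_distrib]
    refine Finset.sum_congr rfl fun k _ => ?_
    have h1 : pd k (fun y => ρ y * f y) y = pd k ρ y * f y + ρ y * pd k f y :=
      pdm h.rel h.sm hf hy k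
    rw [h1]
    ring
  have e2 : ∀ j, pd j (fs W.g ρ f j) x =
      pd j ρ x * fx W.g (fun y => ρ y * f y) j x + ρ x * pd j (fx W.g (fun y => ρ y * f y) j) x -
        (pd j (fun y => ρ y * f y) x * fx W.g ρ j x + (ρ x * f x) * pd j (fx W.g ρ j) x) := by
    intro j
    rw [h.rel.pd_congr (e1 j) hx j]
    have k1 := h.rel.pd_sub (h.sm.mul (h.fx_sm hF j)) (hF.mul (h.fx_sm h.sm j)) hx j
    have k2 := pdm h.rel h.sm (h.fx_sm hF j) hx j
    have k3 := pdm h.rel hF (h.fx_sm h.sm j) hx j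
    rw [← k2, ← k3]
    exact k1
  have sym : ∀ (F F' : E n → ℝ), ∑ j, pd j F x * fx W.g F' j x = ∑ j, pd j F' x * fx W.g F j x := by
    intro F F'
    simp only [fx, Finset.mul_sum]
    rw [Finset.sum_comm]
    refine Finset.sum_congr rfl fun k _ => Finset.sum_congr rfl fun j _ => ?_
    have h5 : gg W.g j k x = gg W.g k j x := by
      unfold gg
      rw [Jacobi_inv_symm (h.mod.ok.g_pos x hx) j k]
    rw [h5]
    ring
  unfold dS
  simp only [e2]
  rw [Finset.sum_sub_distrib, Finset.sum_add_distrib, Finset.sum_add_distrib, ← Finset.mul_sum,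
    ← Finset.mul_sum, sym ρ (fun y => ρ y * f y)]
  have h6 : ∑ j, pd j (fx W.g ρ j) x = 0 := h0
  rw [h6]
  show _ = ρ x * ∑ j, pd j (fx W.g (fun y => ρ y * f y) j) x
  ring

theorem RM.lop_dS (h : RM W ρ D) {f : E n → ℝ} (hf : ContDiffOn ℝ ∞ f D) {x : E n} (hx : x ∈ D) :
    Lop W.toLD (cf f) x = io (dS W.g ρ f x / ρ x ^ 2) := by
  rw [h.lop_cf hf hx, h.dS_eq hf hx]
  congr 1
  have hp := (h.pos x hx).ne'
  field_simp

/-- real solutions -/
theorem RM.dS_zero (h : RM W ρ D) {f : E n → ℝ} (hf : ContDiffOn ℝ ∞ f D)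
    (hs : Sol W.toLD D (cf f)) {x : E n} (hx : x ∈ D) : dS W.g ρ f x = 0 := by
  have h1 := hs.2 x hx
  rw [h.lop_dS hf hx] at h1
  have h3 := congrArg (fun v : Fib 1 => (v 0).re) h1
  simp only [io_re] at h3
  have h4 : ((0 : Fib 1) 0).re = 0 := rfl
  rw [h4] at h3
  have hp := (h.pos x hx).ne'
  rcases div_eq_zero_iff.1 h3 with h5 | h5
  · exact h5
  · exact absurd (pow_eq_zero_iff (two_ne_zero)|>.1 h5) hp

/-- the column divergence vanishes -/
theorem RM.div_zero (h : RM W ρ D) (k : Fin n) {x : E n} (hx : x ∈ D) :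
    ∑ j, pd j (sg W.g ρ j k) x = 0 := by
  have hc : ContDiffOn ℝ ∞ (fun y : E n => y k) D := dc_smooth_coord k
  have h1 : Sol W.toLD D (cf fun y : E n => y k) :=
    cERel_sol_congr W.toLD h.rel (fun y hy => (h.c k y hy)) (h.mod.sol k)
  have h2 := h.dS_zero hc h1 hx
  have h3 : ∀ j, EqOn (fs W.g ρ (fun y : E n => y k) j) (sg W.g ρ j k) D := by
    intro j y hy
    unfold fs
    rw [Finset.sum_eq_single k]
    · rw [dc_pd_coord (h.rel.subset hy) k k]
      simp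
    · intro b _ hb
      rw [dc_pd_coord (h.rel.subset hy) b k]
      simp [hb, Ne.symm hb]
    · simp
  unfold dS at h2
  simpa only [h.rel.pd_congr (h3 _) hx] using h2

/-- energy density -/
theorem RM.ed_cf (h : RM W ρ D) {f f' : E n → ℝ} (hf : ContDiffOn ℝ ∞ f D)
    (hf' : ContDiffOn ℝ ∞ f' D) {x : E n} (hx : x ∈ D) :
    ed W.toLD (cf f) (cf f') x =
      ((∑ j, ∑ k, gg W.g j k x * (pd j (fun y => ρ y * f y) x * pd k (fun y => ρ y * f' y) x) : ℝ) : ℂ) := by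
  unfold ed
  push_cast
  refine Finset.sum_congr rfl fun j _ => Finset.sum_congr rfl fun k _ => ?_
  rw [h.nab_cf hf hx j, h.nab_cf hf' hx k, h.h x hx, rsmul_io, inner_io]
  have hp := (h.pos x hx).ne'
  have e1 : (ρ x)⁻¹ * pd j (fun y => ρ y * f y) x * (ρ x ^ 2 * ((ρ x)⁻¹ *
      pd k (fun y => ρ y * f' y) x)) =
      pd j (fun y => ρ y * f y) x * pd k (fun y => ρ y * f' y) x := by
    field_simp
  rw [e1]
  push_cast
  ring

end Vale.Agent.P088.R2.H509.S3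
end
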