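import Vale.Agent.P088.TM.H332N
import Vale.Agent.P088.R2.H338.Tr

/-!
# P088, stage 3: energies of matched solutions off the matched set (two manifolds)
-/

set_option linter.all false

open Bundle Manifold MeasureTheory Set Filter Topology
open scoped ContDiff

noncomputable section

namespace Vale.Agent.P088.R2.H509.S3

open Vale.Agent.P088 Vale.Agent.P088.EYM
open Vale.Agent.P088.R2.H338 (EK ek_int)

universe u

theorem meas_inter_pre {α β : Type*} [TopologicalSpace α] [MeasurableSpace α]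
    [OpensMeasurableSpace α] [TopologicalSpace β] [MeasurableSpace β] [BorelSpace β] {f : α → β}
    {s : Set α} (hf : ContinuousOn f s) (hs : MeasurableSet s) {t : Set β}
    (ht : MeasurableSet t) : MeasurableSet (s ∩ f ⁻¹' t) := by
  have h1 : Continuous (s.restrict f) := continuousOn_iff_continuous_restrict.1 hf
  have h2 : MeasurableSet (s.restrict f ⁻¹' t) := h1.measurable ht
  have h3 := hs.subtype_image h2
  have h4 : s ∩ f ⁻¹' t = Subtype.val '' (s.restrict f ⁻¹' t) := by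
    ext x
    constructor
    · rintro ⟨hx, hxt⟩
      exact ⟨⟨x, hx⟩, hxt, rfl⟩
    · rintro ⟨⟨y, hy⟩, hyt, rfl⟩
      exact ⟨hy, hyt⟩
  rw [h4]
  exact h3

section One

variable {n N : ℕ} [NeZero n] {M : Type u} [TopologicalSpace M]
  [ChartedSpace (EuclideanHalfSpace n) M] [IsManifold (𝓡∂ n) ∞ M] [T2Space M] [CompactSpace M]
  [MeasurableSpace M] [BorelSpace M]

theorem bd_closed (n : ℕ) [NeZero n] (M : Type u) [TopologicalSpace M]
    [ChartedSpace (EuclideanHalfSpace n) M] [IsManifold (𝓡∂ n) ∞ M] :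
    IsClosed ((𝓡∂ n).boundary M) :=
  ModelWithCorners.isClosed_boundary (n := ∞) (I := 𝓡∂ n) (M := M) (by simp)

/-- The flat boundary is a null set. -/
theorem flat_null : volume {y : E n | y 0 = 0} = 0 := by
  have h1 : {y : E n | y 0 = 0} =
      ((LinearMap.ker ((EuclideanSpace.proj (𝕜 := ℝ) (0 : Fin n) : E n →L[ℝ] ℝ) : E n →ₗ[ℝ] ℝ) :
        Submodule ℝ (E n)) : Set (E n)) := by
    ext y
    simp
  rw [h1]
  refine Measure.addHaar_submodule _ _ fun h => ?_
  have h2 : (ev (0 : Fin n) : E n) ∈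
      LinearMap.ker ((EuclideanSpace.proj (𝕜 := ℝ) (0 : Fin n) : E n →L[ℝ] ℝ) : E n →ₗ[ℝ] ℝ) := by
    rw [h]; trivial
  simp at h2

/-- The boundary is a null set. -/
theorem bdry_null (P : One n N M) : P.μ ((𝓡∂ n).boundary M) = 0 := by
  obtain ⟨-, -, hbd, -⟩ := TM.fLoc n N M
  obtain ⟨t, ht⟩ := isCompact_univ.elim_nhds_subcover (fun p : M => (xc n p).source)
    fun p _ => extChartAt_source_mem_nhds p
  have h1 : (𝓡∂ n).boundary M ⊆ ⋃ p ∈ t, ((𝓡∂ n).boundary M ∩ (xc n p).source) := by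
    intro x hx
    have h2 := ht.2 (mem_univ x)
    simp only [mem_iUnion] at h2 ⊢
    obtain ⟨p, hp, hxp⟩ := h2
    exact ⟨p, hp, hx, hxp⟩
  refine measure_mono_null h1 ((measure_biUnion_null_iff (I := (t : Set M))
    t.countable_toSet).2 fun p _ => ?_)
  rw [P.hμ p _ ((bd_closed n M).measurableSet.inter (isOpen_extChartAt_source p).measurableSet)
    inter_subset_right]
  refine setLIntegral_measure_zero _ _ (measure_mono_null ?_ flat_null)
  rintro _ ⟨x, ⟨hx, hxs⟩, rfl⟩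
  exact (hbd p x hxs).1 hx

end One

section Two

variable {n N : ℕ} [NeZero n] {M₁ M₂ : Type u}
  [TopologicalSpace M₁] [ChartedSpace (EuclideanHalfSpace n) M₁]
  [IsManifold (𝓡∂ n) ∞ M₁] [T2Space M₁] [CompactSpace M₁] [MeasurableSpace M₁] [BorelSpace M₁]
  [TopologicalSpace M₂] [ChartedSpace (EuclideanHalfSpace n) M₂]
  [IsManifold (𝓡∂ n) ∞ M₂] [T2Space M₂] [CompactSpace M₂] [MeasurableSpace M₂] [BorelSpace M₂]
  {P : One n N M₁} {Q : One n N M₂} {G : TM.Gl M₁ M₂} {O : Set M₂} {F : M₂ → M₁} {H : M₂ → EndF N}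

/-- The match in charts, as a pull back. -/
theorem lm_pull (hm : TM.LMatch P Q G O F H) {x : M₂} (hx : x ∈ O) :
    ∃ (D D' : Set (E n)) (Y : E n → E n), RelOpen D ∧ RelOpen D' ∧ D ⊆ tg n x ∧
      D' ⊆ tg n (F x) ∧ xc n x x ∈ D ∧
      (∀ y ∈ D, (xc n x).symm y ∈ O ∧ F ((xc n x).symm y) ∈ (xc n (F x)).source) ∧
      IsPull (Q.loc x) (P.loc (F x)) D D' (fun y => xc n (F x) (F ((xc n x).symm y))) Y
        (fun y => H ((xc n x).symm y)) := by
  have hxs : x ∈ (xc n x).source := mem_extChartAt_source x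
  have hFs : F x ∈ (xc n (F x)).source := mem_extChartAt_source (F x)
  obtain ⟨r, hr, h1, h2, h3, h4, h5, h6⟩ := TM.gUnm n N M₁ M₂ P Q G O F H hm (F x) x x hx hxs hFs
  obtain ⟨hrel₂, hok₂, -, -⟩ := TM.fLoc n N M₂
  obtain ⟨hrel₁, hok₁, -, -⟩ := TM.fLoc n N M₁
  set X : E n → E n := fun y => xc n (F x) (F ((xc n x).symm y)) with hX
  set z : E n := xc n x x with hz
  have hball : RelOpen (Metric.ball z r) := by
    refine ⟨Metric.ball z r, Metric.isOpen_ball, (inter_eq_left.2 fun y hy => ?_).symm⟩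
    exact le_of_lt (show 0 < y 0 from (h1 hy).2)
  have hzb : z ∈ Metric.ball z r := Metric.mem_ball_self hr
  have hdet : (Jac X z).det ≠ 0 := by
    intro h0
    have h7 := h5 z hzb
    have h8 : ((Q.loc x).g z).det = 0 := by
      rw [h7, Matrix.det_mul, Matrix.det_mul, h0, mul_zero]
    exact (((hok₂ Q x).g_pos z (h1 hzb).1).det_pos).ne' h8
  obtain ⟨Y, r₀, hr₀, hY⟩ := half_ift hball h3 hzb hdet (Or.inl ⟨(h1 hzb).2, (h2 z hzb).2.2⟩)
  obtain ⟨D, hDs, hD, hzD, hd⟩ := hY r₀ hr₀ le_rfl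
  refine ⟨D, HB (X z) r₀, Y, hD, ⟨_, Metric.isOpen_ball, rfl⟩, fun y hy => (h1 (hDs hy)).1, ?_,
    hzD, fun y hy => ⟨(h2 y (hDs hy)).1, (h2 y (hDs hy)).2.1⟩, ?_⟩
  · intro y hy
    rw [← hd.inv2 y hy]
    exact (xc n (F x)).map_source (h2 _ (hDs (hd.mapsY hy))).2.1
  · refine ⟨hd, h4.mono hDs, fun y hy => ?_, fun y hy => h5 y (hDs hy),
      fun y hy j => h6 y (hDs hy) j, fun y hy => ?_⟩
    · exact isUnit_iff_exists.2 ⟨star (H ((xc n x).symm y)),
        (Unitary.mem_iff.1 (hm.unit _ (h2 y (hDs hy)).1)).2,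
        (Unitary.mem_iff.1 (hm.unit _ (h2 y (hDs hy)).1)).1⟩
    · have h7 : star (H ((xc n x).symm y)) * H ((xc n x).symm y) = 1 :=
        (Unitary.mem_iff.1 (hm.unit _ (h2 y (hDs hy)).1)).1
      show ContinuousLinearMap.adjoint (H ((xc n x).symm y)) * 1 * H ((xc n x).symm y) = 1
      rw [mul_one]
      exact h7

/-- densities -/
theorem dens_pull {D D' : Set (E n)} {X Y : E n → E n} {S : E n → EndF N} {x : M₂} {x' : M₁}
    (h : IsPull (Q.loc x) (P.loc x') D D' X Y S) {y : E n} (hy : y ∈ D) :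
    √((Q.loc x).g y).det = |(Jac X y).det| * √((P.loc x').g (X y)).det := by
  rw [h.g_eq y hy, Matrix.det_mul, Matrix.det_mul, Matrix.det_transpose,
    show (Jac X y).det * ((P.loc x').g (X y)).det * (Jac X y).det =
      (Jac X y).det ^ 2 * ((P.loc x').g (X y)).det by ring,
    Real.sqrt_mul (sq_nonneg _), Real.sqrt_sq_eq_abs]

/-- Local properties of a match: measures and pairings. -/
theorem lm_loc (hm : TM.LMatch P Q G O F H) {x : M₂} (hx : x ∈ O) :
    ∃ U : Set M₂, IsOpen U ∧ x ∈ U ∧ U ⊆ O ∧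
      (InjOn F O → ∀ A ⊆ U, MeasurableSet A → MeasurableSet (F '' A) ∧ P.μ (F '' A) = Q.μ A) ∧
      IsOpen (F '' U) ∧
      ∀ a b : M₁ → Fib N, ∀ a' b' : M₂ → Fib N, SmS n a → SmS n b → SmS n a' → SmS n b' →
        (∀ y ∈ O, a' y = H y (a (F y))) → (∀ y ∈ O, b' y = H y (b (F y))) → ∀ y ∈ U,
          pairing Q.g Q.A a' b' y = pairing P.g P.A a b (F y) := by
  obtain ⟨D, D', Y, hD, hD', hDt, hDt', hxD, hDO, hp⟩ := lm_pull hm hx
  set X : E n → E n := fun y => xc n (F x) (F ((xc n x).symm y)) with hX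
  have hd := hp.diffeo
  have hDm : MeasurableSet D := hD.energy_measurable
  have hDm' : MeasurableSet D' := hD'.energy_measurable
  have hop₂ : IsOpen ((xc n x).symm '' D) := by
    have h1 := TM.xc_image_open (n := n) (M := M₂) x hD hDt
    exact h1
  have hop₁ : ∀ D₁ ⊆ D', RelOpen D₁ → IsOpen ((xc n (F x)).symm '' D₁) := fun D₁ h1 h2 =>
    TM.xc_image_open (n := n) (M := M₁) (F x) h2 (h1.trans hDt')
  have hsF : ∀ y ∈ D, (xc n (F x)).symm (X y) = F ((xc n x).symm y) := fun y hy =>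
    (xc n (F x)).left_inv (hDO y hy).2
  have hXD : X '' D = D' := by
    apply Subset.antisymm
    · rintro _ ⟨y, hy, rfl⟩; exact hd.mapsX hy
    · intro y hy; exact ⟨Y y, hd.mapsY hy, hd.inv2 y hy⟩
  have hFU : F '' ((xc n x).symm '' D) = (xc n (F x)).symm '' D' := by
    rw [← hXD, image_image, image_image]
    exact image_congr fun y hy => (hsF y hy).symm
  refine ⟨(xc n x).symm '' D, hop₂, ⟨_, hxD, (xc n x).left_inv (mem_extChartAt_source x)⟩, ?_, ?_,
    ?_, ?_⟩
  · rintro _ ⟨y, hy, rfl⟩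
    exact (hDO y hy).1
  · intro hinj A hA hAm
    -- the set in the chart
    set B : Set (E n) := xc n x '' A with hB
    have hAs : A ⊆ (xc n x).source := fun a ha => by
      obtain ⟨y, hy, rfl⟩ := hA ha
      exact (xc n x).map_target (hDt hy)
    have hBD : B ⊆ D := by
      rintro _ ⟨a, ha, rfl⟩
      obtain ⟨y, hy, rfl⟩ := hA ha
      rw [(xc n x).right_inv (hDt hy)]
      exact hy
    have hBm : MeasurableSet B := by
      have h1 : B = D ∩ (xc n x).symm ⁻¹' A := by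
        ext y
        constructor
        · intro hy
          refine ⟨hBD hy, ?_⟩
          obtain ⟨a, ha, rfl⟩ := hy
          show (xc n x).symm (xc n x a) ∈ A
          rw [(xc n x).left_inv (hAs ha)]
          exact ha
        · rintro ⟨hy, hya⟩
          exact ⟨_, hya, (xc n x).right_inv (hDt hy)⟩
      rw [h1]
      exact meas_inter_pre ((continuousOn_extChartAt_symm (I := 𝓡∂ n) x).mono hDt) hDm hAm
    have hAB : (xc n x).symm '' B = A := by
      rw [hB, image_image]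
      refine Subset.antisymm ?_ ?_
      · rintro _ ⟨a, ha, rfl⟩
        show (xc n x).symm (xc n x a) ∈ A
        rw [(xc n x).left_inv (hAs ha)]
        exact ha
      · intro a ha
        exact ⟨a, ha, (xc n x).left_inv (hAs ha)⟩
    have hXB : X '' B ⊆ D' := by
      rw [← hXD]; exact image_mono hBD
    have hXBm : MeasurableSet (X '' B) := by
      have h1 : X '' B = D' ∩ Y ⁻¹' B := by
        ext y
        constructor
        · rintro ⟨w, hw, rfl⟩
          refine ⟨hd.mapsX (hBD hw), ?_⟩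
          show Y (X w) ∈ B
          rw [hd.inv1 w (hBD hw)]
          exact hw
        · rintro ⟨hy, hyB⟩
          exact ⟨Y y, hyB, hd.inv2 y hy⟩
      rw [h1]
      exact meas_inter_pre hd.smY.continuousOn hDm' hBm
    have hFA : F '' A = (xc n (F x)).symm '' (X '' B) := by
      have h1 : F '' A = F '' ((xc n x).symm '' B) := by rw [hAB]
      have h2 : F '' ((xc n x).symm '' B) = (fun y => F ((xc n x).symm y)) '' B :=
        image_image _ _ _
      have h3 : (xc n (F x)).symm '' (X '' B) = (fun y => (xc n (F x)).symm (X y)) '' B :=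
        image_image _ _ _
      rw [h1, h2, h3]
      exact image_congr fun y hy => (hsF y (hBD hy)).symm
    have hFAm : MeasurableSet (F '' A) := by
      rw [hFA]
      exact ((TM.fInt n N M₁ P).2.2 (F x) (X '' B) hXBm (hXB.trans hDt')).1
    refine ⟨hFAm, ?_⟩
    have hFAs : F '' A ⊆ (xc n (F x)).source := by
      rw [hFA]
      rintro _ ⟨y, hy, rfl⟩
      exact (xc n (F x)).map_target (hDt' (hXB hy))
    have hchF : xc n (F x) '' (F '' A) = X '' B := by
      rw [hFA, image_image]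
      refine Subset.antisymm ?_ ?_
      · rintro _ ⟨y, hy, rfl⟩
        show xc n (F x) ((xc n (F x)).symm y) ∈ X '' B
        rw [(xc n (F x)).right_inv (hDt' (hXB hy))]
        exact hy
      · intro y hy
        exact ⟨y, hy, (xc n (F x)).right_inv (hDt' (hXB hy))⟩
    have hXinj : InjOn X B := fun a ha b hb hab => by
      rw [← hd.inv1 a (hBD ha), ← hd.inv1 b (hBD hb), hab]
    have hder : ∀ y ∈ B, HasFDerivWithinAt X (fderivWithin ℝ X (Hs n) y) B y := fun y hy =>
      (hD.hasD (hBD hy) hd.smX (by simp)).mono (hBD.trans hD.subset)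
    have e1 : P.μ (F '' A) = ∫⁻ y in X '' B, ENNReal.ofReal √((P.loc (F x)).g y).det := by
      rw [P.hμ (F x) (F '' A) hFAm hFAs]
      show ∫⁻ y in xc n (F x) '' (F '' A), ENNReal.ofReal √((P.loc (F x)).g y).det = _
      rw [hchF]
    have e2 : Q.μ A = ∫⁻ y in B, ENNReal.ofReal √((Q.loc x).g y).det := Q.hμ x A hAm hAs
    rw [e1, e2, lintegral_image_eq_lintegral_abs_det_fderiv_mul volume hBm hder hXinj]
    refine setLIntegral_congr_fun hBm fun y hy => ?_
    show _ = ENNReal.ofReal √((Q.loc x).g y).det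
    rw [dens_pull hp (hBD hy), ENNReal.ofReal_mul (abs_nonneg _), energy_det hD hd.smX (hBD hy)]
  · rw [hFU]
    exact hop₁ D' Subset.rfl hD'
  · intro a b a' b' ha hb ha' hb' haa hbb
    rintro _ ⟨y, hy, rfl⟩
    obtain ⟨-, hok₂, -, hsm₂⟩ := TM.fLoc n N M₂
    obtain ⟨-, hok₁, -, hsm₁⟩ := TM.fLoc n N M₁
    have hL : (Q.loc x).Ok D := cERel_okMono (hok₂ Q x) hDt
    have hL' : (P.loc (F x)).Ok D' := cERel_okMono (hok₁ P (F x)) hDt'
    have hsa : ContDiffOn ℝ 1 (lu (𝓡∂ n) (F x) a) D' :=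
      ((hsm₁ a ha (F x)).mono hDt').of_le (by norm_cast)
    have hsb : ContDiffOn ℝ 1 (lu (𝓡∂ n) (F x) b) D' :=
      ((hsm₁ b hb (F x)).mono hDt').of_le (by norm_cast)
    have k1 := ed_pull hD hD' hL hL' hp hsa hsb hy
    have c1 : EqOn (fun y => H ((xc n x).symm y) (lu (𝓡∂ n) (F x) a (X y)))
        (lu (𝓡∂ n) x a') D := by
      intro w hw
      show H ((xc n x).symm w) (a ((xc n (F x)).symm (X w))) = a' ((xc n x).symm w)
      rw [hsF w hw, haa _ (hDO w hw).1]
    have c2 : EqOn (fun y => H ((xc n x).symm y) (lu (𝓡∂ n) (F x) b (X y)))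
        (lu (𝓡∂ n) x b') D := by
      intro w hw
      show H ((xc n x).symm w) (b ((xc n (F x)).symm (X w))) = b' ((xc n x).symm w)
      rw [hsF w hw, hbb _ (hDO w hw).1]
    rw [CRel1_ed_congr hD _ c1 c2 hy, CEnergy_ed Q x ha' hb' (hDt hy),
      CEnergy_ed P (F x) ha hb (hDt' (hd.mapsX hy)), hsF y hy, dens_pull hp hy] at k1
    have hJ : 0 < |(Jac X y).det| * √((P.loc (F x)).g (X y)).det := by
      rw [← dens_pull hp hy]
      exact Real.sqrt_pos.2 (((hok₂ Q x).g_pos y (hDt hy)).det_pos)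
    have hJ' : (((|(Jac X y).det| * √((P.loc (F x)).g (X y)).det : ℝ)) : ℂ) ≠ 0 :=
      Complex.ofReal_ne_zero.2 hJ.ne'
    have k2 : (((|(Jac X y).det| * √((P.loc (F x)).g (X y)).det : ℝ)) : ℂ) *
        pairing Q.g Q.A a' b' ((xc n x).symm y) =
        (((|(Jac X y).det| * √((P.loc (F x)).g (X y)).det : ℝ)) : ℂ) *
        pairing P.g P.A a b (F ((xc n x).symm y)) := by
      rw [k1]
      push_cast
      ring
    exact mul_left_cancel₀ hJ' k2

/-- Measures of the images of subsets of the matched set. -/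
theorem lm_meas (hm : TM.LMatch P Q G O F H) (hinj : InjOn F O) {A : Set M₂} (hA : A ⊆ O)
    (hAm : MeasurableSet A) : MeasurableSet (F '' A) ∧ P.μ (F '' A) = Q.μ A := by
  haveI : SecondCountableTopology (EuclideanHalfSpace n) := by
    unfold EuclideanHalfSpace
    infer_instance
  haveI : SecondCountableTopology M₂ :=
    ChartedSpace.secondCountable_of_sigmaCompact (EuclideanHalfSpace n) M₂
  rcases O.eq_empty_or_nonempty with h0 | hne
  · have h1 : A = ∅ := subset_empty_iff.1 (h0 ▸ hA)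
    subst h1
    simp
  have h1 : ∀ x : M₂, ∃ U : Set M₂, x ∈ O → IsOpen U ∧ x ∈ U ∧ U ⊆ O ∧
      ∀ A ⊆ U, MeasurableSet A → MeasurableSet (F '' A) ∧ P.μ (F '' A) = Q.μ A := by
    intro x
    by_cases hx : x ∈ O
    · obtain ⟨U, hU, hxU, hUO, hUm, -, -⟩ := lm_loc hm hx
      exact ⟨U, fun _ => ⟨hU, hxU, hUO, fun A hA hAm => hUm hinj A hA hAm⟩⟩
    · exact ⟨∅, fun h => absurd h hx⟩
  choose U hU using h1
  obtain ⟨t, htO, htc, htU⟩ := TopologicalSpace.countable_cover_nhdsWithin (f := U) (s := O)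
    fun x hx => mem_nhdsWithin_of_mem_nhds ((hU x hx).1.mem_nhds (hU x hx).2.1)
  have htne : t.Nonempty := by
    by_contra h
    rw [not_nonempty_iff_eq_empty] at h
    rw [h] at htU
    simp only [mem_empty_iff_false, iUnion_of_empty, iUnion_empty, subset_empty_iff] at htU
    exact hne.ne_empty htU
  obtain ⟨g, hg⟩ := htc.exists_eq_range htne
  have hgO : ∀ k, g k ∈ O := fun k => htO (by rw [hg]; exact mem_range_self k)
  set D : ℕ → Set M₂ := disjointed fun k => U (g k) with hD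
  have hDm : ∀ k, MeasurableSet (D k) := fun k =>
    MeasurableSet.disjointed (fun k => (hU _ (hgO k)).1.measurableSet) k
  have hDU : ∀ k, D k ⊆ U (g k) := fun k => disjointed_subset _ k
  have hAe : A = ⋃ k, A ∩ D k := by
    rw [← inter_iUnion, hD, iUnion_disjointed]
    refine (inter_eq_left.2 fun x hx => ?_).symm
    have h2 := htU (hA hx)
    rw [hg] at h2
    simp only [mem_iUnion, mem_range, exists_prop] at h2
    obtain ⟨_, ⟨k, rfl⟩, hk⟩ := h2
    exact mem_iUnion.2 ⟨k, hk⟩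
  have hk : ∀ k, MeasurableSet (F '' (A ∩ D k)) ∧ P.μ (F '' (A ∩ D k)) = Q.μ (A ∩ D k) := fun k =>
    (hU _ (hgO k)).2.2.2 _ (inter_subset_right.trans (hDU k)) (hAm.inter (hDm k))
  have hFe : F '' A = ⋃ k, F '' (A ∩ D k) := by
    conv_lhs => rw [hAe]
    exact image_iUnion
  have hdis : Pairwise (Function.onFun Disjoint fun k => A ∩ D k) := fun i j hij =>
    (disjoint_disjointed (fun k => U (g k)) hij).mono inter_subset_right inter_subset_right
  have hdisF : Pairwise (Function.onFun Disjoint fun k => F '' (A ∩ D k)) := fun i j hij => by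
    refine disjoint_left.2 ?_
    rintro _ ⟨a, ha, rfl⟩ ⟨b, hb, hab⟩
    have h3 : b = a := hinj (hA hb.1) (hA ha.1) hab
    rw [h3] at hb
    exact disjoint_left.1 (hdis hij) ha hb
  refine ⟨by rw [hFe]; exact MeasurableSet.iUnion fun k => (hk k).1, ?_⟩
  have e1 : Q.μ A = ∑' k, Q.μ (A ∩ D k) := by
    conv_lhs => rw [hAe]
    exact measure_iUnion hdis fun k => hAm.inter (hDm k)
  rw [hFe, measure_iUnion hdisF fun k => (hk k).1, e1]
  exact tsum_congr fun k => (hk k).2

/-- Integrals over the image. -/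
theorem lm_int (hm : TM.LMatch P Q G O F H) (hinj : InjOn F O) {A : Set M₂} (hA : A ⊆ O)
    (hAm : MeasurableSet A) {E' : Type*} [NormedAddCommGroup E'] [NormedSpace ℝ E'] {g : M₁ → E'}
    (hg : AEStronglyMeasurable g P.μ) : ∫ y in F '' A, g y ∂P.μ = ∫ x in A, g (F x) ∂Q.μ := by
  have hFc : ContinuousOn F O := hm.smφ.continuousOn
  have hFa : AEMeasurable F (Q.μ.restrict A) := (hFc.mono hA).aemeasurable hAm
  have hmap : Measure.map F (Q.μ.restrict A) = P.μ.restrict (F '' A) := by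
    refine Measure.ext fun B hB => ?_
    rw [Measure.map_apply_of_aemeasurable hFa hB, Measure.restrict_apply' hAm,
      Measure.restrict_apply hB]
    have h1 : MeasurableSet (F ⁻¹' B ∩ A) := by
      rw [inter_comm]
      exact meas_inter_pre (hFc.mono hA) hAm hB
    rw [← (lm_meas hm hinj (inter_subset_right.trans hA) h1).2]
    congr 1
    ext y
    constructor
    · rintro ⟨x, ⟨hx, hxA⟩, rfl⟩
      exact ⟨hx, x, hxA, rfl⟩
    · rintro ⟨hy, x, hxA, rfl⟩
      exact ⟨x, ⟨hy, hxA⟩, rfl⟩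
  rw [← hmap, integral_map hFa]
  rw [hmap]
  exact hg.mono_measure Measure.restrict_le_self

/-- Pairings of corresponding sections. -/
theorem lm_pairing (hm : TM.LMatch P Q G O F H) {a b : M₁ → Fib N} {a' b' : M₂ → Fib N}
    (ha : SmS n a) (hb : SmS n b) (ha' : SmS n a') (hb' : SmS n b')
    (haa : ∀ y ∈ O, a' y = H y (a (F y))) (hbb : ∀ y ∈ O, b' y = H y (b (F y))) {y : M₂}
    (hy : y ∈ O) : pairing Q.g Q.A a' b' y = pairing P.g P.A a b (F y) := by
  obtain ⟨U, -, hyU, -, -, -, h⟩ := lm_loc hm hy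
  exact h a b a' b' ha hb ha' hb' haa hbb y hyU

/-- The match on the interior part. -/
theorem wm_lm {V : Set M₂} (hV : IsOpen V) (hm : TM.WMatch P Q G V F H) [ConnectedSpace M₂] :
    TM.LMatch P Q G (V ∩ Mi n M₂) F H where
  isOpen := hV.inter (TM.fConn n M₂).1
  sub := inter_subset_right
  maps := fun x hx => hm.int x hx.1 hx.2
  smφ := hm.smF.mono inter_subset_left
  smV := hm.smH.mono inter_subset_left
  unit := fun x hx => hm.unit x hx.1
  met := fun x hx => hm.met x hx.1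
  con := fun x hx => hm.con x hx.1
  sol := fun u hu x hx => hm.sol u hu x hx.1

theorem wm_inj {V : Set M₂} (hm : TM.WMatch P Q G V F H) : InjOn F (V ∩ Mi n M₂) :=
  hm.inj.mono (inter_subset_inter_right _ subset_union_left)

/-- **Energies on the matched sets.** -/
theorem wm_on [ConnectedSpace M₂] {V : Set M₂} (hV : IsOpen V) (hm : TM.WMatch P Q G V F H)
    {a b : M₁ → Fib N} {a' b' : M₂ → Fib N}
    (ha : SmS n a) (hb : SmS n b) (ha' : SmS n a') (hb' : SmS n b')
    (haa : ∀ y ∈ V, a' y = H y (a (F y))) (hbb : ∀ y ∈ V, b' y = H y (b (F y))) {A : Set M₂}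
    (hA : A ⊆ V ∩ Mi n M₂) (hAm : MeasurableSet A) :
    MeasurableSet (F '' A) ∧ EK P (F '' A) a b = EK Q A a' b' := by
  have hl := wm_lm hV hm
  have hi := wm_inj hm
  refine ⟨(lm_meas hl hi hA hAm).1, ?_⟩
  unfold EK
  rw [lm_int hl hi hA hAm (continuous_pairing P.g P.A ha hb).aestronglyMeasurable]
  refine setIntegral_congr_fun hAm fun x hx => ?_
  exact (lm_pairing hl ha hb ha' hb' (fun y hy => haa y hy.1) (fun y hy => hbb y hy.1)
    (hA hx)).symm

/-- **`L²` products on the matched sets.** -/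
theorem wm_l2 [ConnectedSpace M₂] {V : Set M₂} (hV : IsOpen V) (hm : TM.WMatch P Q G V F H)
    {a b : M₁ → Fib N} {a' b' : M₂ → Fib N}
    (ha : SmS n a) (hb : SmS n b)
    (haa : ∀ y ∈ V, a' y = H y (a (F y))) (hbb : ∀ y ∈ V, b' y = H y (b (F y))) {A : Set M₂}
    (hA : A ⊆ V ∩ Mi n M₂) (hAm : MeasurableSet A) :
    ∫ x in F '' A, (inner ℂ (a x) (b x) : ℂ) ∂P.μ = ∫ x in A, (inner ℂ (a' x) (b' x) : ℂ) ∂Q.μ := by
  have hl := wm_lm hV hm
  have hi := wm_inj hm
  rw [lm_int hl hi hA hAm (ha.continuous.inner hb.continuous).aestronglyMeasurable]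
  refine setIntegral_congr_fun hAm fun x hx => ?_
  have h1 : star (H x) * H x = 1 := (Unitary.mem_iff.1 (hm.unit x (hA hx).1)).1
  show (inner ℂ (a (F x)) (b (F x)) : ℂ) = inner ℂ (a' x) (b' x)
  rw [haa x (hA hx).1, hbb x (hA hx).1, ← ContinuousLinearMap.adjoint_inner_right]
  have h2 := congrArg (fun T : EndF N => T (b (F x))) h1
  simp only [ContinuousLinearMap.mul_apply, ContinuousLinearMap.one_apply] at h2
  rw [← ContinuousLinearMap.star_eq_adjoint, h2]

variable [ConnectedSpace M₁] [ConnectedSpace M₂]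

/-- The total energies of matched solutions. -/
theorem pp_energy (hG : G.Ok n N) (hS : TM.SameD P Q G) {u v : (M₁ → Fib N) × (M₂ → Fib N)}
    (hu : u ∈ TM.PP P Q G) (hv : v ∈ TM.PP P Q G) : P.E u.1 v.1 = Q.E u.2 v.2 := by
  have hb₁ : ((𝓡∂ n).boundary M₁).Nonempty := TM.bne hG.rel₁ hG.ne₁
  have hb₂ : ((𝓡∂ n).boundary M₂).Nonempty := TM.bne hG.rel₂ hG.ne₂
  obtain ⟨f₁, f₂, hf, h1, h2⟩ := id hu
  obtain ⟨g₁, g₂, hg, h3, h4⟩ := id hv
  have e0 : P.E f₁ v.1 = Q.E f₂ v.2 := (TM.gData n N M₁ M₂ P Q G hG hS).2 v hv f₁ f₂ hf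
  have e1 : P.E f₁ v.1 = P.E u.1 v.1 :=
    ((TM.fUniq n N M₁ P hb₁).2.2 g₁ v.1 f₁ u.1 h3 hf.h₁.smooth h1.smooth
      fun x hx => (h1.boundary x hx).symm).2
  have e2 : Q.E f₂ v.2 = Q.E u.2 v.2 :=
    ((TM.fUniq n N M₂ Q hb₂).2.2 g₂ v.2 f₂ u.2 h4 hf.h₂.smooth h2.smooth
      fun x hx => (h2.boundary x hx).symm).2
  rw [← e1, ← e2, e0]

/-- **(P2)** The energies of matched solutions off the matched sets. -/
theorem ek_two (hG : G.Ok n N) (hS : TM.SameD P Q G) {V : Set M₂} (hV : IsOpen V)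
    (hm : TM.WMatch P Q G V F H) {u v : (M₁ → Fib N) × (M₂ → Fib N)}
    (hu : u ∈ TM.PP P Q G) (hv : v ∈ TM.PP P Q G) :
    EK P (F '' V)ᶜ u.1 v.1 = EK Q Vᶜ u.2 v.2 := by
  haveI := (TM.fInt n N M₁ P).1
  haveI := (TM.fInt n N M₂ Q).1
  obtain ⟨f₁, f₂, hf, h1, h2⟩ := id hu
  obtain ⟨g₁, g₂, hg, h3, h4⟩ := id hv
  set V' : Set M₂ := V ∩ Mi n M₂ with hV'
  have hVo : IsOpen V' := hV.inter (TM.fConn n M₂).1
  obtain ⟨hFm, hFe⟩ := wm_on hV hm h1.smooth h3.smooth h2.smooth h4.smooth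
    (fun y hy => hm.sol u hu y hy) (fun y hy => hm.sol v hv y hy) Subset.rfl hVo.measurableSet
  have iP : Integrable (fun x => pairing P.g P.A u.1 v.1 x) P.μ :=
    integrable_of_continuous (continuous_pairing P.g P.A h1.smooth h3.smooth)
  have iQ : Integrable (fun x => pairing Q.g Q.A u.2 v.2 x) Q.μ :=
    integrable_of_continuous (continuous_pairing Q.g Q.A h2.smooth h4.smooth)
  have s1 := integral_add_compl hFm iP
  have s2 := integral_add_compl hVo.measurableSet iQ
  have e0 : ∫ x, pairing P.g P.A u.1 v.1 x ∂P.μ = ∫ x, pairing Q.g Q.A u.2 v.2 x ∂Q.μ :=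
    pp_energy hG hS hu hv
  unfold EK at hFe
  rw [← s1, ← s2, hFe] at e0
  have e1 := add_left_cancel e0
  -- null sets
  have n2 : (Vᶜ : Set M₂) =ᵐ[Q.μ] V'ᶜ := by
    refine Filter.EventuallyEq.compl ?_
    have h5 : V' ⊆ V := inter_subset_left
    have h6 : Q.μ (V \ V') = 0 := by
      refine measure_mono_null ?_ (bdry_null Q)
      rintro x ⟨hx, hx'⟩
      by_contra h
      refine hx' ⟨hx, ?_⟩
      show x ∈ (𝓡∂ n).interior M₂
      rw [← ModelWithCorners.compl_boundary]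
      exact h
    exact (ae_eq_set.2 ⟨h6, by rw [diff_eq_empty.2 h5]; exact measure_empty⟩)
  have n1 : ((F '' V)ᶜ : Set M₁) =ᵐ[P.μ] (F '' V')ᶜ := by
    refine Filter.EventuallyEq.compl ?_
    have h5 : F '' V' ⊆ F '' V := image_mono inter_subset_left
    have h6 : P.μ (F '' V \ F '' V') = 0 := by
      refine measure_mono_null ?_ (bdry_null P)
      rintro _ ⟨⟨x, hx, rfl⟩, hx'⟩
      by_contra h
      refine hx' ⟨x, ⟨hx, ?_⟩, rfl⟩
      by_contra h7
      refine h (hm.bdr x hx ?_)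
      have h8 : x ∈ ((𝓡∂ n).interior M₂)ᶜ := h7
      rwa [ModelWithCorners.compl_interior] at h8
    exact (ae_eq_set.2 ⟨h6, by rw [diff_eq_empty.2 h5]; exact measure_empty⟩)
  unfold EK
  rw [Measure.restrict_congr_set n1, Measure.restrict_congr_set n2]
  exact e1

end Two

end Vale.Agent.P088.R2.H509.S3
end
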