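import Vale.Agent.P088.R2.H509.S3.Rr

/-!
# P088, stage 3: the pair of solutions attached to a test function
-/

set_option linter.all false

open Bundle Manifold MeasureTheory Set Filter Topology Metric
open scoped ContDiff

noncomputable section

namespace Vale.Agent.P088.R2.H509.S3

open Vale.Agent.P088 Vale.Agent.P088.EYM Vale.Agent.P088.TM
open Vale.Agent.P088.EYM.Q (IsMod)

universe u

section One

variable {n : ℕ} [NeZero n] {M : Type u}
  [TopologicalSpace M] [ChartedSpace (EuclideanHalfSpace n) M] [IsManifold (𝓡∂ n) ∞ M]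
  [MeasurableSpace M]

/-- A real boundary model. -/
structure RBM (P : One n 1 M) (e : E n → M) (L : LD n 1) (D₀ : Set (E n)) (z : E n) (r₀ : ℝ)
    (W : Model n 1) (D : Set (E n)) (X Y : E n → E n) (S : E n → EndF 1) (s : Fin 1 → M → Fib 1)
    (t : Fin n → M → Fib 1) : Prop where
  b : BC P e L D₀
  B0 : ∀ y ∈ D₀, ∀ j, L.B j y = 0
  bd : BdM e L D₀ z r₀ 0 W D X Y S s t
  ss : SmS n (s 0)
  cs : ∀ x, cj 1 (s 0 x) = s 0 x
  ct : ∀ a x, cj 1 (t a x) = t a x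
  pos : ∀ y ∈ HB z r₀, 0 < rho0 (s 0) e (Y y)

/-- the value of the section in the model -/
def vm (e : E n → M) (S : E n → EndF 1) (Y : E n → E n) (u : M → Fib 1) (y : E n) : ℝ :=
  (Ring.inverse (S (Y y)) (u (e (Y y))) 0).re

variable {P : One n 1 M} {e : E n → M} {L : LD n 1} {D₀ : Set (E n)} {z : E n} {r₀ r : ℝ}
  {W : Model n 1} {D : Set (E n)} {X Y : E n → E n} {S : E n → EndF 1} {s : Fin 1 → M → Fib 1}
  {t : Fin n → M → Fib 1}

theorem RBM.rm (h : RBM P e L D₀ z r₀ W D X Y S s t) :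
    RM W (fun y => rho0 (s 0) e (Y y)) (HB z r₀) :=
  rm_of_bdm h.b h.B0 h.bd h.ss h.cs h.ct h.pos

theorem RBM.S_eq (h : RBM P e L D₀ z r₀ W D X Y S s t) {x : E n} (hx : x ∈ D) :
    S x = rho0 (s 0) e x • (1 : EndF 1) := by
  refine endF_one_eq ?_
  rw [h.bd.frame x hx (io 1)]
  simp only [Finset.univ_unique, Finset.sum_singleton]
  show io 1 0 • s 0 (e x) = _
  rw [io_apply, io_eq (h.cs (e x))]
  simp [rho0]

theorem RBM.side (h : RBM P e L D₀ z r₀ W D X Y S s t) {u : M → Fib 1}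
    (hu : ∀ x, cj 1 (u x) = u x) :
    EqOn (fun y => Ring.inverse (S (Y y)) (u (e (Y y)))) (cf (vm e S Y u)) (HB z r₀) := by
  intro y hy
  have hYD := h.bd.pull.diffeo.mapsY hy
  have hp := h.pos y hy
  set w : Fib 1 := Ring.inverse (S (Y y)) (u (e (Y y))) with hw
  have h1 : S (Y y) * Ring.inverse (S (Y y)) = 1 :=
    Ring.mul_inverse_cancel _ (h.bd.pull.unit _ hYD)
  have h2 := congrArg (fun T : EndF 1 => T (u (e (Y y)))) h1
  simp only [ContinuousLinearMap.mul_apply, ContinuousLinearMap.one_apply] at h2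
  rw [← hw, h.S_eq hYD] at h2
  have h3 : rho0 (s 0) e (Y y) • w = u (e (Y y)) := h2
  have h4 : rho0 (s 0) e (Y y) • cj 1 w = rho0 (s 0) e (Y y) • w := by
    rw [← map_smul, h3, hu]
  have h5 : cj 1 w = w := by
    have h6 := congrArg (fun T : Fib 1 => (rho0 (s 0) e (Y y))⁻¹ • T) h4
    simp only [smul_smul, inv_mul_cancel₀ hp.ne', one_smul] at h6
    exact h6
  exact io_eq h5

theorem RBM.zreal (h : RBM P e L D₀ z r₀ W D X Y S s t) {f : E n → ℝ} (hf : TstR z r f)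
    {Zc : M → Fib 1} (hZ : IsZ e D₀ z r D X S (cf f) Zc) (x : M) : cj 1 (Zc x) = Zc x := by
  by_cases hx : x ∈ e '' D
  · obtain ⟨y, hy, rfl⟩ := hx
    rw [hZ.eq y hy, hf.ext, h.S_eq hy, cf_apply, rsmul_io, io]
    ext i
    rw [cj_apply]
    have h1 : (starRingEnd ℂ) (io (rho0 (s 0) e y * f (X y)) i) =
        io (rho0 (s 0) e y * f (X y)) i := by
      rw [io_apply, Complex.conj_ofReal]
    exact h1
  · have h1 : Zc x = 0 := image_eq_zero_of_notMem_tsupport fun h' => hx (hZ.ts h')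
    rw [h1, map_zero]

variable [T2Space M] [CompactSpace M] [ConnectedSpace M] [BorelSpace M]

/-- one side -/
theorem RBM.one (h : RBM P e L D₀ z r₀ W D X Y S s t) (hbne : ((𝓡∂ n).boundary M).Nonempty)
    (hA : A0 P.A) (hr : 0 < r) (hrr : r < r₀) :
    ∃ C : ℝ, 0 ≤ C ∧ ∀ f, TstR z r f → ∀ Zc, IsZ e D₀ z r D X S (cf f) Zc → ∀ u, P.Harm Zc u →
      (∀ x, cj 1 (u x) = u x) ∧ ContDiffOn ℝ ∞ (vm e S Y u) (HB z r₀) ∧
      (∀ x ∈ HB z r₀, dS W.g (fun y => rho0 (s 0) e (Y y)) (vm e S Y u) x = 0) ∧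
      (∀ x ∈ HB z r₀, x 0 = 0 → vm e S Y u x = f x) ∧
      ∫ x in HB z r, q1 (fun y => f y - vm e S Y u y) x ≤
        C * ∫ x in HB z r, dS W.g (fun y => rho0 (s 0) e (Y y)) f x ^ 2 ∧
      ∫ x in HB z r, q1 (fun y => f y - vm e S Y u y) x ≤ C * ∫ x in HB z r, q1 f x := by
  have hrm := h.rm
  have hz := h.bd.z0
  obtain ⟨C₁, hC₁, k₁⟩ := pcRem hbne h.b h.bd r hr hrr
  obtain ⟨C₂, hC₂, k₂⟩ := hrm.low hz hr hrr
  obtain ⟨C₃, hC₃, k₃⟩ := hrm.up hrr
  obtain ⟨C₄, hC₄, k₄⟩ := hrm.rem hz hr hrr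
  refine ⟨C₂ * (C₁ * C₄) + C₂ * C₃, by positivity, fun f hf Zc hZ u hu => ?_⟩
  have hur : ∀ x, cj 1 (u x) = u x := fun x =>
    harm_real hbne hA hu (fun x _ => h.zreal hf hZ x) x
  obtain ⟨s1, s2, s3⟩ := pcSide h.b h.bd hu
  have hside := h.side hur
  have hsm : ContDiffOn ℝ ∞ (vm e S Y u) (HB z r₀) := by
    have h1 : ContDiff ℝ ∞ (fun v : Fib 1 => (v 0).re) :=
      Complex.reCLM.contDiff.comp
        (((EuclideanSpace.proj (𝕜 := ℂ) (0 : Fin 1)).restrictScalars ℝ).contDiff)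
    exact h1.comp_contDiffOn s1
  have hsol : Sol W.toLD (HB z r₀) (cf (vm e S Y u)) :=
    cERel_sol_congr W.toLD hrm.rel (fun y hy => hside hy) s3
  have hbd : ∀ x ∈ HB z r₀, x 0 = 0 → vm e S Y u x = f x := by
    intro x hx hx0
    obtain ⟨a1, -, a3, a4⟩ := h.bd.bd x hx hx0
    have hxD := h.bd.sub a1
    unfold vm
    rw [a3, a4, Ring.inverse_one, ContinuousLinearMap.one_apply,
      hu.boundary _ ((h.b.bd x hxD).2 hx0), hZ.bd x hxD hx0, hf.ext, cf_apply, io_re]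
  refine ⟨hur, hsm, fun x hx => hrm.dS_zero hsm hsol hx, hbd, ?_⟩
  have hfs : ContDiffOn ℝ ∞ f (HB z r₀) := hf.sm.contDiffOn
  have hqs : ContDiffOn ℝ ∞ (fun y => f y - vm e S Y u y) (HB z r₀) := hfs.sub hsm
  have hq0 : ∀ x ∈ HB z r₀, x 0 = 0 → f x - vm e S Y u x = 0 := fun x hx hx0 => by
    rw [hbd x hx hx0, sub_self]
  obtain ⟨e1, e2⟩ := k₁ (cf f) hf.cf Zc hZ u hu
  have heq : EqOn (fun y => cf f y - Ring.inverse (S (Y y)) (u (e (Y y))))
      (cf fun y => f y - vm e S Y u y) (HB z r) := by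
    intro y hy
    have h1 : Ring.inverse (S (Y y)) (u (e (Y y))) = io (vm e S Y u y) :=
      hside (CRel1_HB_mono z hrr.le hy)
    show cf f y - Ring.inverse (S (Y y)) (u (e (Y y))) = io (f y - vm e S Y u y)
    rw [h1, map_sub, cf_apply]
  rw [CRel1_En_congr (CRel1_rel z r) _ heq heq] at e1 e2
  have e3 := k₂ _ hqs hq0
  have e4 := k₃ f hfs
  have e5 := k₄ f hfs
  have p1 : 0 ≤ ∫ x in HB z r, dS W.g (fun y => rho0 (s 0) e (Y y)) f x ^ 2 :=
    integral_nonneg fun _ => sq_nonneg _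
  have p2 : 0 ≤ ∫ x in HB z r, q1 f x := integral_nonneg fun _ => q1_nonneg _ _
  constructor
  · calc _ ≤ C₂ * (En W.toLD (HB z r) (cf fun y => f y - vm e S Y u y)
          (cf fun y => f y - vm e S Y u y)).re := e3
      _ ≤ C₂ * (C₁ * Rem W.toLD z r (cf f) ^ 2) := mul_le_mul_of_nonneg_left e1 hC₂
      _ ≤ C₂ * (C₁ * (C₄ * ∫ x in HB z r, dS W.g (fun y => rho0 (s 0) e (Y y)) f x ^ 2)) :=
          mul_le_mul_of_nonneg_left (mul_le_mul_of_nonneg_left e5 hC₁) hC₂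
      _ ≤ _ := by
          have : 0 ≤ C₂ * C₃ * ∫ x in HB z r, dS W.g (fun y => rho0 (s 0) e (Y y)) f x ^ 2 := by
            positivity
          linarith
  · calc _ ≤ C₂ * (En W.toLD (HB z r) (cf fun y => f y - vm e S Y u y)
          (cf fun y => f y - vm e S Y u y)).re := e3
      _ ≤ C₂ * (En W.toLD (HB z r) (cf f) (cf f)).re := mul_le_mul_of_nonneg_left e2 hC₂
      _ ≤ C₂ * (C₃ * ∫ x in HB z r, q1 f x) := mul_le_mul_of_nonneg_left e4 hC₂
      _ ≤ _ := by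
          have : 0 ≤ C₂ * (C₁ * C₄) * ∫ x in HB z r, q1 f x := by positivity
          linarith

end One

end Vale.Agent.P088.R2.H509.S3
end
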