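import Vale.Agent.P088.R2.H509.S3.Ps

/-!
# P088, stage 3: the pair of solution operators
-/

set_option linter.all false

open Bundle Manifold MeasureTheory Set Filter Topology Metric
open scoped ContDiff

noncomputable section

namespace Vale.Agent.P088.R2.H509.S3

open Vale.Agent.P088 Vale.Agent.P088.EYM Vale.Agent.P088.TM
open Vale.Agent.P088.EYM.Q (IsMod)

universe u

/-- A pair of solution operators for the equations `div σ₁ grad = 0` and `div σ₂ grad = 0` in a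
half ball with the same Cauchy data. -/
structure PSol {n : ℕ} [NeZero n] (W₁ W₂ : Model n 1) (ρ₁ ρ₂ : E n → ℝ) (z : E n) (r r₀ C : ℝ)
    (V₁ V₂ : (E n → ℝ) → E n → ℝ) : Prop where
  sm₁ : ∀ f, TstR z r f → ContDiffOn ℝ ∞ (V₁ f) (HB z r₀)
  sm₂ : ∀ f, TstR z r f → ContDiffOn ℝ ∞ (V₂ f) (HB z r₀)
  sol₁ : ∀ f, TstR z r f → ∀ x ∈ HB z r₀, dS W₁.g ρ₁ (V₁ f) x = 0
  sol₂ : ∀ f, TstR z r f → ∀ x ∈ HB z r₀, dS W₂.g ρ₂ (V₂ f) x = 0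
  val₁ : ∀ f, TstR z r f → ∀ x ∈ HB z r₀, x 0 = 0 → V₁ f x = f x
  val₂ : ∀ f, TstR z r f → ∀ x ∈ HB z r₀, x 0 = 0 → V₂ f x = f x
  fl : ∀ f, TstR z r f → ∀ x ∈ HB z r, x 0 = 0 → fs W₁.g ρ₁ (V₁ f) 0 x = fs W₂.g ρ₂ (V₂ f) 0 x
  lin₁ : ∀ f g, TstR z r f → TstR z r g → ∀ a b : ℝ, ∀ x,
    V₁ (fun y => a * f y + b * g y) x = a * V₁ f x + b * V₁ g x
  lin₂ : ∀ f g, TstR z r f → TstR z r g → ∀ a b : ℝ, ∀ x,
    V₂ (fun y => a * f y + b * g y) x = a * V₂ f x + b * V₂ g x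
  e₁ : ∀ f, TstR z r f → ∫ x in HB z r, q1 (fun y => f y - V₁ f y) x ≤
    C * ∫ x in HB z r, dS W₁.g ρ₁ f x ^ 2
  e₂ : ∀ f, TstR z r f → ∫ x in HB z r, q1 (fun y => f y - V₂ f y) x ≤
    C * ∫ x in HB z r, q1 f x
  rm₁ : RM W₁ ρ₁ (HB z r₀)
  rm₂ : RM W₂ ρ₂ (HB z r₀)
  sf : ∀ k, ∀ x ∈ HB z r, x 0 = 0 → sg W₁.g ρ₁ 0 k x = sg W₂.g ρ₂ 0 k x

variable {n : ℕ} [NeZero n]

/-- fluxes with respect to `σ` -/
theorem RM.fs_eq {W : Model n 1} {ρ : E n → ℝ} {D : Set (E n)} (h : RM W ρ D) {f : E n → ℝ}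
    (hf : ContDiffOn ℝ ∞ f D) {x : E n} (hx : x ∈ D) (j : Fin n) :
    fs W.g ρ f j x = ρ x * fx W.g (fun y => ρ y * f y) j x - (ρ x * f x) * fx W.g ρ j x := by
  simp only [fs, fx, sg, Finset.mul_sum]
  rw [← Finset.sum_sub_distrib]
  refine Finset.sum_congr rfl fun k _ => ?_
  have h1 : pd k (fun y => ρ y * f y) x = pd k ρ x * f x + ρ x * pd k f x :=
    pdm h.rel h.sm hf hx k
  rw [h1]
  ring

variable {M₁ M₂ : Type u}
  [TopologicalSpace M₁] [ChartedSpace (EuclideanHalfSpace n) M₁] [IsManifold (𝓡∂ n) ∞ M₁]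
  [TopologicalSpace M₂] [ChartedSpace (EuclideanHalfSpace n) M₂] [IsManifold (𝓡∂ n) ∞ M₂]
  [MeasurableSpace M₁] [MeasurableSpace M₂]
  {P : One n 1 M₁} {Q : One n 1 M₂} {G : Gl M₁ M₂} {e₁ : E n → M₁} {e₂ : E n → M₂}
  {L₁ L₂ : LD n 1} {D₀ : Set (E n)}
  [T2Space M₁] [CompactSpace M₁] [ConnectedSpace M₁] [BorelSpace M₁]
  [T2Space M₂] [CompactSpace M₂] [ConnectedSpace M₂] [BorelSpace M₂]

/-- The solution operators of two manifolds with the same boundary data. -/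
theorem pairSol (hP : PC P Q G e₁ e₂ L₁ L₂ D₀) (hG : G.Ok n 1) (hS : SameD P Q G)
    (hA : A0 P.A) (hA' : A0 Q.A)
    {z : E n} {r₀ r : ℝ} {W₁ W₂ : Model n 1} {D₁ D₂ : Set (E n)}
    {X₁ Y₁ X₂ Y₂ : E n → E n} {S₁ S₂ : E n → EndF 1}
    {s : Fin 1 → (M₁ → Fib 1) × (M₂ → Fib 1)} {t : Fin n → (M₁ → Fib 1) × (M₂ → Fib 1)}
    (hs : ∀ j, s j ∈ PP P Q G) (ht : ∀ a, t a ∈ PP P Q G)
    (h₁ : RBM P e₁ L₁ D₀ z r₀ W₁ D₁ X₁ Y₁ S₁ (fun j => (s j).1) (fun a => (t a).1))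
    (h₂ : RBM Q e₂ L₂ D₀ z r₀ W₂ D₂ X₂ Y₂ S₂ (fun j => (s j).2) (fun a => (t a).2))
    (hr : 0 < r) (hrr : r < r₀) :
    ∃ (C : ℝ) (V₁ V₂ : (E n → ℝ) → E n → ℝ), 0 ≤ C ∧
      PSol W₁ W₂ (fun y => rho0 (s 0).1 e₁ (Y₁ y)) (fun y => rho0 (s 0).2 e₂ (Y₂ y)) z r r₀ C
        V₁ V₂ := by
  have hbd₁ : ((𝓡∂ n).boundary M₁).Nonempty := bne hG.rel₁ hG.ne₁
  have hbd₂ : ((𝓡∂ n).boundary M₂).Nonempty := bne hG.rel₂ hG.ne₂
  obtain ⟨hU₁, hL₁, -⟩ := fUniq n 1 M₁ P hbd₁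
  obtain ⟨hU₂, hL₂, -⟩ := fUniq n 1 M₂ Q hbd₂
  obtain ⟨C₁, hC₁, k₁⟩ := h₁.one hbd₁ hA hr hrr
  obtain ⟨C₂, hC₂, k₂⟩ := h₂.one hbd₂ hA' hr hrr
  have hsub : HB z r ⊆ HB z r₀ := CRel1_HB_mono z hrr.le
  -- sections
  have hz₁ : ∀ f, TstR z r f → ∃ Z, IsZ e₁ D₀ z r D₁ X₁ S₁ (cf f) Z := fun f hf => by
    obtain ⟨Z, a1, a2, a3, a4⟩ := pcZ h₁.b h₁.bd r hrr (cf f) hf.cf
    exact ⟨Z, a1, a2, a3, a4⟩
  have hz₂ : ∀ f, TstR z r f → ∃ Z, IsZ e₂ D₀ z r D₂ X₂ S₂ (cf f) Z := fun f hf => by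
    obtain ⟨Z, a1, a2, a3, a4⟩ := pcZ h₂.b h₂.bd r hrr (cf f) hf.cf
    exact ⟨Z, a1, a2, a3, a4⟩
  choose! Z₁ hZ₁ using hz₁
  choose! Z₂ hZ₂ using hz₂
  have hmd : ∀ f, TstR z r f → MD n G (Z₁ f) (Z₂ f) := fun f hf =>
    hP.md hG (hZ₁ f hf).sm (hZ₂ f hf).sm ((hZ₁ f hf).ts.trans (image_mono h₁.bd.sub))
      ((hZ₂ f hf).ts.trans (image_mono h₂.bd.sub))
      fun y hy hy0 => by rw [(hZ₁ f hf).bd y hy hy0, (hZ₂ f hf).bd y hy hy0]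
  have hh : ∀ f, TstR z r f → ∃ u₁ u₂, P.Harm (Z₁ f) u₁ ∧ Q.Harm (Z₂ f) u₂ := fun f hf => by
    obtain ⟨u₁, v₁, u₂, v₂, a1, -, a3, -, -⟩ := hS _ _ _ _ (hmd f hf) (hmd f hf)
    exact ⟨u₁, u₂, a1, a3⟩
  choose! U₁ U₂ hU using hh
  -- linearity of the sections
  have zl₁ : ∀ f g, TstR z r f → TstR z r g → ∀ a b : ℝ,
      U₁ (fun y => a * f y + b * g y) = (a : ℂ) • U₁ f + (b : ℂ) • U₁ g := by
    intro f g hf hg a b
    have hfg := hf.lin hg a b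
    refine hU₁ _ _ _ _ (hU _ hfg).1 (hL₁ _ _ _ _ (a : ℂ) (b : ℂ) (hU f hf).1 (hU g hg).1)
      fun x _ => ?_
    have a1 := hZ₁ _ hfg
    have a2 := hZ₁ _ hf
    have a3 := hZ₁ _ hg
    show _ = (a : ℂ) • Z₁ f x + (b : ℂ) • Z₁ g x
    by_cases hx : x ∈ e₁ '' D₁
    · obtain ⟨y, hy, rfl⟩ := hx
      rw [a1.eq y hy, a2.eq y hy, a3.eq y hy, hf.ext, hg.ext, hfg.ext, ← map_smul, ← map_smul,
        ← map_add]
      congr 1
      show io _ = (a : ℂ) • io (f (X₁ y)) + (b : ℂ) • io (g (X₁ y))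
      rw [map_add, ← smul_eq_mul, ← smul_eq_mul, map_smul, map_smul]
      rfl
    · have b1 : Z₁ (fun y => a * f y + b * g y) x = 0 :=
        image_eq_zero_of_notMem_tsupport fun h' => hx (a1.ts h')
      have b2 : Z₁ f x = 0 := image_eq_zero_of_notMem_tsupport fun h' => hx (a2.ts h')
      have b3 : Z₁ g x = 0 := image_eq_zero_of_notMem_tsupport fun h' => hx (a3.ts h')
      rw [b1, b2, b3]
      simp
  have zl₂ : ∀ f g, TstR z r f → TstR z r g → ∀ a b : ℝ,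
      U₂ (fun y => a * f y + b * g y) = (a : ℂ) • U₂ f + (b : ℂ) • U₂ g := by
    intro f g hf hg a b
    have hfg := hf.lin hg a b
    refine hU₂ _ _ _ _ (hU _ hfg).2 (hL₂ _ _ _ _ (a : ℂ) (b : ℂ) (hU f hf).2 (hU g hg).2)
      fun x _ => ?_
    have a1 := hZ₂ _ hfg
    have a2 := hZ₂ _ hf
    have a3 := hZ₂ _ hg
    show _ = (a : ℂ) • Z₂ f x + (b : ℂ) • Z₂ g x
    by_cases hx : x ∈ e₂ '' D₂
    · obtain ⟨y, hy, rfl⟩ := hx
      rw [a1.eq y hy, a2.eq y hy, a3.eq y hy, hf.ext, hg.ext, hfg.ext, ← map_smul, ← map_smul,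
        ← map_add]
      congr 1
      show io _ = (a : ℂ) • io (f (X₂ y)) + (b : ℂ) • io (g (X₂ y))
      rw [map_add, ← smul_eq_mul, ← smul_eq_mul, map_smul, map_smul]
      rfl
    · have b1 : Z₂ (fun y => a * f y + b * g y) x = 0 :=
        image_eq_zero_of_notMem_tsupport fun h' => hx (a1.ts h')
      have b2 : Z₂ f x = 0 := image_eq_zero_of_notMem_tsupport fun h' => hx (a2.ts h')
      have b3 : Z₂ g x = 0 := image_eq_zero_of_notMem_tsupport fun h' => hx (a3.ts h')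
      rw [b1, b2, b3]
      simp
  -- fluxes
  have hfl := (pcERel hP hG hS h₁.bd h₂.bd r hr hrr).2
  have hρ₁ : ∀ x ∈ HB z r₀, x 0 = 0 → rho0 (s 0).1 e₁ (Y₁ x) = 1 := by
    intro x hx hx0
    obtain ⟨a1, -, a3, a4⟩ := h₁.bd.bd x hx hx0
    have h := h₁.S_eq a1
    rw [a4] at h
    have h2 : (1 : ℝ) • (1 : EndF 1) = rho0 (s 0).1 e₁ x • (1 : EndF 1) := by rw [one_smul]; exact h
    rw [a3]
    exact (rone_inj h2).symm
  have hρ₂ : ∀ x ∈ HB z r₀, x 0 = 0 → rho0 (s 0).2 e₂ (Y₂ x) = 1 := by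
    intro x hx hx0
    obtain ⟨a1, -, a3, a4⟩ := h₂.bd.bd x hx hx0
    have h := h₂.S_eq a1
    rw [a4] at h
    have h2 : (1 : ℝ) • (1 : EndF 1) = rho0 (s 0).2 e₂ x • (1 : EndF 1) := by rw [one_smul]; exact h
    rw [a3]
    exact (rone_inj h2).symm
  have rm₁ := h₁.rm
  have rm₂ := h₂.rm
  have hfx : ∀ (u : (M₁ → Fib 1) × (M₂ → Fib 1)) (v₁ v₂ : E n → ℝ), u ∈ PP P Q G →
      ContDiffOn ℝ ∞ v₁ (HB z r₀) → ContDiffOn ℝ ∞ v₂ (HB z r₀) →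
      EqOn (fun y => Ring.inverse (S₁ (Y₁ y)) (u.1 (e₁ (Y₁ y)))) (cf v₁) (HB z r₀) →
      EqOn (fun y => Ring.inverse (S₂ (Y₂ y)) (u.2 (e₂ (Y₂ y)))) (cf v₂) (HB z r₀) →
      ∀ x ∈ HB z r, x 0 = 0 → fx W₁.g (fun y => rho0 (s 0).1 e₁ (Y₁ y) * v₁ y) 0 x =
        fx W₂.g (fun y => rho0 (s 0).2 e₂ (Y₂ y) * v₂ y) 0 x := by
    intro u v₁ v₂ hu hv₁ hv₂ he₁ he₂ x hx hx0
    have h := (hfl u hu x hx hx0).2
    have f1 : flux W₁.toLD 0 (fun y => Ring.inverse (S₁ (Y₁ y)) (u.1 (e₁ (Y₁ y)))) x =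
        flux W₁.toLD 0 (cf v₁) x := by
      unfold flux nab
      refine Finset.sum_congr rfl fun k _ => ?_
      rw [rm₁.rel.pd_congr he₁ (hsub hx) k, he₁ (hsub hx)]
    have f2 : flux W₂.toLD 0 (fun y => Ring.inverse (S₂ (Y₂ y)) (u.2 (e₂ (Y₂ y)))) x =
        flux W₂.toLD 0 (cf v₂) x := by
      unfold flux nab
      refine Finset.sum_congr rfl fun k _ => ?_
      rw [rm₂.rel.pd_congr he₂ (hsub hx) k, he₂ (hsub hx)]
    rw [f1, f2, rm₁.flux_cf hv₁ (hsub hx), rm₂.flux_cf hv₂ (hsub hx), hρ₁ x (hsub hx) hx0,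
      hρ₂ x (hsub hx) hx0, inv_one, one_mul, one_mul] at h
    have h3 := congrArg (fun v : Fib 1 => (v 0).re) h
    simpa only [io_re] using h3
  -- the frame
  have hone₁ : EqOn (fun y => Ring.inverse (S₁ (Y₁ y)) ((s 0).1 (e₁ (Y₁ y))))
      (cf fun _ => (1 : ℝ)) (HB z r₀) := by
    intro y hy
    have hYD := h₁.bd.pull.diffeo.mapsY hy
    have e1 : (s 0).1 (e₁ (Y₁ y)) = S₁ (Y₁ y) (io 1) := by
      have := h₁.bd.frame _ hYD (io 1)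
      simp only [Finset.univ_unique, Finset.sum_singleton] at this
      rw [this]
      show _ = io 1 0 • (s 0).1 (e₁ (Y₁ y))
      rw [io_apply]
      simp
    have e2 : Ring.inverse (S₁ (Y₁ y)) * S₁ (Y₁ y) = 1 :=
      Ring.inverse_mul_cancel _ (h₁.bd.pull.unit _ hYD)
    have e3 := congrArg (fun T : EndF 1 => T (io 1)) e2
    simp only [ContinuousLinearMap.mul_apply, ContinuousLinearMap.one_apply] at e3
    show Ring.inverse (S₁ (Y₁ y)) ((s 0).1 (e₁ (Y₁ y))) = io 1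
    rw [e1]
    exact e3
  have hone₂ : EqOn (fun y => Ring.inverse (S₂ (Y₂ y)) ((s 0).2 (e₂ (Y₂ y))))
      (cf fun _ => (1 : ℝ)) (HB z r₀) := by
    intro y hy
    have hYD := h₂.bd.pull.diffeo.mapsY hy
    have e1 : (s 0).2 (e₂ (Y₂ y)) = S₂ (Y₂ y) (io 1) := by
      have := h₂.bd.frame _ hYD (io 1)
      simp only [Finset.univ_unique, Finset.sum_singleton] at this
      rw [this]
      show _ = io 1 0 • (s 0).2 (e₂ (Y₂ y))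
      rw [io_apply]
      simp
    have e2 : Ring.inverse (S₂ (Y₂ y)) * S₂ (Y₂ y) = 1 :=
      Ring.inverse_mul_cancel _ (h₂.bd.pull.unit _ hYD)
    have e3 := congrArg (fun T : EndF 1 => T (io 1)) e2
    simp only [ContinuousLinearMap.mul_apply, ContinuousLinearMap.one_apply] at e3
    show Ring.inverse (S₂ (Y₂ y)) ((s 0).2 (e₂ (Y₂ y))) = io 1
    rw [e1]
    exact e3
  have hfρ : ∀ x ∈ HB z r, x 0 = 0 → fx W₁.g (fun y => rho0 (s 0).1 e₁ (Y₁ y)) 0 x =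
      fx W₂.g (fun y => rho0 (s 0).2 e₂ (Y₂ y)) 0 x := by
    intro x hx hx0
    have h := hfx (s 0) (fun _ => 1) (fun _ => 1) (hs 0) contDiffOn_const contDiffOn_const hone₁
      hone₂ x hx hx0
    simpa only [mul_one] using h
  have hfs : ∀ (u : (M₁ → Fib 1) × (M₂ → Fib 1)) (v₁ v₂ : E n → ℝ), u ∈ PP P Q G →
      ContDiffOn ℝ ∞ v₁ (HB z r₀) → ContDiffOn ℝ ∞ v₂ (HB z r₀) →
      EqOn (fun y => Ring.inverse (S₁ (Y₁ y)) (u.1 (e₁ (Y₁ y)))) (cf v₁) (HB z r₀) →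
      EqOn (fun y => Ring.inverse (S₂ (Y₂ y)) (u.2 (e₂ (Y₂ y)))) (cf v₂) (HB z r₀) →
      ∀ x ∈ HB z r, x 0 = 0 → v₁ x = v₂ x →
        fs W₁.g (fun y => rho0 (s 0).1 e₁ (Y₁ y)) v₁ 0 x =
          fs W₂.g (fun y => rho0 (s 0).2 e₂ (Y₂ y)) v₂ 0 x := by
    intro u v₁ v₂ hu hv₁ hv₂ he₁ he₂ x hx hx0 hv
    rw [rm₁.fs_eq hv₁ (hsub hx), rm₂.fs_eq hv₂ (hsub hx), hρ₁ x (hsub hx) hx0,
      hρ₂ x (hsub hx) hx0, hfx u v₁ v₂ hu hv₁ hv₂ he₁ he₂ x hx hx0, hfρ x hx hx0, hv]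
  -- the coordinates
  have hsf : ∀ k, ∀ x ∈ HB z r, x 0 = 0 → sg W₁.g (fun y => rho0 (s 0).1 e₁ (Y₁ y)) 0 k x =
      sg W₂.g (fun y => rho0 (s 0).2 e₂ (Y₂ y)) 0 k x := by
    intro k x hx hx0
    have hc : ContDiffOn ℝ ∞ (fun y : E n => y k) (HB z r₀) := dc_smooth_coord k
    have c1 : EqOn (fun y => Ring.inverse (S₁ (Y₁ y)) ((t k).1 (e₁ (Y₁ y))))
        (cf fun y : E n => y k) (HB z r₀) := by
      intro y hy
      have hYD := h₁.bd.pull.diffeo.mapsY hy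
      have e1 := h₁.bd.coord _ hYD k
      rw [h₁.bd.pull.diffeo.inv2 y hy, rm₁.c k y hy] at e1
      have e2 : Ring.inverse (S₁ (Y₁ y)) * S₁ (Y₁ y) = 1 :=
        Ring.inverse_mul_cancel _ (h₁.bd.pull.unit _ hYD)
      have e3 := congrArg (fun T : EndF 1 => T (io (y k))) e2
      simp only [ContinuousLinearMap.mul_apply, ContinuousLinearMap.one_apply] at e3
      show Ring.inverse (S₁ (Y₁ y)) ((t k).1 (e₁ (Y₁ y))) = io (y k)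
      rw [e1]
      exact e3
    have c2 : EqOn (fun y => Ring.inverse (S₂ (Y₂ y)) ((t k).2 (e₂ (Y₂ y))))
        (cf fun y : E n => y k) (HB z r₀) := by
      intro y hy
      have hYD := h₂.bd.pull.diffeo.mapsY hy
      have e1 := h₂.bd.coord _ hYD k
      rw [h₂.bd.pull.diffeo.inv2 y hy, rm₂.c k y hy] at e1
      have e2 : Ring.inverse (S₂ (Y₂ y)) * S₂ (Y₂ y) = 1 :=
        Ring.inverse_mul_cancel _ (h₂.bd.pull.unit _ hYD)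
      have e3 := congrArg (fun T : EndF 1 => T (io (y k))) e2
      simp only [ContinuousLinearMap.mul_apply, ContinuousLinearMap.one_apply] at e3
      show Ring.inverse (S₂ (Y₂ y)) ((t k).2 (e₂ (Y₂ y))) = io (y k)
      rw [e1]
      exact e3
    have h := hfs (t k) _ _ (ht k) hc hc c1 c2 x hx hx0 rfl
    have h3 : ∀ (g : E n → Matrix (Fin n) (Fin n) ℝ) (ρ : E n → ℝ),
        fs g ρ (fun y : E n => y k) 0 x = sg g ρ 0 k x := by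
      intro g ρ
      unfold fs
      rw [Finset.sum_eq_single k]
      · rw [dc_pd_coord hx.2 k k]
        simp
      · intro b _ hb
        rw [dc_pd_coord hx.2 b k]
        simp [hb, Ne.symm hb]
      · simp
    rw [h3, h3] at h
    exact h
  refine ⟨C₁ + C₂, fun f => vm e₁ S₁ Y₁ (U₁ f), fun f => vm e₂ S₂ Y₂ (U₂ f), by positivity, ?_⟩
  refine
    { sm₁ := fun f hf => (k₁ f hf _ (hZ₁ f hf) _ (hU f hf).1).2.1
      sm₂ := fun f hf => (k₂ f hf _ (hZ₂ f hf) _ (hU f hf).2).2.1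
      sol₁ := fun f hf => (k₁ f hf _ (hZ₁ f hf) _ (hU f hf).1).2.2.1
      sol₂ := fun f hf => (k₂ f hf _ (hZ₂ f hf) _ (hU f hf).2).2.2.1
      val₁ := fun f hf => (k₁ f hf _ (hZ₁ f hf) _ (hU f hf).1).2.2.2.1
      val₂ := fun f hf => (k₂ f hf _ (hZ₂ f hf) _ (hU f hf).2).2.2.2.1
      fl := fun f hf x hx hx0 => ?_
      lin₁ := fun f g hf hg a b x => ?_
      lin₂ := fun f g hf hg a b x => ?_
      e₁ := fun f hf => ?_
      e₂ := fun f hf => ?_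
      rm₁ := rm₁
      rm₂ := rm₂
      sf := hsf }
  · obtain ⟨a1, a2, a3, a4, -⟩ := k₁ f hf _ (hZ₁ f hf) _ (hU f hf).1
    obtain ⟨b1, b2, b3, b4, -⟩ := k₂ f hf _ (hZ₂ f hf) _ (hU f hf).2
    refine hfs (U₁ f, U₂ f) _ _ ⟨Z₁ f, Z₂ f, hmd f hf, (hU f hf).1, (hU f hf).2⟩ a2 b2
      (h₁.side a1) (h₂.side b1) x hx hx0 ?_
    rw [a4 x (hsub hx) hx0, b4 x (hsub hx) hx0]
  · simp only [vm, zl₁ f g hf hg a b, Pi.add_apply, Pi.smul_apply, map_add, map_smul,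
      PiLp.add_apply, PiLp.smul_apply, smul_eq_mul, Complex.add_re, Complex.re_ofReal_mul]
  · simp only [vm, zl₂ f g hf hg a b, Pi.add_apply, Pi.smul_apply, map_add, map_smul,
      PiLp.add_apply, PiLp.smul_apply, smul_eq_mul, Complex.add_re, Complex.re_ofReal_mul]
  · obtain ⟨-, -, -, -, a5, -⟩ := k₁ f hf _ (hZ₁ f hf) _ (hU f hf).1
    refine a5.trans ?_
    have : 0 ≤ C₂ * ∫ x in HB z r, dS W₁.g (fun y => rho0 (s 0).1 e₁ (Y₁ y)) f x ^ 2 :=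
      mul_nonneg hC₂ (integral_nonneg fun _ => sq_nonneg _)
    linarith
  · obtain ⟨-, -, -, -, -, b6⟩ := k₂ f hf _ (hZ₂ f hf) _ (hU f hf).2
    refine b6.trans ?_
    have : 0 ≤ C₁ * ∫ x in HB z r, q1 f x :=
      mul_nonneg hC₁ (integral_nonneg fun _ => q1_nonneg _ _)
    linarith

end Vale.Agent.P088.R2.H509.S3
end
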