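import Vale.Agent.P088.R2.H509.S3.Sc

/-!
# P088, stage 3: the boundary models are real models
-/

set_option linter.all false

open Bundle Manifold MeasureTheory Set Filter Topology
open scoped ContDiff

noncomputable section

namespace Vale.Agent.P088.R2.H509.S3

open Vale.Agent.P088 Vale.Agent.P088.EYM Vale.Agent.P088.TM
open Vale.Agent.P088.EYM.Q (IsMod)

universe u

theorem endF_one_eq {T : EndF 1} {a : ℝ} (h : T (io 1) = io a) : T = a • (1 : EndF 1) := by
  refine ContinuousLinearMap.ext fun v => ?_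
  have h1 : v = v 0 • io 1 := by
    ext i
    fin_cases i
    show v 0 = v 0 * io 1 0
    rw [io_apply]
    simp
  have h2 : (a • (1 : EndF 1)) (io 1) = io a := by rw [rsmul_io, mul_one]
  rw [h1, map_smul, map_smul, h, h2]

theorem rone_inj {a b : ℝ} (h : a • (1 : EndF 1) = b • (1 : EndF 1)) : a = b := by
  have h1 := congrArg (fun T : EndF 1 => (T (io 1) 0).re) h
  simpa only [rsmul_io, io_re, mul_one] using h1

theorem rone_mul (a b : ℝ) : (a • (1 : EndF 1)) * (b • (1 : EndF 1)) = (a * b) • (1 : EndF 1) := by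
  rw [smul_mul_smul_comm, mul_one]

theorem rone_adj (a : ℝ) : ContinuousLinearMap.adjoint (a • (1 : EndF 1)) = a • (1 : EndF 1) := by
  have h1 : a • (1 : EndF 1) = (a : ℂ) • (1 : EndF 1) := rfl
  rw [h1, map_smulₛₗ, Complex.conj_ofReal]
  congr 1
  exact star_one (EndF 1)

/-- `t ↦ t • 1` -/
def roneL : ℝ →L[ℝ] EndF 1 := (ContinuousLinearMap.id ℝ ℝ).smulRight (1 : EndF 1)

theorem roneL_apply (t : ℝ) : roneL t = t • (1 : EndF 1) := rfl

variable {n : ℕ} [NeZero n] {M : Type u}
  [TopologicalSpace M] [ChartedSpace (EuclideanHalfSpace n) M] [IsManifold (𝓡∂ n) ∞ M]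
  [MeasurableSpace M]

/-- the frame function -/
def rho0 (s : M → Fib 1) (e : E n → M) (x : E n) : ℝ := (s (e x) 0).re

/-- A boundary model with real frame and coordinates is a real model. -/
theorem rm_of_bdm {P : One n 1 M} {e : E n → M} {L : LD n 1} {D₀ : Set (E n)} (b : BC P e L D₀)
    (hB0 : ∀ y ∈ D₀, ∀ j, L.B j y = 0)
    {z : E n} {r : ℝ} {j0 : Fin 1} {W : Model n 1} {D : Set (E n)} {X Y : E n → E n}
    {S : E n → EndF 1} {s : Fin 1 → M → Fib 1} {t : Fin n → M → Fib 1}
    (h : BdM e L D₀ z r j0 W D X Y S s t) (hs : SmS n (s 0)) (cs : ∀ x, cj 1 (s 0 x) = s 0 x)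
    (ct : ∀ a x, cj 1 (t a x) = t a x)
    (hpos : ∀ y ∈ HB z r, 0 < rho0 (s 0) e (Y y)) :
    RM W (fun y => rho0 (s 0) e (Y y)) (HB z r) := by
  have hp := h.pull
  have hd := hp.diffeo
  have hj : j0 = 0 := Subsingleton.elim _ _
  subst hj
  have hrel : RelOpen (HB z r) := cERel_relOpen_HB z r
  have hsm0 : ContDiffOn ℝ ∞ (rho0 (s 0) e) D₀ := by
    have h1 : ContDiffOn ℝ ∞ (fun y => s 0 (e y)) D₀ := b.sm (s 0) hs
    have h2 : ContDiff ℝ ∞ (fun v : Fib 1 => (v 0).re) :=
      Complex.reCLM.contDiff.comp (((EuclideanSpace.proj (𝕜 := ℂ) (0 : Fin 1)).restrictScalars ℝ).contDiff)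
    exact h2.comp_contDiffOn h1
  have hsm : ContDiffOn ℝ ∞ (fun y => rho0 (s 0) e (Y y)) (HB z r) :=
    (hsm0.mono h.sub).comp hd.smY hd.mapsY
  have hse : ∀ x, s 0 (e x) = io (rho0 (s 0) e x) := fun x => io_eq (cs (e x))
  have hSx : ∀ x ∈ D, S x = rho0 (s 0) e x • (1 : EndF 1) := by
    intro x hx
    refine endF_one_eq ?_
    rw [h.frame x hx (io 1)]
    simp only [Finset.univ_unique, Finset.sum_singleton]
    show io 1 0 • s 0 (e x) = _
    rw [io_apply, hse]
    simp
  have hρX : ∀ x ∈ D, rho0 (s 0) e (Y (X x)) = rho0 (s 0) e x := fun x hx => by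
    rw [hd.inv1 x hx]
  refine
    { rel := hrel
      mod := h.model
      sm := hsm
      pos := hpos
      h := fun y hy => ?_
      B := fun y hy => ?_
      c := fun a y hy => ?_ }
  · have hx := hd.mapsY hy
    have h1 := hp.h_eq (Y y) hx
    rw [hd.inv2 y hy, b.h1 _ (h.sub hx), hSx _ hx, rone_adj, mul_one, rone_mul] at h1
    rw [← h1]
    congr 1
    ring
  · -- the connection
    have hx := hd.mapsY hy
    set x := Y y with hxy
    have hXx : X x = y := hd.inv2 y hy
    have hS' : ∀ j, pd j S x = pd j (rho0 (s 0) e) x • (1 : EndF 1) := by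
      intro j
      have e1 : EqOn S (fun x => roneL (rho0 (s 0) e x)) D := fun x hx => hSx x hx
      rw [h.rel.pd_congr e1 hx j, h.rel.pd_clm roneL (hsm0.mono h.sub) hx j]
      rfl
    have hα : ∀ j, pd j (rho0 (s 0) e) x =
        ∑ k, Jac X x k j * pd k (fun y => rho0 (s 0) e (Y y)) y := by
      intro j
      have e1 : EqOn (rho0 (s 0) e) (fun x => (fun y => rho0 (s 0) e (Y y)) (X x)) D :=
        fun x hx => (hρX x hx).symm
      rw [h.rel.pd_congr e1 hx j, h.rel.pd_comp hrel hd.smX hd.mapsX hsm hx j, hXx]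
      rfl
    have h1 : ∀ j, ∑ k, Jac X x k j • ((rho0 (s 0) e x) • W.B k y -
        pd k (fun y => rho0 (s 0) e (Y y)) y • (1 : EndF 1)) = 0 := by
      intro j
      have h2 := hp.B_eq x hx j
      rw [hB0 x (h.sub hx) j, zero_mul, add_zero, hS' j, hSx x hx, hα j, hXx, Finset.sum_smul,
        smul_one_mul, Finset.smul_sum] at h2
      simp only [smul_sub, Finset.sum_sub_distrib, sub_eq_zero]
      refine Eq.trans ?_ (h2.symm.trans ?_)
      · exact Finset.sum_congr rfl fun k _ => smul_comm _ _ _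
      · exact Finset.sum_congr rfl fun k _ => mul_smul _ _ _
    have hJ : Jac Y y * Jac X x = 1 := by
      have := push_jac_inv h.rel hrel hd hx
      rwa [hXx] at this
    have hJ' : Jac X x * Jac Y y = 1 := mul_eq_one_comm.1 hJ
    intro i
    have h3 : ∑ j, Jac Y y j i • ∑ k, Jac X x k j • ((rho0 (s 0) e x) • W.B k y -
        pd k (fun y => rho0 (s 0) e (Y y)) y • (1 : EndF 1)) = 0 := by
      simp only [h1, smul_zero, Finset.sum_const_zero]
    have h4 : (rho0 (s 0) e x) • W.B i y -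
        pd i (fun y => rho0 (s 0) e (Y y)) y • (1 : EndF 1) = 0 := by
      rw [← h3]
      simp only [Finset.smul_sum]
      rw [Finset.sum_comm]
      have h5 : ∀ k, ∑ j, Jac Y y j i • Jac X x k j • ((rho0 (s 0) e x) • W.B k y -
          pd k (fun y => rho0 (s 0) e (Y y)) y • (1 : EndF 1)) =
          ((1 : Matrix (Fin n) (Fin n) ℝ) k i) • ((rho0 (s 0) e x) • W.B k y -
            pd k (fun y => rho0 (s 0) e (Y y)) y • (1 : EndF 1)) := by
        intro k
        rw [← hJ', Matrix.mul_apply, Finset.sum_smul]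
        exact Finset.sum_congr rfl fun j _ => by rw [smul_smul, mul_comm]
      simp only [h5]
      rw [Finset.sum_eq_single i]
      · rw [Matrix.one_apply_eq, one_smul]
      · intro k _ hk
        rw [Matrix.one_apply_ne hk, zero_smul]
      · simp
    have hpy := (hpos y hy).ne'
    rw [sub_eq_zero] at h4
    have h6 := congrArg (fun T : EndF 1 => (rho0 (s 0) e x)⁻¹ • T) h4
    simp only [smul_smul] at h6
    rw [inv_mul_cancel₀ hpy, one_smul] at h6
    rw [h6]
    congr 1
    show _ = _ / rho0 (s 0) e (Y y)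
    rw [← hxy, div_eq_inv_mul]
  · have hx := hd.mapsY hy
    have h1 := h.coord (Y y) hx a
    rw [hd.inv2 y hy, hSx _ hx] at h1
    have h2 : W.c a y = io ((t a (e (Y y)) 0).re / rho0 (s 0) e (Y y)) := by
      have h3 : t a (e (Y y)) = io (t a (e (Y y)) 0).re := io_eq (ct a _)
      have h4 : rho0 (s 0) e (Y y) • W.c a y = io (t a (e (Y y)) 0).re := h3 ▸ h1.symm
      have hpy := (hpos y hy).ne'
      have h6 := congrArg (fun T : Fib 1 => (rho0 (s 0) e (Y y))⁻¹ • T) h4
      simp only [smul_smul] at h6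
      rw [inv_mul_cancel₀ hpy, one_smul, ← map_smul, smul_eq_mul] at h6
      rw [h6, div_eq_inv_mul]
    have h5 := h.model.re a y hy
    rw [h2, io_re] at h5
    rw [h2, h5]

end Vale.Agent.P088.R2.H509.S3
end
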