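import Vale.Agent.P088.R2.H509.S3.Bm
import Vale.Agent.P088.TM.H275N

/-!
# P088, stage 3: real solutions, for the connection `A = 0`
-/

set_option linter.all false

open Bundle Manifold MeasureTheory Set Filter Topology
open scoped ContDiff

noncomputable section

namespace Vale.Agent.P088.R2.H509.S3

open Vale.Agent.P088 Vale.Agent.P088.EYM Vale.Agent.P088.TM

universe u

/-- Complex conjugation of the components. -/
def cj (N : ℕ) : Fib N →L[ℝ] Fib N :=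
  LinearMap.toContinuousLinearMap
    { toFun := fun v => WithLp.toLp 2 fun i => (starRingEnd ℂ) (v i)
      map_add' := fun v w => by
        ext i
        simp
      map_smul' := fun c v => by
        ext i
        simp }

variable {n N : ℕ}

@[simp] theorem cj_apply (v : Fib N) (i : Fin N) : cj N v i = (starRingEnd ℂ) (v i) := rfl

theorem cj_cj (v : Fib N) : cj N (cj N v) = v := by
  ext i
  simp

theorem inner_cj (v w : Fib N) :
    inner ℂ (cj N v) (cj N w) = (starRingEnd ℂ) (inner ℂ v w) := by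
  simp only [PiLp.inner_apply, map_sum, cj_apply, RCLike.inner_apply, map_mul]

theorem cj_smul (c : ℂ) (v : Fib N) : cj N (c • v) = (starRingEnd ℂ) c • cj N v := by
  ext i
  simp

theorem cj_single (j : Fin N) (t : ℝ) :
    cj N (EuclideanSpace.single j (t : ℂ)) = EuclideanSpace.single j (t : ℂ) := by
  ext i
  rw [cj_apply]
  by_cases h : i = j
  · subst h; simp
  · simp [h]

variable [NeZero n] {M : Type u} [TopologicalSpace M] [ChartedSpace (EuclideanHalfSpace n) M]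
  [IsManifold (𝓡∂ n) ∞ M]

/-- `A = 0` -/
def A0 (A : Connection (𝓡∂ n) N M) : Prop := ∀ (x : M) (v : TangentSpace (𝓡∂ n) x), A.form x v = 0

theorem sm_cj {u : M → Fib N} (hu : SmS n u) : SmS n (fun x => cj N (u x)) :=
  (cj N).contMDiff.comp hu

theorem dmap_cj {u : M → Fib N} (hu : SmS n u) (x : M) (v : TangentSpace (𝓡∂ n) x) :
    dmap (𝓡∂ n) (fun x => cj N (u x)) x v = cj N (dmap (𝓡∂ n) u x v) := by
  have h1 : HasMFDerivAt (𝓡∂ n) 𝓘(ℝ, Fib N) u x (mfderiv (𝓡∂ n) 𝓘(ℝ, Fib N) u x) :=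
    ((hu x).mdifferentiableAt (by simp)).hasMFDerivAt
  have h2 := ((cj N).hasMFDerivAt (x := u x)).comp x h1
  exact DFunLike.congr_fun h2.mfderiv v

theorem cov_cj {A : Connection (𝓡∂ n) N M} (hA : A0 A) {u : M → Fib N} (hu : SmS n u) (x : M)
    (v : TangentSpace (𝓡∂ n) x) : cov A (fun x => cj N (u x)) x v = cj N (cov A u x v) := by
  unfold cov
  rw [hA x v, dmap_cj hu]
  simp

theorem pairing_cj {g : Metric (𝓡∂ n) M} {A : Connection (𝓡∂ n) N M} (hA : A0 A)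
    {u v : M → Fib N} (hu : SmS n u) (hv : SmS n v) (x : M) :
    pairing g A (fun x => cj N (u x)) (fun x => cj N (v x)) x =
      (starRingEnd ℂ) (pairing g A u v x) := by
  unfold pairing
  simp only [map_sum, map_mul, Complex.conj_ofReal, cov_cj hA hu, cov_cj hA hv, inner_cj]

variable [MeasurableSpace M]

theorem E_cj {P : One n N M} (hA : A0 P.A) {u v : M → Fib N} (hu : SmS n u) (hv : SmS n v) :
    P.E (fun x => cj N (u x)) (fun x => cj N (v x)) = (starRingEnd ℂ) (P.E u v) := by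
  unfold One.E energy
  rw [← integral_conj]
  refine integral_congr_ae (Eventually.of_forall fun x => ?_)
  exact pairing_cj hA hu hv x

theorem harm_cj {P : One n N M} (hA : A0 P.A) {f u : M → Fib N} (h : P.Harm f u) :
    P.Harm (fun x => cj N (f x)) (fun x => cj N (u x)) where
  smooth := sm_cj h.smooth
  boundary := fun x hx => by
    show cj N (u x) = cj N (f x)
    rw [h.boundary x hx]
  weak := fun φ hφ h0 => by
    have h1 : P.E u (fun x => cj N (φ x)) = 0 :=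
      h.weak _ (sm_cj hφ) fun x hx => by rw [h0 x hx, map_zero]
    have h2 : φ = fun x => cj N ((fun x => cj N (φ x)) x) := funext fun x => (cj_cj (φ x)).symm
    show P.E (fun x => cj N (u x)) φ = 0
    rw [h2, E_cj hA h.smooth (sm_cj hφ), h1, map_zero]

theorem bdata_cj {Γ : Set M} {f : M → Fib N} (h : IsBdryData (𝓡∂ n) Γ f) :
    IsBdryData (𝓡∂ n) Γ (fun x => cj N (f x)) where
  smooth := sm_cj h.smooth
  supp := by
    have h1 : {x ∈ (𝓡∂ n).boundary M | cj N (f x) ≠ 0} = {x ∈ (𝓡∂ n).boundary M | f x ≠ 0} := by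
      ext x
      simp only [mem_setOf_eq, ne_eq]
      refine and_congr_right fun _ => not_congr ⟨fun h => ?_, fun h => by rw [h, map_zero]⟩
      rw [← cj_cj (f x), h, map_zero]
    rw [h1]
    exact h.supp

/-- the real part of a section -/
def reS (u : M → Fib N) : M → Fib N := (1 / 2 : ℂ) • u + (1 / 2 : ℂ) • fun x => cj N (u x)

theorem reS_apply (u : M → Fib N) (x : M) (i : Fin N) : reS u x i = ((u x i).re : ℂ) := by
  unfold reS
  simp only [Pi.add_apply, Pi.smul_apply, PiLp.add_apply, PiLp.smul_apply, cj_apply, smul_eq_mul]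
  rw [← mul_add, Complex.add_conj]
  push_cast
  ring

theorem cj_reS (u : M → Fib N) (x : M) : cj N (reS u x) = reS u x := by
  ext i
  rw [cj_apply, reS_apply, Complex.conj_ofReal]

section Two

variable {M₂ : Type u} [TopologicalSpace M₂] [ChartedSpace (EuclideanHalfSpace n) M₂]
  [IsManifold (𝓡∂ n) ∞ M₂] [MeasurableSpace M₂]

theorem pp_cj {P : One n N M} {Q : One n N M₂} {G : Gl M M₂} (hA : A0 P.A) (hA' : A0 Q.A)
    {u : (M → Fib N) × (M₂ → Fib N)} (hu : u ∈ PP P Q G) :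
    ((fun x => cj N (u.1 x)), (fun x => cj N (u.2 x))) ∈ PP P Q G := by
  obtain ⟨f₁, f₂, hf, h1, h2⟩ := hu
  exact ⟨_, _, ⟨bdata_cj hf.h₁, bdata_cj hf.h₂, fun x hx => by rw [hf.eq x hx]⟩, harm_cj hA h1,
    harm_cj hA' h2⟩

variable [T2Space M] [CompactSpace M] [ConnectedSpace M] [BorelSpace M]
  [T2Space M₂] [CompactSpace M₂] [ConnectedSpace M₂] [BorelSpace M₂]

theorem pp_re {P : One n N M} {Q : One n N M₂} {G : Gl M M₂} (hG : G.Ok n N) (hA : A0 P.A)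
    (hA' : A0 Q.A) {u : (M → Fib N) × (M₂ → Fib N)} (hu : u ∈ PP P Q G) :
    (reS u.1, reS u.2) ∈ PP P Q G := by
  have h := pp_lin hG (1 / 2) (1 / 2) hu (pp_cj hA hA' hu)
  rw [Prod.smul_def, Prod.smul_def, Prod.mk_add_mk] at h
  exact h

/-- Real solutions of a Dirichlet problem with real data. -/
theorem harm_real {P : One n N M} (hb : ((𝓡∂ n).boundary M).Nonempty) (hA : A0 P.A)
    {f u : M → Fib N} (h : P.Harm f u) (hf : ∀ x ∈ (𝓡∂ n).boundary M, cj N (f x) = f x) (x : M) :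
    cj N (u x) = u x := by
  obtain ⟨hU, -, -⟩ := fUniq n N M P hb
  have h1 := hU _ _ _ _ (harm_cj hA h) h fun x hx => hf x hx
  exact congrFun h1 x

/-- Frames and coordinates near a boundary point: real version of `pcStart`. -/
theorem pcStartR {P : One n N M} {Q : One n N M₂} {G : Gl M M₂} {e₁ : E n → M} {e₂ : E n → M₂}
    {L₁ L₂ : LD n N} {D₀ : Set (E n)} (hP : PC P Q G e₁ e₂ L₁ L₂ D₀) (hG : G.Ok n N)
    (hS : SameD P Q G) (hA : A0 P.A) (hA' : A0 Q.A) (hn : 2 ≤ n)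
    (hN : 0 < N) {z₀ : E n} (hz₀t : z₀ ∈ D₀) (hz₀0 : z₀ 0 = 0) :
    ∃ (j0 : Fin N) (z : E n) (r : ℝ) (s : Fin N → (M → Fib N) × (M₂ → Fib N))
      (t : Fin n → (M → Fib N) × (M₂ → Fib N)), z 0 = 0 ∧ 0 < r ∧ HB z r ⊆ D₀ ∧
      (∀ j, s j ∈ PP P Q G) ∧ (∀ a, t a ∈ PP P Q G) ∧
      (∀ y ∈ HB z r, y 0 = 0 →
        (∀ j, (s j).1 (e₁ y) = EuclideanSpace.single j 1 ∧
          (s j).2 (e₂ y) = EuclideanSpace.single j 1) ∧
        ∀ a, (t a).1 (e₁ y) = EuclideanSpace.single j0 (y a : ℂ) ∧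
          (t a).2 (e₂ y) = EuclideanSpace.single j0 (y a : ℂ)) ∧
      0 < (pd 0 (fun y => (t 0).1 (e₁ y)) z j0).re ∧
      0 < (pd 0 (fun y => (t 0).2 (e₂ y)) z j0).re ∧
      (∀ j x, cj N ((s j).1 x) = (s j).1 x) ∧ (∀ j x, cj N ((s j).2 x) = (s j).2 x) ∧
      (∀ a x, cj N ((t a).1 x) = (t a).1 x) ∧ ∀ a x, cj N ((t a).2 x) = (t a).2 x := by
  obtain ⟨j0, z, r, s, t, hz, hr, hsub, hs, ht, hval, hp₁, hp₂⟩ :=
    pcStart hP hG hS hn hN hz₀t hz₀0
  have hreal : ∀ (u : M → Fib N) (x : M) (v : Fib N), u x = v → cj N v = v → reS u x = v := by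
    intro u x v h1 h2
    show (1 / 2 : ℂ) • u x + (1 / 2 : ℂ) • cj N (u x) = v
    rw [h1, h2, ← add_smul]
    norm_num
  have hreal' : ∀ (u : M₂ → Fib N) (x : M₂) (v : Fib N), u x = v → cj N v = v →
      reS u x = v := by
    intro u x v h1 h2
    show (1 / 2 : ℂ) • u x + (1 / 2 : ℂ) • cj N (u x) = v
    rw [h1, h2, ← add_smul]
    norm_num
  have h1 : ∀ j : Fin N, cj N (EuclideanSpace.single j (1 : ℂ)) = EuclideanSpace.single j 1 := by
    intro j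
    have := cj_single j 1
    simpa using this
  have hzD : z ∈ D₀ := hsub (cSetup_mem_HB hz hr)
  have hpd : ∀ {F : E n → Fib N}, ContDiffOn ℝ ∞ F D₀ →
      (pd 0 (fun y => (1 / 2 : ℂ) • F y + (1 / 2 : ℂ) • cj N (F y)) z j0).re = (pd 0 F z j0).re := by
    intro F hF
    have hd : DifferentiableWithinAt ℝ F (Hs n) z := by
      obtain ⟨O, hO, hOD⟩ := hP.b1.rel
      have h2 := (hF z hzD).differentiableWithinAt (by simp)
      rw [hOD] at h2
      have hzO : z ∈ O := by rw [hOD] at hzD; exact hzD.1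
      rwa [inter_comm, differentiableWithinAt_inter (hO.mem_nhds hzO)] at h2
    have hu : UniqueDiffWithinAt ℝ (Hs n) z := uniqueDiffOn_Hs z (hP.b1.rel.subset hzD)
    have h3 : HasFDerivWithinAt (fun y => (1 / 2 : ℂ) • F y + (1 / 2 : ℂ) • cj N (F y))
        ((1 / 2 : ℂ) • fderivWithin ℝ F (Hs n) z +
          (1 / 2 : ℂ) • (cj N).comp (fderivWithin ℝ F (Hs n) z)) (Hs n) z :=
      (hd.hasFDerivWithinAt.const_smul (1 / 2 : ℂ)).add
        (((cj N).hasFDerivAt.comp_hasFDerivWithinAt z hd.hasFDerivWithinAt).const_smul (1 / 2 : ℂ))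
    unfold pd
    rw [h3.fderivWithin hu]
    simp only [ContinuousLinearMap.add_apply, ContinuousLinearMap.smul_apply,
      ContinuousLinearMap.comp_apply, PiLp.add_apply, PiLp.smul_apply, cj_apply, smul_eq_mul]
    rw [← mul_add, Complex.add_conj]
    simp
  refine ⟨j0, z, r, fun j => (reS (s j).1, reS (s j).2), fun a => (reS (t a).1, reS (t a).2), hz,
    hr, hsub, fun j => pp_re hG hA hA' (hs j), fun a => pp_re hG hA hA' (ht a), ?_, ?_, ?_,
    fun j x => cj_reS _ x, fun j x => cj_reS _ x, fun a x => cj_reS _ x, fun a x => cj_reS _ x⟩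
  · intro y hy h0
    obtain ⟨k1, k2⟩ := hval y hy h0
    exact ⟨fun j => ⟨hreal _ _ _ (k1 j).1 (h1 j), hreal' _ _ _ (k1 j).2 (h1 j)⟩,
      fun a => ⟨hreal _ _ _ (k2 a).1 (cj_single j0 _), hreal' _ _ _ (k2 a).2 (cj_single j0 _)⟩⟩
  · obtain ⟨f, f', -, hf, -⟩ := ht 0
    have h4 := hpd (hP.b1.sm _ hf.smooth)
    show 0 < (pd 0 (fun y => (1 / 2 : ℂ) • (t 0).1 (e₁ y) + (1 / 2 : ℂ) • cj N ((t 0).1 (e₁ y))) z
      j0).re
    rw [h4]
    exact hp₁
  · obtain ⟨f, f', -, -, hf⟩ := ht 0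
    have h4 := hpd (hP.b2.sm _ hf.smooth)
    show 0 < (pd 0 (fun y => (1 / 2 : ℂ) • (t 0).2 (e₂ y) + (1 / 2 : ℂ) • cj N ((t 0).2 (e₂ y))) z
      j0).re
    rw [h4]
    exact hp₂

/-- Both models near the boundary point, with real frames and coordinates. -/
theorem pcSetupR {P : One n N M} {Q : One n N M₂} {G : Gl M M₂} {e₁ : E n → M} {e₂ : E n → M₂}
    {L₁ L₂ : LD n N} {D₀ : Set (E n)} (hP : PC P Q G e₁ e₂ L₁ L₂ D₀) (hG : G.Ok n N)
    (hS : SameD P Q G) (hA : A0 P.A) (hA' : A0 Q.A) (hn : 2 ≤ n)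
    (hN : 0 < N) {z₀ : E n} (hz₀t : z₀ ∈ D₀) (hz₀0 : z₀ 0 = 0) :
    ∃ (j0 : Fin N) (z : E n) (r₀ : ℝ) (s : Fin N → (M → Fib N) × (M₂ → Fib N))
      (t : Fin n → (M → Fib N) × (M₂ → Fib N)) (W₁ W₂ : Model n N) (X₁ Y₁ X₂ Y₂ : E n → E n)
      (S₁ S₂ : E n → EndF N), 0 < r₀ ∧ (∀ j, s j ∈ PP P Q G) ∧ (∀ a, t a ∈ PP P Q G) ∧
      (∀ j x, cj N ((s j).1 x) = (s j).1 x) ∧ (∀ j x, cj N ((s j).2 x) = (s j).2 x) ∧
      (∀ a x, cj N ((t a).1 x) = (t a).1 x) ∧ (∀ a x, cj N ((t a).2 x) = (t a).2 x) ∧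
      ∀ r, 0 < r → r ≤ r₀ → ∃ D₁ D₂ : Set (E n),
        BdM e₁ L₁ D₀ z r j0 W₁ D₁ X₁ Y₁ S₁ (fun j => (s j).1) (fun a => (t a).1) ∧
        BdM e₂ L₂ D₀ z r j0 W₂ D₂ X₂ Y₂ S₂ (fun j => (s j).2) (fun a => (t a).2) := by
  obtain ⟨j0, z, r, s, t, hz, hr, hsub, hs, ht, hval, hp₁, hp₂, c1, c2, c3, c4⟩ :=
    pcStartR hP hG hS hA hA' hn hN hz₀t hz₀0
  have hbd₁ : ((𝓡∂ n).boundary M).Nonempty := bne hG.rel₁ hG.ne₁
  have hbd₂ : ((𝓡∂ n).boundary M₂).Nonempty := bne hG.rel₂ hG.ne₂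
  obtain ⟨W₁, X₁, Y₁, S₁, r₁, hr₁, h₁⟩ := pcSetup_one P hP.b1 hbd₁ j0 z r
    (fun j => (s j).1) (fun a => (t a).1) hz hr hsub
    (fun j => by obtain ⟨f, f', -, h, -⟩ := hs j; exact ⟨f, h⟩)
    (fun a => by obtain ⟨f, f', -, h, -⟩ := ht a; exact ⟨f, h⟩)
    (fun y hy h0 j => ((hval y hy h0).1 j).1) (fun y hy h0 a => ((hval y hy h0).2 a).1) hp₁
  obtain ⟨W₂, X₂, Y₂, S₂, r₂, hr₂, h₂⟩ := pcSetup_one Q hP.b2 hbd₂ j0 z r
    (fun j => (s j).2) (fun a => (t a).2) hz hr hsub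
    (fun j => by obtain ⟨f, f', -, -, h⟩ := hs j; exact ⟨f', h⟩)
    (fun a => by obtain ⟨f, f', -, -, h⟩ := ht a; exact ⟨f', h⟩)
    (fun y hy h0 j => ((hval y hy h0).1 j).2) (fun y hy h0 a => ((hval y hy h0).2 a).2) hp₂
  refine ⟨j0, z, min r₁ r₂, s, t, W₁, W₂, X₁, Y₁, X₂, Y₂, S₁, S₂, lt_min hr₁ hr₂, hs, ht, c1, c2,
    c3, c4, ?_⟩
  intro ρ hρ hle
  obtain ⟨D₁, hD₁⟩ := h₁ ρ hρ (hle.trans (min_le_left _ _))
  obtain ⟨D₂, hD₂⟩ := h₂ ρ hρ (hle.trans (min_le_right _ _))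
  exact ⟨D₁, D₂, hD₁, hD₂⟩

end Two

end Vale.Agent.P088.R2.H509.S3
end
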