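import Vale.Agent.P088.R2.H509.S3.Rb

/-!
# P088, stage 3: the remainder of the harmonic extension
-/

set_option linter.all false

open Bundle Manifold MeasureTheory Set Filter Topology
open scoped ContDiff

noncomputable section

namespace Vale.Agent.P088.R2.H509.S3

open Vale.Agent.P088 Vale.Agent.P088.EYM Vale.Agent.P088.TM
open Vale.Agent.P088.EYM.Q (IsMod)

universe u

variable {n N : ℕ} [NeZero n] {M : Type u}
  [TopologicalSpace M] [ChartedSpace (EuclideanHalfSpace n) M] [IsManifold (𝓡∂ n) ∞ M]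
  [MeasurableSpace M]

/-- `Zc` is a section on `M` which is `c` in the model. -/
structure IsZ (e : E n → M) (D₀ : Set (E n)) (z : E n) (r : ℝ) (D : Set (E n))
    (X : E n → E n) (S : E n → EndF N) (c : E n → Fib N) (Zc : M → Fib N) : Prop where
  sm : SmS n Zc
  ts : tsupport Zc ⊆ e '' D
  eq : ∀ x ∈ D, Zc (e x) = S x (CRel1_ext z r c (X x))
  bd : ∀ y ∈ D₀, y 0 = 0 → Zc (e y) = CRel1_ext z r c y

variable [T2Space M] [CompactSpace M] [ConnectedSpace M] [BorelSpace M]

/-- The energy of the difference of the harmonic extension and the extension by zero. -/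
theorem pcRem {P : One n N M} (hbne : ((𝓡∂ n).boundary M).Nonempty) {e : E n → M} {L : LD n N}
    {D₀ : Set (E n)} (b : BC P e L D₀)
    {z : E n} {r₀ : ℝ} {j0 : Fin N} {W : Model n N} {D : Set (E n)} {X Y : E n → E n}
    {S : E n → EndF N} {s : Fin N → M → Fib N} {t : Fin n → M → Fib N}
    (h : BdM e L D₀ z r₀ j0 W D X Y S s t) (r : ℝ) (hr : 0 < r) (hr₀ : r < r₀) :
    ∃ C : ℝ, 0 ≤ C ∧ ∀ c, TstH z r c → ∀ Zc, IsZ e D₀ z r D X S c Zc → ∀ u, P.Harm Zc u →
      (En W.toLD (HB z r) (fun y => c y - Ring.inverse (S (Y y)) (u (e (Y y))))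
        (fun y => c y - Ring.inverse (S (Y y)) (u (e (Y y))))).re ≤ C * Rem W.toLD z r c ^ 2 ∧
      (En W.toLD (HB z r) (fun y => c y - Ring.inverse (S (Y y)) (u (e (Y y))))
        (fun y => c y - Ring.inverse (S (Y y)) (u (e (Y y))))).re ≤
          (En W.toLD (HB z r) c c).re := by
  obtain ⟨-, -, hU3⟩ := fUniq n N M P hbne
  obtain ⟨hF1, hF2, hF3, hF4, hF5⟩ := fForm n N M P
  have hLq : L.Ok D := CHarm_ok_mono b.ok h.sub
  have hLW : W.toLD.Ok (HB z r₀) := h.model.ok
  obtain ⟨C, hC0, hC⟩ := CRel1_bound aGreen aHardy W.toLD z r r₀ h.z0 hLW hr hr₀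
  refine ⟨C, hC0, fun c hc Zc hZ u hu => ?_⟩
  obtain ⟨hZ1, hZ2, hZ3, hZ4⟩ := hZ
  -- the energy identity
  have hEid : ∀ v : M → Fib N, SmS n v → ∀ d : E n → Fib N,
      ContDiffOn ℝ ∞ d (HB z r₀) → (∀ x ∈ D, v (e x) = S x (d (X x))) →
      P.E Zc v = En W.toLD (HB z r) c d := by
    intro v hv d hd hvd
    rw [b.en D h.rel h.sub Zc v hZ1 hv (Or.inl hZ2)]
    have e1 : EqOn (fun y => Zc (e y)) (fun x => S x (CRel1_ext z r c (X x))) D := hZ3
    have e2 : EqOn (fun y => v (e y)) (fun x => S x (d (X x))) D := hvd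
    rw [CRel1_En_congr h.rel _ e1 e2,
      bEnergy n N L W.toLD D (HB z r₀) X Y S h.rel (CRel1_rel z r₀) hLq hLW h.pull
        (CRel1_ext z r c) d ((CRel1_ext_smooth hc).of_le (by norm_cast))
        (hd.of_le (by norm_cast)), CRel1_En_ext W.toLD hr₀.le hc d]
  have hzeroR : ∀ w : M → Fib N, SmS n w → P.E w 0 = 0 := by
    intro w hw
    have h1 := hF2 0 w w hw hw
    rw [zero_smul, zero_mul] at h1
    exact h1
  have hsm0 : SmS n (0 : M → Fib N) := contMDiff_const
  have haddL : ∀ a b w : M → Fib N, SmS n a → SmS n b → SmS n w →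
      P.E (a + b) w = P.E a w + P.E b w := by
    intro a b w ha hb hw
    have hab : SmS n (a + b) := ha.add hb
    rw [hF3 w (a + b) hw hab, hF1 w a b hw ha hb, map_add, ← hF3 w a hw ha, ← hF3 w b hw hb]
  have hus : SmS n u := hu.smooth
  have hrs : SmS n (Zc - u) := hZ1.sub hus
  have hrb : ∀ m ∈ (𝓡∂ n).boundary M, (Zc - u) m = 0 := by
    intro m hm
    rw [Pi.sub_apply, hu.boundary m hm, sub_self]
  have hur : P.E u (Zc - u) = 0 := by
    rw [(hU3 Zc u (Zc - u) 0 hu hrs hsm0 (fun m hm => hrb m hm)).1, hzeroR u hus]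
  have hru : P.E (Zc - u) u = 0 := by
    rw [hF3 u (Zc - u) hus hrs, hur, map_zero]
  have hEw : P.E Zc (Zc - u) = P.E (Zc - u) (Zc - u) := by
    have h1 := haddL (Zc - u) u (Zc - u) hrs hus hrs
    rw [sub_add_cancel, hur, add_zero] at h1
    exact h1
  -- Pythagoras
  have hpy : P.E Zc Zc = P.E (Zc - u) (Zc - u) + P.E u u := by
    have h1 := hF1 Zc (Zc - u) u hZ1 hrs hus
    rw [sub_add_cancel, hEw] at h1
    have h2 := haddL (Zc - u) u u hrs hus hus
    rw [sub_add_cancel, hru, zero_add] at h2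
    rw [h1, h2]
  have hcc : P.E Zc Zc = En W.toLD (HB z r) c c := by
    rw [hEid Zc hZ1 (CRel1_ext z r c) (CRel1_ext_smooth hc) hZ3]
    exact CRel1_En_congr (CRel1_rel z r) _ (fun _ _ => rfl) fun y hy => CRel1_ext_in c hy.1
  set w : M → Fib N := Zc - u with hw
  have hlw : ContDiffOn ℝ ∞ (fun y => w (e y)) D := (b.sm w hrs).mono h.sub
  set e' : E n → Fib N := fun y => Ring.inverse (S (Y y)) (w (e (Y y))) with hedef
  have he : ContDiffOn ℝ ∞ e' (HB z r₀) :=
    smooth_eval (smooth_ringInverse (h.pull.smS.comp h.pull.diffeo.smY h.pull.diffeo.mapsY)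
      fun y hy => h.pull.unit _ (h.pull.diffeo.mapsY hy))
      (hlw.comp h.pull.diffeo.smY h.pull.diffeo.mapsY)
  have hle : ∀ x ∈ D, w (e x) = S x (e' (X x)) := by
    intro x hx
    have h1 : e' (X x) = Ring.inverse (S x) (w (e x)) := by
      rw [hedef]
      simp only [h.pull.diffeo.inv1 x hx]
    have h2 : S x * Ring.inverse (S x) = 1 := Ring.mul_inverse_cancel _ (h.pull.unit x hx)
    have h3 : S x (Ring.inverse (S x) (w (e x))) =
        (S x * Ring.inverse (S x)) (w (e x)) := rfl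
    rw [h1, h3, h2]
    rfl
  have he0 : ∀ y ∈ HB z r₀, y 0 = 0 → e' y = 0 := by
    intro y hy hy0
    obtain ⟨hyD, -, hYy, -⟩ := h.bd y hy hy0
    have hyt := h.sub hyD
    have hm : e y ∈ (𝓡∂ n).boundary M := (b.bd y hyt).2 hy0
    have h1 : w (e y) = 0 := hrb _ hm
    have h2 : e' y = Ring.inverse (S (Y y)) (w (e (Y y))) := rfl
    rw [h2, hYy, h1, map_zero]
  have hE2 : P.E Zc w = En W.toLD (HB z r) c e' := hEid w hrs e' he hle
  -- the energy of the remainder
  have hD' : RelOpen (D ∩ X ⁻¹' Metric.ball z r) :=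
    CRel1_relX h.rel h.pull.diffeo.smX.continuousOn Metric.isOpen_ball
  have hD't : D ∩ X ⁻¹' Metric.ball z r ⊆ D₀ := inter_subset_left.trans h.sub
  have hE3 : En L (D ∩ X ⁻¹' Metric.ball z r) (fun y => w (e y)) (fun y => w (e y)) =
      En W.toLD (HB z r) e' e' := by
    have e1 : EqOn (fun y => w (e y)) (fun x => S x (e' (X x))) (D ∩ X ⁻¹' Metric.ball z r) :=
      fun x hx => hle x hx.1
    have her : ContDiffOn ℝ 1 e' (HB z r) :=
      (he.mono (CRel1_HB_mono z hr₀.le)).of_le (by norm_cast)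
    rw [CRel1_En_congr hD' _ e1 e1]
    exact bEnergy n N L W.toLD _ (HB z r) X Y S hD' (CRel1_rel z r)
      (CHarm_ok_mono hLq inter_subset_left) (CHarm_ok_mono hLW (CRel1_HB_mono z hr₀.le))
      (CRel1_pull hr₀.le h.pull) e' e' her her
  obtain ⟨hpos, hle1⟩ := b.en' _ hD' hD't w hrs
  rw [hE3] at hle1 hpos
  have hb := hC c e' hc he he0 hpos
  -- the difference in the model
  have hdiff : EqOn (fun y => c y - Ring.inverse (S (Y y)) (u (e (Y y)))) e' (HB z r) := by
    intro y hy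
    have hy' : y ∈ HB z r₀ := CRel1_HB_mono z hr₀.le hy
    have hYD := h.pull.diffeo.mapsY hy'
    show c y - Ring.inverse (S (Y y)) (u (e (Y y))) =
      Ring.inverse (S (Y y)) (Zc (e (Y y)) - u (e (Y y)))
    rw [map_sub, hZ3 _ hYD, h.pull.diffeo.inv2 y hy', CRel1_ext_in c hy.1]
    congr 1
    have h2 : Ring.inverse (S (Y y)) * S (Y y) = 1 :=
      Ring.inverse_mul_cancel _ (h.pull.unit _ hYD)
    have h3 := congrArg (fun T : EndF N => T (c y)) h2
    simp only [ContinuousLinearMap.mul_apply, ContinuousLinearMap.one_apply] at h3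
    exact h3.symm
  rw [CRel1_En_congr (CRel1_rel z r) _ hdiff hdiff]
  refine ⟨?_, ?_⟩
  · have h1 : (P.E w w).re ≤ ‖P.E w w‖ := Complex.re_le_norm _
    rw [← hEw, hE2] at h1
    have h2 : (P.E w w).re = (En W.toLD (HB z r) c e').re := by rw [← hEw, hE2]
    linarith
  · have h1 := congrArg Complex.re hpy
    rw [Complex.add_re, hcc] at h1
    have h2 := hF4 u hus
    linarith

end Vale.Agent.P088.R2.H509.S3
end
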