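import Vale.Agent.P088.R2.H509.S3.Rm
import Vale.Agent.P088.R2.H509.Est

/-!
# P088, stage 3: estimates in real models
-/

set_option linter.all false

open Bundle Manifold MeasureTheory Set Filter Topology Metric
open scoped ContDiff

noncomputable section

namespace Vale.Agent.P088.R2.H509.S3

open Vale.Agent.P088 Vale.Agent.P088.EYM Vale.Agent.P088.TM
open Vale.Agent.P088.EYM.Q (IsMod)

universe u

variable {n : ℕ} [NeZero n]

/-- Smooth functions with compact support in a ball. -/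
structure TstR (z : E n) (r : ℝ) (f : E n → ℝ) : Prop where
  sm : ContDiff ℝ ∞ f
  sp : ∃ r' < r, ∀ x, x ∉ ball z r' → f x = 0

theorem TstR.cf {z : E n} {r : ℝ} {f : E n → ℝ} (h : TstR z r f) : TstH z r (cf f) := by
  obtain ⟨r', hr', h0⟩ := h.sp
  refine ⟨cf_smooth h.sm.contDiffOn, r', hr', fun x _ hx => ?_⟩
  rw [cf_apply, h0 x hx, map_zero]

theorem TstR.lin {z : E n} {r : ℝ} {f g : E n → ℝ} (hf : TstR z r f) (hg : TstR z r g) (a b : ℝ) :
    TstR z r (fun x => a * f x + b * g x) := by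
  obtain ⟨r₁, h₁, hf0⟩ := hf.sp
  obtain ⟨r₂, h₂, hg0⟩ := hg.sp
  refine ⟨(contDiff_const.mul hf.sm).add (contDiff_const.mul hg.sm), max r₁ r₂, max_lt h₁ h₂,
    fun x hx => ?_⟩
  rw [hf0 x fun h => hx (ball_subset_ball (le_max_left _ _) h),
    hg0 x fun h => hx (ball_subset_ball (le_max_right _ _) h)]
  ring

theorem TstR.ext {z : E n} {r : ℝ} {f : E n → ℝ} (h : TstR z r f) :
    CRel1_ext z r (S3.cf f) = S3.cf f := by
  obtain ⟨r', hr', h0⟩ := h.sp
  funext y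
  by_cases hy : y ∈ ball z r
  · exact CRel1_ext_in _ hy
  · rw [CRel1_ext_out _ hy, cf_apply, h0 y fun h' => hy (ball_subset_ball hr'.le h'), map_zero]

section model

variable {W : Model n 1} {ρ : E n → ℝ} {z : E n} {r r₀ : ℝ}

/-- bounds for the frame function on compact half balls -/
theorem RM.bounds (h : RM W ρ (HB z r₀)) (hrr : r < r₀) :
    ∃ m b : ℝ, 0 < m ∧ 0 < b ∧ ∀ x ∈ KB z r, m ≤ ρ x ^ 2 ∧ ρ x ^ 2 ≤ b ∧
      ∑ j, pd j ρ x ^ 2 ≤ b := by
  have hKs : KB z r ⊆ HB z r₀ := KB_sub' hrr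
  have c1 : ContinuousOn (fun x => ρ x ^ 2) (KB z r) := (h.sm.continuousOn.mono hKs).pow 2
  have c2 : ContinuousOn (fun x => (ρ x ^ 2)⁻¹) (KB z r) :=
    c1.inv₀ fun x hx => (pow_pos (h.pos x (hKs hx)) 2).ne'
  have c3 : ContinuousOn (fun x => ∑ j, pd j ρ x ^ 2) (KB z r) :=
    continuousOn_finsetSum _ fun j _ => (((h.rel.pd_smooth h.sm j).continuousOn.mono hKs).pow 2)
  obtain ⟨C1, hC1⟩ := KB_compact.exists_bound_of_continuousOn c1
  obtain ⟨C2, hC2⟩ := KB_compact.exists_bound_of_continuousOn c2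
  obtain ⟨C3, hC3⟩ := KB_compact.exists_bound_of_continuousOn c3
  refine ⟨(|C2| + 1)⁻¹, |C1| + |C3| + 1, by positivity, by positivity, fun x hx => ⟨?_, ?_, ?_⟩⟩
  · have h1 := hC2 x hx
    have hp : 0 < ρ x ^ 2 := pow_pos (h.pos x (hKs hx)) 2
    rw [Real.norm_eq_abs, abs_of_pos (inv_pos.2 hp)] at h1
    rw [inv_le_comm₀ (by positivity) hp]
    linarith [le_abs_self C2]
  · have h1 := (le_abs_self _).trans (hC1 x hx)
    linarith [le_abs_self C1, abs_nonneg C3]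
  · have h1 := (le_abs_self _).trans (hC3 x hx)
    linarith [le_abs_self C3, abs_nonneg C1]

theorem sq_add_le (a b : ℝ) : (a + b) ^ 2 ≤ 2 * a ^ 2 + 2 * b ^ 2 := by nlinarith [sq_nonneg (a - b)]

/-- the energy density of `cf q`, bounds -/
theorem RM.ed_bounds (h : RM W ρ (HB z r₀)) (hrr : r < r₀) :
    ∃ a A : ℝ, 0 < a ∧ 0 < A ∧ ∀ q : E n → ℝ, ContDiffOn ℝ ∞ q (HB z r₀) → ∀ x ∈ KB z r,
      a * ∑ j, pd j (fun y => ρ y * q y) x ^ 2 ≤ (ed W.toLD (cf q) (cf q) x).re ∧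
      (ed W.toLD (cf q) (cf q) x).re ≤ A * ∑ j, pd j (fun y => ρ y * q y) x ^ 2 := by
  have hKs : KB z r ⊆ HB z r₀ := KB_sub' hrr
  obtain ⟨a, ha, hlow⟩ := cRungeB_lower h.rel h.mod.ok (KB_compact (z := z) (r := r)) hKs
  have h1 : ∀ j k, ∃ C, ∀ x ∈ KB z r, ‖gg W.g j k x‖ ≤ C := fun j k =>
    KB_compact.exists_bound_of_continuousOn ((h.ggs j k).continuousOn.mono hKs)
  choose G hG using h1
  refine ⟨a, ∑ j, ∑ k, |G j k| + 1, ha, by positivity, fun q hq x hx => ?_⟩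
  rw [h.ed_cf hq hq (hKs hx), Complex.ofReal_re]
  refine ⟨?_, ?_⟩
  · refine (hlow x hx fun j => pd j (fun y => ρ y * q y) x).trans (le_of_eq ?_)
    exact Finset.sum_congr rfl fun j _ => Finset.sum_congr rfl fun k _ => by ring
  · set v : Fin n → ℝ := fun j => pd j (fun y => ρ y * q y) x with hv
    set s : ℝ := ∑ j, v j ^ 2 with hs
    have hs0 : 0 ≤ s := Finset.sum_nonneg fun _ _ => sq_nonneg _
    have hvj : ∀ j, v j ^ 2 ≤ s := fun j =>
      Finset.single_le_sum (f := fun j => v j ^ 2) (fun _ _ => sq_nonneg _) (Finset.mem_univ j)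
    have hjk : ∀ j k, gg W.g j k x * (v j * v k) ≤ |G j k| * s := by
      intro j k
      have e1 : |gg W.g j k x| ≤ |G j k| := (hG j k x hx).trans (le_abs_self _)
      have e2 : |v j * v k| ≤ s := by
        rw [abs_mul]
        have e3 := hvj j
        have e4 := hvj k
        rw [← sq_abs] at e3 e4
        nlinarith [sq_nonneg (|v j| - |v k|)]
      calc gg W.g j k x * (v j * v k) ≤ |gg W.g j k x * (v j * v k)| := le_abs_self _
        _ = |gg W.g j k x| * |v j * v k| := abs_mul _ _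
        _ ≤ |G j k| * s := mul_le_mul e1 e2 (abs_nonneg _) (abs_nonneg _)
    calc ∑ j, ∑ k, gg W.g j k x * (v j * v k) ≤ ∑ j, ∑ k, |G j k| * s :=
          Finset.sum_le_sum fun j _ => Finset.sum_le_sum fun k _ => hjk j k
      _ = (∑ j, ∑ k, |G j k|) * s := by simp only [Finset.sum_mul]
      _ ≤ (∑ j, ∑ k, |G j k| + 1) * s := by
          refine mul_le_mul_of_nonneg_right ?_ hs0
          linarith

theorem RM.En_re (h : RM W ρ (HB z r₀)) (hrr : r < r₀) {q : E n → ℝ}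
    (hq : ContDiffOn ℝ ∞ q (HB z r₀)) :
    IntegrableOn (fun x => (ed W.toLD (cf q) (cf q) x).re) (HB z r) ∧
    (En W.toLD (HB z r) (cf q) (cf q)).re = ∫ x in HB z r, (ed W.toLD (cf q) (cf q) x).re := by
  have hsub : HB z r ⊆ HB z r₀ := CRel1_HB_mono z hrr.le
  have hF : ContDiffOn ℝ ∞ (fun y => ρ y * q y) (HB z r₀) := h.sm.mul hq
  have h1 : IntegrableOn (fun x => ∑ j, ∑ k, gg W.g j k x *
      (pd j (fun y => ρ y * q y) x * pd k (fun y => ρ y * q y) x)) (HB z r) := by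
    refine int_HB hrr (continuousOn_finsetSum _ fun j _ => continuousOn_finsetSum _ fun k _ => ?_)
    exact (h.ggs j k).continuousOn.mul ((h.rel.pd_smooth hF j).continuousOn.mul
      (h.rel.pd_smooth hF k).continuousOn)
  have h2 : EqOn (fun x => ed W.toLD (cf q) (cf q) x) (fun x => ((∑ j, ∑ k, gg W.g j k x *
      (pd j (fun y => ρ y * q y) x * pd k (fun y => ρ y * q y) x) : ℝ) : ℂ)) (HB z r) :=
    fun x hx => h.ed_cf hq hq (hsub hx)
  have h3 : IntegrableOn (fun x => ed W.toLD (cf q) (cf q) x) (HB z r) :=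
    IntegrableOn.congr_fun (Integrable.ofReal h1) (fun x hx => (h2 hx).symm) (HB_meas z r)
  refine ⟨h3.re, ?_⟩
  exact (integral_re (𝕜 := ℂ) h3).symm

/-- `H¹` norms are bounded by the energy. -/
theorem RM.low (h : RM W ρ (HB z r₀)) (hz : z 0 = 0) (hr : 0 < r) (hrr : r < r₀) :
    ∃ C : ℝ, 0 ≤ C ∧ ∀ q : E n → ℝ, ContDiffOn ℝ ∞ q (HB z r₀) →
      (∀ x ∈ HB z r₀, x 0 = 0 → q x = 0) →
      ∫ x in HB z r, q1 q x ≤ C * (En W.toLD (HB z r) (cf q) (cf q)).re := by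
  have hsub : HB z r ⊆ HB z r₀ := CRel1_HB_mono z hrr.le
  have hzH : z ∈ Hs n := le_of_eq hz.symm
  obtain ⟨C1, hC1⟩ := (fPoin n 1 W.toLD z r₀ r hr hrr hzH h.mod.ok).1 hz
  obtain ⟨m, b, hm, hb, hmb⟩ := h.bounds hrr
  obtain ⟨a, A, ha, hA, haA⟩ := h.ed_bounds hrr
  refine ⟨(1 + 2 * b / m) * |C1| + 2 / (m * a), by positivity, fun q hq hq0 => ?_⟩
  have hcq : ContDiffOn ℝ ∞ (cf q) (HB z r₀) := cf_smooth hq
  have h1 := hC1 (cf q) hcq fun x hx hx0 => by rw [cf_apply, hq0 x hx hx0, map_zero]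
  obtain ⟨hi, hE⟩ := h.En_re hrr hq
  have hE0 : 0 ≤ (En W.toLD (HB z r) (cf q) (cf q)).re := by
    rw [hE]
    refine setIntegral_nonneg (HB_meas z r) fun x hx => ?_
    refine le_trans ?_ (haA q hq x (HB_sub_KB hx)).1
    exact mul_nonneg ha.le (Finset.sum_nonneg fun _ _ => sq_nonneg _)
  have hn : (fun x => ‖cf q x‖ ^ 2) = fun x => q x ^ 2 := by
    funext x
    rw [cf_apply, norm_io, sq_abs]
  rw [hn] at h1
  have h1' : ∫ x in HB z r, q x ^ 2 ≤ |C1| * (En W.toLD (HB z r) (cf q) (cf q)).re :=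
    h1.trans (mul_le_mul_of_nonneg_right (le_abs_self _) hE0)
  -- pointwise
  have hpt : ∀ x ∈ HB z r, q1 q x ≤ (1 + 2 * b / m) * q x ^ 2 +
      2 / (m * a) * (ed W.toLD (cf q) (cf q) x).re := by
    intro x hx
    obtain ⟨k1, k2, k3⟩ := hmb x (HB_sub_KB hx)
    have k4 := (haA q hq x (HB_sub_KB hx)).1
    have k5 : ∀ j, m * pd j q x ^ 2 ≤ 2 * pd j (fun y => ρ y * q y) x ^ 2 +
        2 * pd j ρ x ^ 2 * q x ^ 2 := by
      intro j
      have e1 : pd j (fun y => ρ y * q y) x = pd j ρ x * q x + ρ x * pd j q x :=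
        pdm h.rel h.sm hq (hsub hx) j
      have e2 : ρ x * pd j q x = pd j (fun y => ρ y * q y) x + -(pd j ρ x * q x) := by
        rw [e1]; ring
      have e3 := sq_add_le (pd j (fun y => ρ y * q y) x) (-(pd j ρ x * q x))
      rw [← e2] at e3
      have e4 : m * pd j q x ^ 2 ≤ ρ x ^ 2 * pd j q x ^ 2 :=
        mul_le_mul_of_nonneg_right k1 (sq_nonneg _)
      nlinarith
    have k6 : m * ∑ j, pd j q x ^ 2 ≤ 2 * ∑ j, pd j (fun y => ρ y * q y) x ^ 2 +
        2 * b * q x ^ 2 := by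
      calc m * ∑ j, pd j q x ^ 2 = ∑ j, m * pd j q x ^ 2 := Finset.mul_sum _ _ _
        _ ≤ ∑ j, (2 * pd j (fun y => ρ y * q y) x ^ 2 + 2 * pd j ρ x ^ 2 * q x ^ 2) :=
            Finset.sum_le_sum fun j _ => k5 j
        _ = 2 * ∑ j, pd j (fun y => ρ y * q y) x ^ 2 + 2 * (∑ j, pd j ρ x ^ 2) * q x ^ 2 := by
            rw [Finset.sum_add_distrib, ← Finset.mul_sum, ← Finset.sum_mul, ← Finset.mul_sum]
        _ ≤ _ := by
            have := mul_le_mul_of_nonneg_right k3 (sq_nonneg (q x))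
            linarith
    have k7 : ∑ j, pd j (fun y => ρ y * q y) x ^ 2 ≤ (ed W.toLD (cf q) (cf q) x).re / a := by
      rw [le_div_iff₀ ha]
      linarith
    have k8 : ∑ j, pd j q x ^ 2 ≤
        (2 * ((ed W.toLD (cf q) (cf q) x).re / a) + 2 * b * q x ^ 2) / m := by
      rw [le_div_iff₀ hm]
      linarith
    have k9 : (2 * ((ed W.toLD (cf q) (cf q) x).re / a) + 2 * b * q x ^ 2) / m =
        2 * b / m * q x ^ 2 + 2 / (m * a) * (ed W.toLD (cf q) (cf q) x).re := by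
      field_simp
      ring
    unfold q1
    rw [k9] at k8
    linarith
  have iq := int_HB hrr (q1_cont hq)
  have i1 : IntegrableOn (fun x => q x ^ 2) (HB z r) := int_HB hrr (hq.continuousOn.pow 2)
  have h5 : ∫ x in HB z r, ((1 + 2 * b / m) * q x ^ 2 +
      2 / (m * a) * (ed W.toLD (cf q) (cf q) x).re) =
      (1 + 2 * b / m) * (∫ x in HB z r, q x ^ 2) +
        2 / (m * a) * (En W.toLD (HB z r) (cf q) (cf q)).re := by
    rw [integral_add (i1.const_mul _) (hi.const_mul _), integral_const_mul, integral_const_mul, hE]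
  have h6 : ∫ x in HB z r, q1 q x ≤ ∫ x in HB z r, ((1 + 2 * b / m) * q x ^ 2 +
      2 / (m * a) * (ed W.toLD (cf q) (cf q) x).re) :=
    setIntegral_mono_on iq ((i1.const_mul _).add (hi.const_mul _)) (HB_meas z r) hpt
  rw [h5] at h6
  have h7 : (1 + 2 * b / m) * (∫ x in HB z r, q x ^ 2) ≤
      (1 + 2 * b / m) * (|C1| * (En W.toLD (HB z r) (cf q) (cf q)).re) :=
    mul_le_mul_of_nonneg_left h1' (by positivity)
  linarith

/-- The energy is bounded by the `H¹` norm. -/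
theorem RM.up (h : RM W ρ (HB z r₀)) (hrr : r < r₀) :
    ∃ C : ℝ, 0 ≤ C ∧ ∀ q : E n → ℝ, ContDiffOn ℝ ∞ q (HB z r₀) →
      (En W.toLD (HB z r) (cf q) (cf q)).re ≤ C * ∫ x in HB z r, q1 q x := by
  have hsub : HB z r ⊆ HB z r₀ := CRel1_HB_mono z hrr.le
  obtain ⟨m, b, hm, hb, hmb⟩ := h.bounds hrr
  obtain ⟨a, A, ha, hA, haA⟩ := h.ed_bounds hrr
  refine ⟨A * (2 * b), by positivity, fun q hq => ?_⟩
  obtain ⟨hi, hE⟩ := h.En_re hrr hq
  have iq := int_HB hrr (q1_cont hq)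
  rw [hE, ← integral_const_mul]
  refine setIntegral_mono_on hi (iq.const_mul _) (HB_meas z r) fun x hx => ?_
  obtain ⟨k1, k2, k3⟩ := hmb x (HB_sub_KB hx)
  have k4 := (haA q hq x (HB_sub_KB hx)).2
  have k5 : ∑ j, pd j (fun y => ρ y * q y) x ^ 2 ≤ 2 * b * q1 q x := by
    have e0 : ∀ j, pd j (fun y => ρ y * q y) x ^ 2 ≤ 2 * pd j ρ x ^ 2 * q x ^ 2 +
        2 * b * pd j q x ^ 2 := by
      intro j
      have e1 : pd j (fun y => ρ y * q y) x = pd j ρ x * q x + ρ x * pd j q x :=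
        pdm h.rel h.sm hq (hsub hx) j
      have e3 := sq_add_le (pd j ρ x * q x) (ρ x * pd j q x)
      rw [← e1] at e3
      have e4 : ρ x ^ 2 * pd j q x ^ 2 ≤ b * pd j q x ^ 2 :=
        mul_le_mul_of_nonneg_right k2 (sq_nonneg _)
      nlinarith
    calc ∑ j, pd j (fun y => ρ y * q y) x ^ 2
        ≤ ∑ j, (2 * pd j ρ x ^ 2 * q x ^ 2 + 2 * b * pd j q x ^ 2) :=
          Finset.sum_le_sum fun j _ => e0 j
      _ = 2 * (∑ j, pd j ρ x ^ 2) * q x ^ 2 + 2 * b * ∑ j, pd j q x ^ 2 := by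
          rw [Finset.sum_add_distrib, ← Finset.mul_sum, ← Finset.sum_mul, ← Finset.mul_sum]
      _ ≤ _ := by
          have := mul_le_mul_of_nonneg_right k3 (sq_nonneg (q x))
          unfold q1
          nlinarith
  calc (ed W.toLD (cf q) (cf q) x).re ≤ A * ∑ j, pd j (fun y => ρ y * q y) x ^ 2 := k4
    _ ≤ A * (2 * b * q1 q x) := mul_le_mul_of_nonneg_left k5 hA.le
    _ = _ := by ring

/-- The remainder of a real function. -/
theorem RM.rem (h : RM W ρ (HB z r₀)) (hz : z 0 = 0) (hr : 0 < r) (hrr : r < r₀) :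
    ∃ C : ℝ, 0 ≤ C ∧ ∀ q : E n → ℝ, ContDiffOn ℝ ∞ q (HB z r₀) →
      Rem W.toLD z r (cf q) ^ 2 ≤ C * ∫ x in HB z r, dS W.g ρ q x ^ 2 := by
  have hsub : HB z r ⊆ HB z r₀ := CRel1_HB_mono z hrr.le
  obtain ⟨m, b, hm, hb, hmb⟩ := h.bounds hrr
  refine ⟨r ^ 2 / m ^ 2, by positivity, fun q hq => ?_⟩
  have hdc : ContinuousOn (fun x => dS W.g ρ q x) (HB z r₀) :=
    continuousOn_finsetSum _ fun j _ => (h.rel.pd_smooth (h.fs_sm hq j) j).continuousOn
  have e0 : ∀ x ∈ HB z r, ‖Lop W.toLD (cf q) x‖ ^ 2 = (dS W.g ρ q x / ρ x ^ 2) ^ 2 := by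
    intro x hx
    rw [h.lop_dS hq (hsub hx), norm_io, sq_abs]
  have i2 : IntegrableOn (fun x => dS W.g ρ q x ^ 2) (HB z r) := int_HB hrr (hdc.pow 2)
  have i1 : IntegrableOn (fun x => (x 0) ^ 2 * ‖Lop W.toLD (cf q) x‖ ^ 2) (HB z r) := by
    have i3 : IntegrableOn (fun x => (x 0) ^ 2 * (dS W.g ρ q x / ρ x ^ 2) ^ 2) (HB z r) := by
      refine int_HB hrr (((continuous_coord 0).continuousOn.pow 2).mul ((hdc.div
        (h.sm.continuousOn.pow 2) fun x hx => (pow_pos (h.pos x hx) 2).ne').pow 2))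
    exact i3.congr_fun (fun x hx => by simp only [e0 x hx]) (HB_meas z r)
  unfold Rem
  rw [Real.sq_sqrt (setIntegral_nonneg (HB_meas z r) fun x hx => by positivity),
    ← integral_const_mul]
  refine setIntegral_mono_on i1 (i2.const_mul _) (HB_meas z r) fun x hx => ?_
  obtain ⟨k1, k2, k3⟩ := hmb x (HB_sub_KB hx)
  have hx0 : x 0 ^ 2 ≤ r ^ 2 := by
    have h1 : ‖(x - z) 0‖ ≤ ‖x - z‖ := PiLp.norm_apply_le (x - z) 0
    have h2 : ‖x - z‖ < r := mem_ball_iff_norm.1 hx.1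
    have h3 : (x - z) 0 = x 0 := by rw [PiLp.sub_apply, hz, sub_zero]
    rw [h3, Real.norm_eq_abs] at h1
    exact sq_le_sq' (by linarith [neg_abs_le (x 0)]) (by linarith [le_abs_self (x 0)])
  rw [e0 x hx, div_pow]
  have h4 : (ρ x ^ 2) ^ 2 ≥ m ^ 2 := pow_le_pow_left₀ hm.le k1 2
  have h5 : dS W.g ρ q x ^ 2 / (ρ x ^ 2) ^ 2 ≤ dS W.g ρ q x ^ 2 / m ^ 2 :=
    div_le_div_of_nonneg_left (sq_nonneg _) (by positivity) h4
  calc x 0 ^ 2 * (dS W.g ρ q x ^ 2 / (ρ x ^ 2) ^ 2) ≤ r ^ 2 * (dS W.g ρ q x ^ 2 / m ^ 2) :=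
        mul_le_mul hx0 h5 (by positivity) (by positivity)
    _ = _ := by ring

end model

end Vale.Agent.P088.R2.H509.S3
end
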