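import Vale.Agent.P088.R2.H509.S3.St

/-!
# P088, stage 3: the set-up at a boundary point and its transfer property
-/

set_option linter.all false

open Bundle Manifold MeasureTheory Set Filter Topology Metric
open scoped ContDiff

noncomputable section

namespace Vale.Agent.P088.R2.H509.S3

open Vale.Agent.P088 Vale.Agent.P088.EYM Vale.Agent.P088.TM
open Vale.Agent.P088.LR (V MF)
open Vale.Agent.P088.HY.T3 (Eb Stp)

universe u

section One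

variable {n N : ℕ} [NeZero n] {M : Type u}
  [TopologicalSpace M] [ChartedSpace (EuclideanHalfSpace n) M] [IsManifold (𝓡∂ n) ∞ M]
  [MeasurableSpace M]

/-- no connection in the charts -/
theorem B0_loc {P : One n N M} (hA : A0 P.A) (p : M) (y : E n) (j : Fin n) :
    (P.loc p).B j y = 0 := hA _ _

omit [TopologicalSpace M] [ChartedSpace (EuclideanHalfSpace n) M] [IsManifold (𝓡∂ n) ∞ M]
  [MeasurableSpace M] in
/-- no connection after a change of coordinates -/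
theorem B0_pull {L L' : LD n N} {D D' : Set (E n)} (hD : RelOpen D) (hD' : RelOpen D')
    {X Y : E n → E n} (h : IsPull L L' D D' X Y (fun _ => 1))
    (h0 : ∀ x ∈ D, ∀ j, L.B j x = 0) : ∀ y ∈ D', ∀ j, L'.B j y = 0 := by
  intro y hy i
  have hd := h.diffeo
  have hx := hd.mapsY hy
  set x := Y y with hxy
  have hXx : X x = y := hd.inv2 y hy
  have h1 : ∀ j, ∑ k, Jac X x k j • L'.B k y = 0 := by
    intro j
    have h2 := h.B_eq x hx j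
    rw [h0 x hx j, zero_mul, add_zero, pd_const, hXx, one_mul] at h2
    exact h2.symm
  have hJ : Jac Y y * Jac X x = 1 := by
    have := push_jac_inv hD hD' hd hx
    rwa [hXx] at this
  have hJ' : Jac X x * Jac Y y = 1 := mul_eq_one_comm.1 hJ
  have h3 : ∑ j, Jac Y y j i • ∑ k, Jac X x k j • L'.B k y = 0 := by
    simp only [h1, smul_zero, Finset.sum_const_zero]
  rw [← h3]
  simp only [Finset.smul_sum]
  rw [Finset.sum_comm]
  have h5 : ∀ k, ∑ j, Jac Y y j i • Jac X x k j • L'.B k y =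
      ((1 : Matrix (Fin n) (Fin n) ℝ) k i) • L'.B k y := by
    intro k
    rw [← hJ', Matrix.mul_apply, Finset.sum_smul]
    exact Finset.sum_congr rfl fun j _ => by rw [smul_smul, mul_comm]
  simp only [h5]
  rw [Finset.sum_eq_single i]
  · rw [Matrix.one_apply_eq, one_smul]
  · intro k _ hk
    rw [Matrix.one_apply_ne hk, zero_smul]
  · simp

end One

section P1

variable {n : ℕ} [NeZero n] {M : Type u}
  [TopologicalSpace M] [ChartedSpace (EuclideanHalfSpace n) M] [IsManifold (𝓡∂ n) ∞ M]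
  [MeasurableSpace M]

/-- positivity of the frame near the centre -/
theorem BdM.pos_near {P : One n 1 M} {e : E n → M} {L : LD n 1} {D₀ : Set (E n)}
    (b : BC P e L D₀) {z : E n} {r₀ : ℝ} {W : Model n 1} {D : Set (E n)} {X Y : E n → E n}
    {S : E n → EndF 1} {s : Fin 1 → M → Fib 1} {t : Fin n → M → Fib 1}
    (h : BdM e L D₀ z r₀ 0 W D X Y S s t) (hs : SmS n (s 0)) :
    ∃ δ > 0, δ ≤ r₀ ∧ ∀ y ∈ HB z δ, 0 < rho0 (s 0) e (Y y) := by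
  have hzm : z ∈ HB z r₀ := cSetup_mem_HB h.z0 h.rpos
  have hsm0 : ContDiffOn ℝ ∞ (rho0 (s 0) e) D₀ := by
    have h1 : ContDiffOn ℝ ∞ (fun y => s 0 (e y)) D₀ := b.sm (s 0) hs
    have h2 : ContDiff ℝ ∞ (fun v : Fib 1 => (v 0).re) :=
      Complex.reCLM.contDiff.comp
        (((EuclideanSpace.proj (𝕜 := ℂ) (0 : Fin 1)).restrictScalars ℝ).contDiff)
    exact h2.comp_contDiffOn h1
  have hc : ContinuousOn (fun y => rho0 (s 0) e (Y y)) (HB z r₀) :=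
    ((hsm0.mono h.sub).comp h.pull.diffeo.smY h.pull.diffeo.mapsY).continuousOn
  have hz1 : rho0 (s 0) e (Y z) = 1 := by
    obtain ⟨a1, -, a3, a4⟩ := h.bd z hzm h.z0
    have h1 := h.frame z a1 (io 1)
    simp only [Finset.univ_unique, Finset.sum_singleton] at h1
    rw [a4, ContinuousLinearMap.one_apply] at h1
    have h2 : io 1 = s 0 (e z) := by
      refine h1.trans ?_
      show io 1 0 • s 0 (e z) = _
      rw [io_apply]
      simp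
    unfold rho0
    rw [a3, ← h2, io_re]
  have hev : ∀ᶠ y in 𝓝[HB z r₀] z, 0 < rho0 (s 0) e (Y y) :=
    (hc z hzm).eventually (lt_mem_nhds (by
      show 0 < rho0 (s 0) e (Y z)
      rw [hz1]; exact one_pos))
  obtain ⟨δ, hδ, hδp⟩ := Metric.mem_nhdsWithin_iff.1 hev
  refine ⟨min δ r₀, lt_min hδ h.rpos, min_le_right _ _, fun y hy => ?_⟩
  exact hδp ⟨ball_subset_ball (min_le_left _ _) hy.1,
    ⟨ball_subset_ball (min_le_right _ _) hy.1, hy.2⟩⟩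

end P1

section Two

variable {n : ℕ} [NeZero n] {M₁ M₂ : Type u}
  [TopologicalSpace M₁] [ChartedSpace (EuclideanHalfSpace n) M₁] [IsManifold (𝓡∂ n) ∞ M₁]
  [TopologicalSpace M₂] [ChartedSpace (EuclideanHalfSpace n) M₂] [IsManifold (𝓡∂ n) ∞ M₂]
  [MeasurableSpace M₁] [MeasurableSpace M₂]
  {P : One n 1 M₁} {Q : One n 1 M₂} {G : Gl M₁ M₂} {e₁ : E n → M₁} {e₂ : E n → M₂}
  {L₁ L₂ : LD n 1} {D₀ : Set (E n)}
  [T2Space M₁] [CompactSpace M₁] [ConnectedSpace M₁] [BorelSpace M₁]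
  [T2Space M₂] [CompactSpace M₂] [ConnectedSpace M₂] [BorelSpace M₂]

/-- Real models on both sides near a boundary point. -/
theorem pcSetupM (hP : PC P Q G e₁ e₂ L₁ L₂ D₀) (hG : G.Ok n 1) (hS : SameD P Q G)
    (hA : A0 P.A) (hA' : A0 Q.A) (hB₁ : ∀ y ∈ D₀, ∀ j, L₁.B j y = 0)
    (hB₂ : ∀ y ∈ D₀, ∀ j, L₂.B j y = 0) (hn : 2 ≤ n) {z₀ : E n} (hz₀t : z₀ ∈ D₀)
    (hz₀0 : z₀ 0 = 0) :
    ∃ (z : E n) (r₀ : ℝ) (s : Fin 1 → (M₁ → Fib 1) × (M₂ → Fib 1))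
      (t : Fin n → (M₁ → Fib 1) × (M₂ → Fib 1)) (W₁ W₂ : Model n 1) (X₁ Y₁ X₂ Y₂ : E n → E n)
      (S₁ S₂ : E n → EndF 1), 0 < r₀ ∧ z 0 = 0 ∧ (∀ j, s j ∈ PP P Q G) ∧ (∀ a, t a ∈ PP P Q G) ∧
      ∀ r, 0 < r → r ≤ r₀ → ∃ D₁ D₂ : Set (E n),
        RBM P e₁ L₁ D₀ z r W₁ D₁ X₁ Y₁ S₁ (fun j => (s j).1) (fun a => (t a).1) ∧
        RBM Q e₂ L₂ D₀ z r W₂ D₂ X₂ Y₂ S₂ (fun j => (s j).2) (fun a => (t a).2) := by
  obtain ⟨j0, z, r₀, s, t, W₁, W₂, X₁, Y₁, X₂, Y₂, S₁, S₂, hr₀, hs, ht, c1, c2, c3, c4, h⟩ :=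
    pcSetupR hP hG hS hA hA' hn one_pos hz₀t hz₀0
  have hj : j0 = 0 := Subsingleton.elim _ _
  subst hj
  obtain ⟨D₁, D₂, h₁, h₂⟩ := h r₀ hr₀ le_rfl
  have hss := hs 0
  obtain ⟨f, f', -, hf, hf'⟩ := hss
  obtain ⟨δ₁, hδ₁, hδ₁r, hp₁⟩ := BdM.pos_near hP.b1 h₁ hf.smooth
  obtain ⟨δ₂, hδ₂, hδ₂r, hp₂⟩ := BdM.pos_near hP.b2 h₂ hf'.smooth
  refine ⟨z, min δ₁ δ₂, s, t, W₁, W₂, X₁, Y₁, X₂, Y₂, S₁, S₂, lt_min hδ₁ hδ₂, h₁.z0, hs, ht, ?_⟩
  intro r hr hrr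
  obtain ⟨D₁', D₂', h₁', h₂'⟩ := h r hr (hrr.trans ((min_le_left _ _).trans hδ₁r))
  refine ⟨D₁', D₂', ?_, ?_⟩
  · exact
      { b := hP.b1
        B0 := hB₁
        bd := h₁'
        ss := hf.smooth
        cs := fun x => c1 0 x
        ct := fun a x => c3 a x
        pos := fun y hy => hp₁ y ⟨ball_subset_ball (hrr.trans (min_le_left _ _)) hy.1, hy.2⟩ }
  · exact
      { b := hP.b2
        B0 := hB₂
        bd := h₂'
        ss := hf'.smooth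
        cs := fun x => c2 0 x
        ct := fun a x => c4 a x
        pos := fun y hy => hp₂ y ⟨ball_subset_ball (hrr.trans (min_le_right _ _)) hy.1, hy.2⟩ }

/-- **ST3b**: the transfer property at a boundary point. -/
theorem st3b (hP : PC P Q G e₁ e₂ L₁ L₂ D₀) (hG : G.Ok n 1) (hS : SameD P Q G)
    (hA : A0 P.A) (hA' : A0 Q.A)
    {z : E n} {r₀ r : ℝ} {W₁ W₂ : Model n 1} {D₁ D₂ : Set (E n)}
    {X₁ Y₁ X₂ Y₂ : E n → E n} {S₁ S₂ : E n → EndF 1}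
    {s : Fin 1 → (M₁ → Fib 1) × (M₂ → Fib 1)} {t : Fin n → (M₁ → Fib 1) × (M₂ → Fib 1)}
    (hs : ∀ j, s j ∈ PP P Q G) (ht : ∀ a, t a ∈ PP P Q G)
    (h₁ : RBM P e₁ L₁ D₀ z r₀ W₁ D₁ X₁ Y₁ S₁ (fun j => (s j).1) (fun a => (t a).1))
    (h₂ : RBM Q e₂ L₂ D₀ z r₀ W₂ D₂ X₂ Y₂ S₂ (fun j => (s j).2) (fun a => (t a).2))
    (hr : 0 < r) (hrr : r < r₀) {s₁ s₂ : MF n}
    (hs₁ : ∀ x ∈ Eb (0 : V n) r, 0 ≤ x 0 → ∀ i j,
      s₁ x i j = sg W₁.g (fun y => rho0 (s 0).1 e₁ (Y₁ y)) i j (em z x))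
    (hs₂ : ∀ x ∈ Eb (0 : V n) r, 0 ≤ x 0 → ∀ i j,
      s₂ x i j = sg W₂.g (fun y => rho0 (s 0).2 e₂ (Y₂ y)) i j (em z x)) :
    Stp (Eb (0 : V n) r) (Gm n) s₁ s₂ := by
  obtain ⟨C, V₁, V₂, hC, h⟩ := pairSol hP hG hS hA hA' hs ht h₁ h₂ hr hrr
  exact h.stp hC h₁.bd.z0 hr hrr hs₁ hs₂

end Two

end Vale.Agent.P088.R2.H509.S3
end
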