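import Vale.Agent.P088.R2.H509.S3.Tv

/-!
# P088, stage 3: the transfer of finite families at a boundary point
-/

set_option linter.all false

open Bundle Manifold MeasureTheory Set Filter Topology Metric
open scoped ContDiff

noncomputable section

namespace Vale.Agent.P088.R2.H509.S3

open Vale.Agent.P088 Vale.Agent.P088.EYM
open Vale.Agent.P088.LR (V MF)
open Vale.Agent.P088.HY.T3 (Eb Stp)

variable {n : ℕ} [NeZero n]

theorem Eb_meas (r : ℝ) : MeasurableSet (Eb (0 : V n) r) := (Eb_open r).measurableSet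

theorem Gm_meas : MeasurableSet (Gm n) :=
  (isOpen_lt (continuous_apply (0 : Fin n)) continuous_const).measurableSet

theorem Eb_fin {r : ℝ} (hr : 0 < r) : volume (Eb (0 : V n) r) < ⊤ := by
  have h1 : Eb (0 : V n) r = em (0 : E n) ⁻¹' ball (0 : E n) r := by
    ext x
    exact (em_ball hr x).symm
  rw [h1, (em_mp (0 : E n)).measure_preimage isOpen_ball.measurableSet.nullMeasurableSet]
  exact measure_ball_lt_top

theorem memLp_em {z : E n} (hz : z 0 = 0) {r r₀ : ℝ} (hr : 0 < r) (hrr : r < r₀) {g : E n → ℝ}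
    (hg : ContinuousOn g (HB z r₀)) :
    MemLp (fun x => g (em z x)) 2 (volume.restrict (Eb (0 : V n) r \ Gm n)) := by
  haveI : IsFiniteMeasure (volume.restrict (Eb (0 : V n) r \ Gm n)) :=
    ⟨by rw [Measure.restrict_apply_univ]; exact (measure_mono diff_subset).trans_lt (Eb_fin hr)⟩
  obtain ⟨B, hB⟩ := KB_compact.exists_bound_of_continuousOn (hg.mono (KB_sub' hrr))
  have hmap : MapsTo (em z) (Eb (0 : V n) r \ Gm n) (HB z r₀) := fun x hx =>
    CRel1_HB_mono z hrr.le ((em_HB hz hr x).2 hx)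
  refine MemLp.of_bound ?_ B ?_
  · exact (hg.comp (continuous_em z).continuousOn hmap).aestronglyMeasurable
      ((Eb_meas r).diff Gm_meas)
  · filter_upwards [ae_restrict_mem ((Eb_meas r).diff Gm_meas)] with x hx
    exact hB _ (HB_sub_KB ((em_HB hz hr x).2 hx))

theorem memLp_xz {z : E n} (hz : z 0 = 0) {r r₀ : ℝ} (hr : 0 < r) (hrr : r < r₀) {g : E n → ℝ}
    (hg : ContinuousOn g (HB z r₀)) (h0 : ∀ y ∈ HB z r, y 0 = 0 → g y = 0) :
    MemLp (xz z g) 2 (volume.restrict (Eb (0 : V n) r)) := by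
  haveI : IsFiniteMeasure (volume.restrict (Eb (0 : V n) r)) :=
    ⟨by rw [Measure.restrict_apply_univ]; exact Eb_fin hr⟩
  obtain ⟨B, hB⟩ := KB_compact.exists_bound_of_continuousOn (hg.mono (KB_sub' hrr))
  refine MemLp.of_bound ?_ |B| ?_
  · exact (xz_cont hz hr (hg.mono (CRel1_HB_mono z hrr.le)) h0).aestronglyMeasurable (Eb_meas r)
  · filter_upwards [ae_restrict_mem (Eb_meas r)] with x hx
    by_cases hx0 : 0 ≤ x 0
    · rw [xz_of hx0]
      exact (hB _ (HB_sub_KB ((em_HB hz hr x).2 ⟨hx, show ¬ x 0 < 0 from not_lt.2 hx0⟩))).trans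
        (le_abs_self B)
    · rw [xz_neg (not_le.1 hx0), norm_zero]
      exact abs_nonneg B

theorem pd_comb {ι : Type*} [Fintype ι] {D : Set (E n)} (hD : RelOpen D) {F : ι → E n → ℝ}
    (hF : ∀ q, ContDiffOn ℝ ∞ (F q) D) (c : ι → ℝ) {x : E n} (hx : x ∈ D) (i : Fin n) :
    pd i (fun y => ∑ q, c q * F q y) x = ∑ q, c q * pd i (F q) x := by
  have e1 : pd i (fun y => ∑ q, c q * F q y) x = ∑ q, pd i (fun y => c q * F q y) x :=
    hD.pd_sum (s := Finset.univ) (f := fun q y => c q * F q y)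
      (fun q _ => contDiffOn_const.mul (hF q)) hx i
  rw [e1]
  refine Finset.sum_congr rfl fun q _ => ?_
  have e2 : pd i (fun y => c q * F q y) x = pd i (fun _ => c q) x * F q x + c q * pd i (F q) x :=
    pdm hD contDiffOn_const (hF q) hx i
  rw [e2, pd_const, zero_mul, zero_add]

theorem q1_sub_le (D : Set (E n)) (hD : RelOpen D) {a b : E n → ℝ} (ha : ContDiffOn ℝ ∞ a D)
    (hb : ContDiffOn ℝ ∞ b D) {x : E n} (hx : x ∈ D) :
    q1 (fun y => a y - b y) x ≤ 2 * q1 a x + 2 * q1 b x := by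
  have h1 : ∀ k, pd k (fun y => a y - b y) x = pd k a x - pd k b x := fun k =>
    hD.pd_sub ha hb hx k
  unfold q1
  simp only [h1]
  have h2 : (a x - b x) ^ 2 ≤ 2 * a x ^ 2 + 2 * b x ^ 2 := by nlinarith [sq_nonneg (a x + b x)]
  have h3 : ∑ k, (pd k a x - pd k b x) ^ 2 ≤ ∑ k, (2 * pd k a x ^ 2 + 2 * pd k b x ^ 2) :=
    Finset.sum_le_sum fun k _ => by nlinarith [sq_nonneg (pd k a x + pd k b x)]
  rw [Finset.sum_add_distrib, ← Finset.mul_sum, ← Finset.mul_sum] at h3
  linarith

variable {W₁ W₂ : Model n 1} {ρ₁ ρ₂ : E n → ℝ} {z : E n} {r r₀ C : ℝ}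
  {V₁ V₂ : (E n → ℝ) → E n → ℝ}

/-- The transfer of finite families. -/
theorem PSol.stp (h : PSol W₁ W₂ ρ₁ ρ₂ z r r₀ C V₁ V₂) (hC : 0 ≤ C) (hz : z 0 = 0) (hr : 0 < r)
    (hrr : r < r₀) {s₁ s₂ : MF n}
    (hs₁ : ∀ x ∈ Eb (0 : V n) r, 0 ≤ x 0 → ∀ i j, s₁ x i j = sg W₁.g ρ₁ i j (em z x))
    (hs₂ : ∀ x ∈ Eb (0 : V n) r, 0 ≤ x 0 → ∀ i j, s₂ x i j = sg W₂.g ρ₂ i j (em z x)) :
    Stp (Eb (0 : V n) r) (Gm n) s₁ s₂ := by
  have hsub : HB z r ⊆ HB z r₀ := CRel1_HB_mono z hrr.le
  have hrel := h.rm₁.rel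
  have hmem : ∀ {x : V n}, x ∈ Eb (0 : V n) r \ Gm n → em z x ∈ HB z r := fun {x} hx =>
    (em_HB hz hr x).2 hx
  have hnn : ∀ {x : V n}, x ∈ Eb (0 : V n) r \ Gm n → 0 ≤ x 0 := fun {x} hx => not_lt.1 hx.2
  refine ⟨2 * C, by positivity, fun d f k₁ k₂ hf hfc hft hk₁ hk₁c hk₁t hk₂ hk₂c hk₂t hL ε hε => ?_⟩
  -- the functions in the chart
  set f' : Fin d → E n → ℝ := fun q y => f q (me z y) with hf'
  have hT : ∀ q, TstR z r (f' q) := fun q => tstR_me hr (hf q) (hfc q) (hft q)
  have hf's : ∀ q, ContDiffOn ℝ ∞ (f' q) (HB z r₀) := fun q => (hT q).sm.contDiffOn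
  set p : Fin d → E n → ℝ := fun q y => V₂ (f' q) y - V₁ (f' q) y with hp
  have hps : ∀ q, ContDiffOn ℝ ∞ (p q) (HB z r₀) := fun q =>
    (h.sm₂ _ (hT q)).sub (h.sm₁ _ (hT q))
  have hp0 : ∀ q, ∀ y ∈ HB z r, y 0 = 0 → p q y = 0 := fun q y hy hy0 => by
    simp only [hp, h.val₁ _ (hT q) y (hsub hy) hy0, h.val₂ _ (hT q) y (hsub hy) hy0, sub_self]
  have hp1 : ∀ q k, ∀ y ∈ HB z r, y 0 = 0 → pd k (p q) y = 0 := fun q k =>
    h.dzero hrr (hT q) k
  have hC1 := fun q => xz_C1 hz hr ((hps q).mono hsub) (hp0 q) (hp1 q)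
  have hpdf : ∀ q i (x : V n), 0 ≤ x 0 → LR.pd i (f q) x = pd i (f' q) (em z x) := by
    intro q i x hx
    have hy : em z x ∈ Hs n := by
      show 0 ≤ em z x 0
      rw [em_zero hz]; exact hx
    have h1 := pd_me (z := z) (F := f q) hy ((hf q).differentiable (by simp) _) i
    rw [me_em] at h1
    exact h1.symm
  refine ⟨fun q => xz z (p q), fun q i x => pd i (V₁ (f' q)) (em z x), fun q => (hC1 q).1,
    fun q x hx => xz_neg hx.1, fun q => memLp_xz hz hr hrr (hps q).continuousOn (hp0 q),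
    fun q i => ?_, fun q i => memLp_em hz hr hrr (hrel.pd_smooth (h.sm₁ _ (hT q)) i).continuousOn,
    fun q φ hφ hφc hφt => ?_, fun c => ?_⟩
  · -- the gradient of `w`
    have h1 := memLp_xz hz hr hrr (hrel.pd_smooth (hps q) i).continuousOn (hp1 q i)
    refine (memLp_congr_ae ?_).1 h1
    filter_upwards [ae_restrict_mem (Eb_meas r)] with x hx
    exact ((hC1 q).2 i x hx).symm
  · -- the weak equation
    have hφT : TstR z r (fun y => φ (me z y)) := tstR_me hr hφ hφc hφt
    have hpdφ : ∀ i (x : V n), 0 ≤ x 0 → LR.pd i φ x = pd i (fun y => φ (me z y)) (em z x) := by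
      intro i x hx
      have hy : em z x ∈ Hs n := by
        show 0 ≤ em z x 0
        rw [em_zero hz]; exact hx
      have h1 := pd_me (z := z) (F := φ) hy (hφ.differentiable (by simp) _) i
      rw [me_em] at h1
      exact h1.symm
    have h1 : ∫ x in Eb (0 : V n) r, ∑ i, ∑ j, s₂ x i j * (LR.pd i (xz z (p q)) x * LR.pd j φ x) =
        ∫ x in Eb (0 : V n) r \ Gm n, ∑ i, ∑ j,
          s₂ x i j * (LR.pd i (xz z (p q)) x * LR.pd j φ x) := by
      refine setIntegral_eq_of_subset_of_forall_diff_eq_zero (Eb_meas r) diff_subset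
        fun x hx => ?_
      have hxG : x ∈ Gm n := by
        by_contra hG
        exact hx.2 ⟨hx.1, hG⟩
      refine Finset.sum_eq_zero fun i _ => Finset.sum_eq_zero fun j _ => ?_
      rw [(hC1 q).2 i x hx.1, xz_neg hxG, zero_mul, mul_zero]
    rw [h1]
    have h2 := h.weak hrr (hT q) hφT
    rw [← int_em hz hr, ← int_em hz hr] at h2
    refine (setIntegral_congr_fun ((Eb_meas r).diff Gm_meas) fun x hx => ?_).trans
      (h2.trans (setIntegral_congr_fun ((Eb_meas r).diff Gm_meas) fun x hx => ?_))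
    · refine Finset.sum_congr rfl fun i _ => Finset.sum_congr rfl fun j _ => ?_
      rw [hs₂ x hx.1 (hnn hx), (hC1 q).2 i x hx.1, xz_of (hnn hx), hpdφ j x (hnn hx)]
    · refine Finset.sum_congr rfl fun i _ => Finset.sum_congr rfl fun j _ => ?_
      rw [hs₁ x hx.1 (hnn hx), hs₂ x hx.1 (hnn hx), hpdφ j x (hnn hx)]
  · -- the estimates
    set F : E n → ℝ := fun y => ∑ q, c q * f' q y with hF
    have hFT : TstR z r F := TstR.sum Finset.univ hT c
    have hFs : ContDiffOn ℝ ∞ F (HB z r₀) := hFT.sm.contDiffOn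
    have hV₁ : V₁ F = fun y => ∑ q, c q * V₁ (f' q) y :=
      funext fun y => lin_sum h.lin₁ Finset.univ hT c y
    have hV₂ : V₂ F = fun y => ∑ q, c q * V₂ (f' q) y :=
      funext fun y => lin_sum h.lin₂ Finset.univ hT c y
    have hpF : ∀ i, ∀ y ∈ HB z r₀, pd i F y = ∑ q, c q * pd i (f' q) y := fun i y hy =>
      pd_comb hrel hf's c hy i
    have hpV₁ : ∀ i, ∀ y ∈ HB z r₀, pd i (V₁ F) y = ∑ q, c q * pd i (V₁ (f' q)) y :=
      fun i y hy => by
        rw [hV₁]
        exact pd_comb hrel (fun q => h.sm₁ _ (hT q)) c hy i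
    have hpV₂ : ∀ i, ∀ y ∈ HB z r₀, pd i (V₂ F) y = ∑ q, c q * pd i (V₂ (f' q)) y :=
      fun i y hy => by
        rw [hV₂]
        exact pd_comb hrel (fun q => h.sm₂ _ (hT q)) c hy i
    have hs1 := h.sm₁ F hFT
    have hs2 := h.sm₂ F hFT
    -- the equation
    have hdS : ∀ x ∈ Eb (0 : V n) r \ Gm n,
        dS W₁.g ρ₁ F (em z x) = ∑ q, c q * k₂ q x := by
      intro x hx
      have hy := hmem hx
      rw [h.rm₁.dS_nd hFs (hsub hy)]
      have e1 : ∀ j k, pd j (pd k F) (em z x) =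
          ∑ q, c q * LR.pd j (LR.pd k (f q)) x := by
        intro j k
        have e2 : EqOn (pd k F) (fun y => ∑ q, c q * pd k (f' q) y) (HB z r₀) := fun y hy =>
          hpF k y hy
        rw [hrel.pd_congr e2 (hsub hy) j,
          pd_comb hrel (fun q => hrel.pd_smooth (hf's q) k) c (hsub hy) j]
        refine Finset.sum_congr rfl fun q _ => ?_
        have e3 := pd_me2 (z := z) (F := f q) hy.2 (hf q) j k
        rw [me_em] at e3
        rw [← e3]
      have e4 : ∀ q, ∑ j, ∑ k, s₁ x j k * LR.pd j (LR.pd k (f q)) x = k₂ q x := by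
        intro q
        have e5 := hL q x hx.1
        unfold HY.Lv at e5
        rw [e5]
        have e6 : k₁ q x = 0 := image_eq_zero_of_notMem_tsupport fun h' => hx.2 (hk₁t q h').1
        rw [e6, zero_add]
      simp only [e1, ← hs₁ x hx.1 (hnn hx)]
      calc ∑ j, ∑ k, s₁ x j k * ∑ q, c q * LR.pd j (LR.pd k (f q)) x
          = ∑ j, ∑ k, ∑ q, c q * (s₁ x j k * LR.pd j (LR.pd k (f q)) x) := by
            refine Finset.sum_congr rfl fun j _ => Finset.sum_congr rfl fun k _ => ?_
            rw [Finset.mul_sum]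
            exact Finset.sum_congr rfl fun q _ => by ring
        _ = ∑ q, ∑ j, ∑ k, c q * (s₁ x j k * LR.pd j (LR.pd k (f q)) x) := by
            rw [Finset.sum_congr rfl fun j _ => Finset.sum_comm, Finset.sum_comm]
        _ = ∑ q, c q * ∑ j, ∑ k, s₁ x j k * LR.pd j (LR.pd k (f q)) x := by
            refine Finset.sum_congr rfl fun q _ => ?_
            rw [Finset.mul_sum]
            exact Finset.sum_congr rfl fun j _ => (Finset.mul_sum _ _ _).symm
        _ = _ := Finset.sum_congr rfl fun q _ => by rw [e4 q]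
    -- the integral of the right hand side
    have hK2 : ∫ y in HB z r, dS W₁.g ρ₁ F y ^ 2 ≤ ∫ x in Eb (0 : V n) r, (∑ q, c q * k₂ q x) ^ 2 := by
      rw [← int_em hz hr (fun y => dS W₁.g ρ₁ F y ^ 2),
        setIntegral_congr_fun ((Eb_meas r).diff Gm_meas) fun x hx => by
          show dS W₁.g ρ₁ F (em z x) ^ 2 = (∑ q, c q * k₂ q x) ^ 2
          rw [hdS x hx]]
      have hcont : Continuous fun x => (∑ q, c q * k₂ q x) ^ 2 :=
        (continuous_finsetSum _ fun q _ => continuous_const.mul (hk₂ q).continuous).pow 2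
      have hbd : IsCompact (closure (Eb (0 : V n) r)) := by
        have h1 : Eb (0 : V n) r ⊆ me (0 : E n) '' closedBall (0 : E n) r := fun x hx =>
          ⟨em 0 x, ball_subset_closedBall ((em_ball hr x).2 hx), me_em 0 x⟩
        have h2 : IsCompact (me (0 : E n) '' closedBall (0 : E n) r) :=
          (isCompact_closedBall _ _).image (continuous_me 0)
        exact h2.closure_of_subset h1
      refine setIntegral_mono_set ((hcont.continuousOn.integrableOn_compact hbd).mono_set
        subset_closure) (Eventually.of_forall fun x => sq_nonneg _) ?_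
      exact HasSubset.Subset.eventuallyLE diff_subset
    have E1 := (h.e₁ F hFT).trans (mul_le_mul_of_nonneg_left hK2 hC)
    have E2 := h.e₂ F hFT
    have i1 : IntegrableOn (q1 fun y => F y - V₁ F y) (HB z r) := int_HB hrr (q1_cont (hFs.sub hs1))
    have i2 : IntegrableOn (q1 fun y => F y - V₂ F y) (HB z r) := int_HB hrr (q1_cont (hFs.sub hs2))
    have hεc : 0 ≤ ε * ∑ q, c q ^ 2 :=
      mul_nonneg hε.le (Finset.sum_nonneg fun _ _ => sq_nonneg _)
    have hk2n : 0 ≤ ∫ x in Eb (0 : V n) r, (∑ q, c q * k₂ q x) ^ 2 :=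
      integral_nonneg fun _ => sq_nonneg _
    constructor
    · -- the first estimate
      have h1 : ∫ x in Eb (0 : V n) r \ Gm n, ∑ i, (∑ q, c q *
          (pd i (V₁ (f' q)) (em z x) - LR.pd i (f q) x)) ^ 2 =
          ∫ y in HB z r, ∑ i, pd i (fun y => F y - V₁ F y) y ^ 2 := by
        rw [← int_em hz hr (fun y => ∑ i, pd i (fun y => F y - V₁ F y) y ^ 2)]
        refine setIntegral_congr_fun ((Eb_meas r).diff Gm_meas) fun x hx => ?_
        have hy := hsub (hmem hx)
        refine Finset.sum_congr rfl fun i _ => ?_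
        have e1 : pd i (fun y => F y - V₁ F y) (em z x) = pd i F (em z x) - pd i (V₁ F) (em z x) :=
          hrel.pd_sub hFs hs1 hy i
        show (∑ q, c q * (pd i (V₁ (f' q)) (em z x) - LR.pd i (f q) x)) ^ 2 = _
        rw [e1, hpF i _ hy, hpV₁ i _ hy, ← Finset.sum_sub_distrib,
          show (∑ q, (c q * pd i (f' q) (em z x) - c q * pd i (V₁ (f' q)) (em z x))) ^ 2 =
            (∑ q, (c q * pd i (V₁ (f' q)) (em z x) - c q * pd i (f' q) (em z x))) ^ 2 by
            rw [← neg_sq, ← Finset.sum_neg_distrib]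
            congr 1
            exact Finset.sum_congr rfl fun q _ => by ring]
        congr 1
        exact Finset.sum_congr rfl fun q _ => by rw [hpdf q i x (hnn hx)]; ring
      rw [h1]
      have h2 : ∫ y in HB z r, ∑ i, pd i (fun y => F y - V₁ F y) y ^ 2 ≤
          ∫ y in HB z r, q1 (fun y => F y - V₁ F y) y := by
        refine setIntegral_mono_on (int_HB hrr (continuousOn_finsetSum _ fun i _ =>
          ((hrel.pd_smooth (hFs.sub hs1) i).continuousOn.pow 2))) i1 (HB_meas z r) fun y _ => ?_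
        exact le_add_of_nonneg_left (sq_nonneg _)
      have h3 := mul_nonneg hC hk2n
      linarith
    · -- the second estimate
      have hw : ∀ x ∈ Eb (0 : V n) r \ Gm n,
          ((∑ q, c q * xz z (p q) x) ^ 2 + ∑ i, (∑ q, c q * LR.pd i (xz z (p q)) x) ^ 2) =
            q1 (fun y => V₂ F y - V₁ F y) (em z x) := by
        intro x hx
        have hy := hsub (hmem hx)
        have e1 : ∀ i, pd i (fun y => V₂ F y - V₁ F y) (em z x) =
            pd i (V₂ F) (em z x) - pd i (V₁ F) (em z x) := fun i => hrel.pd_sub hs2 hs1 hy i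
        have e2 : ∀ q i, pd i (p q) (em z x) =
            pd i (V₂ (f' q)) (em z x) - pd i (V₁ (f' q)) (em z x) := fun q i =>
          hrel.pd_sub (h.sm₂ _ (hT q)) (h.sm₁ _ (hT q)) hy i
        unfold q1
        congr 1
        · rw [hV₁, hV₂]
          show (∑ q, c q * xz z (p q) x) ^ 2 = (∑ q, c q * V₂ (f' q) (em z x) -
            ∑ q, c q * V₁ (f' q) (em z x)) ^ 2
          rw [← Finset.sum_sub_distrib]
          congr 1
          exact Finset.sum_congr rfl fun q _ => by rw [xz_of (hnn hx)]; simp only [hp]; ring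
        · refine Finset.sum_congr rfl fun i _ => ?_
          rw [e1, hpV₁ i _ hy, hpV₂ i _ hy, ← Finset.sum_sub_distrib]
          congr 1
          exact Finset.sum_congr rfl fun q _ => by
            rw [(hC1 q).2 i x hx.1, xz_of (hnn hx), e2]; ring
      have h1 : ∫ x in Eb (0 : V n) r,
          ((∑ q, c q * xz z (p q) x) ^ 2 + ∑ i, (∑ q, c q * LR.pd i (xz z (p q)) x) ^ 2) =
          ∫ y in HB z r, q1 (fun y => V₂ F y - V₁ F y) y := by
        rw [← int_em hz hr (q1 fun y => V₂ F y - V₁ F y),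
          ← setIntegral_congr_fun ((Eb_meas r).diff Gm_meas) hw]
        refine setIntegral_eq_of_subset_of_forall_diff_eq_zero (Eb_meas r) diff_subset
          fun x hx => ?_
        have hxG : x ∈ Gm n := by
          by_contra hG
          exact hx.2 ⟨hx.1, hG⟩
        have e1 : ∀ q i, LR.pd i (xz z (p q)) x = 0 := fun q i => by
          rw [(hC1 q).2 i x hx.1, xz_neg hxG]
        have e2 : ∀ q, xz z (p q) x = 0 := fun q => xz_neg hxG
        simp only [e1, e2, mul_zero, Finset.sum_const_zero]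
        norm_num
      have h2 : ∫ x in Eb (0 : V n) r \ Gm n,
          ((∑ q, c q * f q x) ^ 2 + ∑ i, (∑ q, c q * LR.pd i (f q) x) ^ 2) =
          ∫ y in HB z r, q1 F y := by
        rw [← int_em hz hr (q1 F)]
        refine setIntegral_congr_fun ((Eb_meas r).diff Gm_meas) fun x hx => ?_
        have hy := hsub (hmem hx)
        show (∑ q, c q * f q x) ^ 2 + ∑ i, (∑ q, c q * LR.pd i (f q) x) ^ 2 = q1 F (em z x)
        unfold q1
        congr 1
        · simp only [hF, hf', me_em]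
        · refine Finset.sum_congr rfl fun i _ => ?_
          rw [hpF i _ hy]
          congr 1
          exact Finset.sum_congr rfl fun q _ => by rw [hpdf q i x (hnn hx)]
      rw [h1, h2]
      have h3 : ∫ y in HB z r, q1 (fun y => V₂ F y - V₁ F y) y ≤
          ∫ y in HB z r, (2 * q1 (fun y => F y - V₁ F y) y + 2 * q1 (fun y => F y - V₂ F y) y) := by
        refine setIntegral_mono_on (int_HB hrr (q1_cont (hs2.sub hs1)))
          ((i1.const_mul 2).add (i2.const_mul 2)) (HB_meas z r) fun y hy => ?_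
        have e1 : (fun y => V₂ F y - V₁ F y) =
            fun y => (F y - V₁ F y) - (F y - V₂ F y) := by
          funext y
          ring
        rw [e1]
        exact q1_sub_le (HB z r₀) hrel (hFs.sub hs1) (hFs.sub hs2) (hsub hy)
      have h4 : ∫ y in HB z r, (2 * q1 (fun y => F y - V₁ F y) y +
          2 * q1 (fun y => F y - V₂ F y) y) = 2 * (∫ y in HB z r, q1 (fun y => F y - V₁ F y) y) +
            2 * ∫ y in HB z r, q1 (fun y => F y - V₂ F y) y := by
        rw [integral_add (i1.const_mul 2) (i2.const_mul 2), integral_const_mul, integral_const_mul]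
      rw [h4] at h3
      linarith

end Vale.Agent.P088.R2.H509.S3
end
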