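import Vale.Agent.P088.R2.H509.S3.Wk
import Vale.Agent.P088.R2.H354.Spec3

/-!
# P088, stage 3: from `E n` to `V n`
-/

set_option linter.all false

open Bundle Manifold MeasureTheory Set Filter Topology Metric
open scoped ContDiff

noncomputable section

namespace Vale.Agent.P088.R2.H509.S3

open Vale.Agent.P088 Vale.Agent.P088.EYM
open Vale.Agent.P088.LR (V MF)
open Vale.Agent.P088.HY.T3 (Eb)

variable {n : ℕ} [NeZero n]

/-- the map from `V n` to the chart -/
def em (z : E n) (x : V n) : E n := z + WithLp.toLp 2 x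

/-- the inverse map -/
def me (z : E n) (y : E n) : V n := WithLp.ofLp (y - z)

theorem me_em (z : E n) (x : V n) : me z (em z x) = x := by
  unfold me em
  rw [add_sub_cancel_left]

theorem em_me (z : E n) (y : E n) : em z (me z y) = y := by
  unfold me em
  rw [WithLp.toLp_ofLp, add_sub_cancel]

theorem em_zero {z : E n} (hz : z 0 = 0) (x : V n) : em z x 0 = x 0 := by
  show z 0 + x 0 = x 0
  rw [hz, zero_add]

theorem norm_toLp_sq (x : V n) : ‖(WithLp.toLp 2 x : E n)‖ ^ 2 = HY.sq x := by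
  rw [EuclideanSpace.norm_sq_eq]
  unfold HY.sq
  exact Finset.sum_congr rfl fun j _ => by rw [Real.norm_eq_abs, sq_abs]

theorem em_ball {z : E n} {r : ℝ} (hr : 0 < r) (x : V n) : em z x ∈ ball z r ↔ x ∈ Eb (0 : V n) r := by
  rw [mem_ball_iff_norm]
  unfold em Eb
  rw [add_sub_cancel_left, mem_setOf_eq, sub_zero, ← norm_toLp_sq]
  exact (sq_lt_sq₀ (norm_nonneg _) hr.le).symm

/-- the side without the manifold -/
def Gm (n : ℕ) [NeZero n] : Set (V n) := {x | x 0 < 0}

theorem em_HB {z : E n} (hz : z 0 = 0) {r : ℝ} (hr : 0 < r) (x : V n) :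
    em z x ∈ HB z r ↔ x ∈ Eb (0 : V n) r \ Gm n := by
  constructor
  · rintro ⟨h1, h2⟩
    refine ⟨(em_ball hr x).1 h1, fun h3 => ?_⟩
    have h4 : 0 ≤ em z x 0 := h2
    rw [em_zero hz] at h4
    exact absurd h3 (not_lt.2 h4)
  · rintro ⟨h1, h2⟩
    refine ⟨(em_ball hr x).2 h1, ?_⟩
    show 0 ≤ em z x 0
    rw [em_zero hz]
    exact not_lt.1 h2

theorem continuous_em (z : E n) : Continuous (em z) :=
  continuous_const.add (PiLp.continuous_toLp 2 _)

theorem continuous_me (z : E n) : Continuous (me z) :=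
  (PiLp.continuous_ofLp 2 _).comp (continuous_id.sub continuous_const)

/-- the homeomorphism -/
def emH (z : E n) : V n ≃ₜ E n where
  toFun := em z
  invFun := me z
  left_inv := me_em z
  right_inv := em_me z
  continuous_toFun := continuous_em z
  continuous_invFun := continuous_me z

theorem em_mp (z : E n) : MeasurePreserving (em z) volume volume := by
  have h1 : MeasurePreserving (@WithLp.toLp 2 (Fin n → ℝ)) volume volume :=
    PiLp.volume_preserving_toLp (Fin n)
  have h2 : MeasurePreserving (fun y : E n => z + y) volume volume :=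
    measurePreserving_add_left volume z
  exact h2.comp h1

theorem em_emb (z : E n) : MeasurableEmbedding (em z) := (emH z).measurableEmbedding

/-- integrals -/
theorem int_em {z : E n} (hz : z 0 = 0) {r : ℝ} (hr : 0 < r) (g : E n → ℝ) :
    ∫ x in Eb (0 : V n) r \ Gm n, g (em z x) = ∫ y in HB z r, g y := by
  rw [← (em_mp z).setIntegral_preimage_emb (em_emb z) g (HB z r)]
  congr 2
  ext x
  exact (em_HB hz hr x).symm

/-- the linear part -/
def emL : V n →L[ℝ] E n :=
  (PiLp.continuousLinearEquiv 2 ℝ (fun _ : Fin n => ℝ)).symm.toContinuousLinearMap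

/-- its inverse -/
def meL : E n →L[ℝ] V n :=
  (PiLp.continuousLinearEquiv 2 ℝ (fun _ : Fin n => ℝ)).toContinuousLinearMap

theorem emL_single (i : Fin n) : emL (Pi.single i (1 : ℝ)) = (ev i : E n) := by
  ext j
  show (Pi.single i (1 : ℝ) : V n) j = (EuclideanSpace.single i (1 : ℝ) : E n) j
  rw [PiLp.single_apply, Pi.single_apply]

theorem meL_ev (i : Fin n) : meL (ev i : E n) = Pi.single i (1 : ℝ) := by
  funext j
  show (EuclideanSpace.single i (1 : ℝ) : E n) j = (Pi.single i (1 : ℝ) : V n) j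
  rw [PiLp.single_apply, Pi.single_apply]

theorem has_em (z : E n) (x : V n) : HasFDerivAt (em z) (emL : V n →L[ℝ] E n) x :=
  (emL : V n →L[ℝ] E n).hasFDerivAt.const_add z

theorem has_me (z : E n) (y : E n) : HasFDerivAt (me z) (meL : E n →L[ℝ] V n) y := by
  have h1 : HasFDerivAt (fun y : E n => y - z) (ContinuousLinearMap.id ℝ (E n)) y :=
    (hasFDerivAt_id y).sub_const z
  exact (meL : E n →L[ℝ] V n).hasFDerivAt.comp y h1

theorem contDiff_me (z : E n) : ContDiff ℝ ∞ (me z) :=
  (meL : E n →L[ℝ] V n).contDiff.comp (contDiff_id.sub contDiff_const)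

theorem contDiff_em (z : E n) : ContDiff ℝ ∞ (em z) :=
  contDiff_const.add (emL : V n →L[ℝ] E n).contDiff

/-- the derivative of a global function -/
theorem pd_me {z : E n} {F : V n → ℝ} {y : E n} (hy : y ∈ Hs n)
    (hF : DifferentiableAt ℝ F (me z y)) (i : Fin n) :
    pd i (fun y => F (me z y)) y = LR.pd i F (me z y) := by
  have h1 : HasFDerivAt (fun y => F (me z y)) ((fderiv ℝ F (me z y)).comp meL) y :=
    hF.hasFDerivAt.comp y (has_me z y)
  rw [pd_of_has hy h1.hasFDerivWithinAt i, ContinuousLinearMap.comp_apply, meL_ev]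
  rfl

theorem pd_me2 {z : E n} {F : V n → ℝ} {y : E n} (hy : y ∈ Hs n) (hF : ContDiff ℝ ∞ F)
    (i j : Fin n) : pd i (pd j (fun y => F (me z y))) y = LR.pd i (LR.pd j F) (me z y) := by
  have hrel : RelOpen (univ ∩ Hs n) := ⟨univ, isOpen_univ, rfl⟩
  have e1 : EqOn (pd j fun y => F (me z y)) (fun y => LR.pd j F (me z y)) (univ ∩ Hs n) :=
    fun x hx => pd_me hx.2 (hF.differentiable (by simp) _) j
  rw [hrel.pd_congr e1 ⟨mem_univ _, hy⟩ i]
  refine pd_me hy ?_ i
  have h1 : ContDiff ℝ ∞ (LR.pd j F) := by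
    unfold LR.pd
    exact (hF.fderiv_right (m := ∞) (by simp)).clm_apply contDiff_const
  exact h1.differentiable (by simp) _

/-- test functions -/
theorem tstR_me {z : E n} {r : ℝ} (hr : 0 < r) {F : V n → ℝ} (hF : ContDiff ℝ ∞ F)
    (hc : HasCompactSupport F) (ht : tsupport F ⊆ Eb (0 : V n) r) :
    TstR z r (fun y => F (me z y)) := by
  refine ⟨hF.comp (contDiff_me z), ?_⟩
  have hK : IsCompact (em z '' tsupport F) := hc.image (continuous_em z)
  have hs : em z '' tsupport F ⊆ ball z r := by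
    rintro _ ⟨x, hx, rfl⟩
    exact (em_ball hr x).2 (ht hx)
  obtain ⟨r', hr', h1⟩ := exists_lt_subset_ball hK.isClosed hs
  refine ⟨r', hr', fun y hy => ?_⟩
  refine image_eq_zero_of_notMem_tsupport fun h2 => hy (h1 ⟨me z y, h2, em_me z y⟩)

/-! ### Extension by zero -/

open Classical in
/-- extension by zero -/
def xz {F : Type*} [Zero F] (z : E n) (g : E n → F) (x : V n) : F :=
  if 0 ≤ x 0 then g (em z x) else 0

theorem xz_of {F : Type*} [Zero F] {z : E n} {g : E n → F} {x : V n} (hx : 0 ≤ x 0) :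
    xz z g x = g (em z x) := if_pos hx

theorem xz_neg {F : Type*} [Zero F] {z : E n} {g : E n → F} {x : V n} (hx : x 0 < 0) :
    xz z g x = 0 := if_neg (not_le.2 hx)

theorem Eb_open (r : ℝ) : IsOpen (Eb (0 : V n) r) := by
  unfold Eb HY.sq
  refine isOpen_lt ?_ continuous_const
  fun_prop

theorem xz_cont {F : Type*} [NormedAddCommGroup F] {z : E n} (hz : z 0 = 0) {r : ℝ} (hr : 0 < r)
    {g : E n → F} (hg : ContinuousOn g (HB z r)) (h0 : ∀ y ∈ HB z r, y 0 = 0 → g y = 0) :
    ContinuousOn (xz z g) (Eb (0 : V n) r) := by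
  intro x hx
  apply ContinuousAt.continuousWithinAt
  have hc0 : Continuous fun x : V n => x 0 := continuous_apply 0
  rcases lt_trichotomy (x 0) 0 with h | h | h
  · have h1 : xz z g =ᶠ[𝓝 x] fun _ => 0 := by
      filter_upwards [(isOpen_lt hc0 continuous_const).mem_nhds h] with y hy
      exact xz_neg hy
    exact continuousAt_const.congr h1.symm
  · have hxH : em z x ∈ HB z r := (em_HB hz hr x).2 ⟨hx, by rw [Gm, mem_setOf_eq, h]; exact lt_irrefl _⟩
    have hv : xz z g x = 0 := by
      rw [xz_of h.ge]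
      exact h0 _ hxH (by rw [em_zero hz, h])
    have h1 : ContinuousWithinAt (xz z g) {x | 0 ≤ x 0} x := by
      have h2 : ContinuousWithinAt (fun x => g (em z x)) (Eb (0 : V n) r ∩ {x | 0 ≤ x 0}) x := by
        refine (hg _ hxH).comp (continuous_em z).continuousWithinAt fun y hy => ?_
        exact (em_HB hz hr y).2 ⟨hy.1, show ¬ y 0 < 0 from not_lt.2 hy.2⟩
      have h3 : ContinuousWithinAt (fun x => g (em z x)) {x | 0 ≤ x 0} x := by
        rw [inter_comm] at h2
        exact (continuousWithinAt_inter ((Eb_open r).mem_nhds hx)).1 h2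
      exact h3.congr (fun y hy => xz_of hy) (xz_of h.ge)
    have h2 : ContinuousWithinAt (xz z g) {x | x 0 < 0} x :=
      (continuousWithinAt_const (b := (0 : F))).congr (fun y hy => xz_neg hy) hv
    have h3 := h1.union h2
    have h4 : ({x : V n | 0 ≤ x 0} ∪ {x | x 0 < 0}) = univ := by
      ext y
      simp only [mem_union, mem_setOf_eq, mem_univ, iff_true]
      exact le_or_gt 0 (y 0)
    rwa [h4, continuousWithinAt_univ] at h3
  · have hxH : em z x ∈ OB z r := ⟨(em_ball hr x).2 hx, by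
      show 0 < em z x 0
      rw [em_zero hz]; exact h⟩
    have h1 : ContinuousAt g (em z x) := hg.continuousAt (OB_mem_nhds hxH)
    have h2 : ContinuousAt (fun x => g (em z x)) x := h1.comp (continuous_em z).continuousAt
    refine h2.congr ?_
    filter_upwards [(isOpen_lt continuous_const hc0).mem_nhds h] with y hy
    exact (xz_of (le_of_lt hy)).symm

/-- the derivative of the extension by zero -/
theorem xz_has {z : E n} (hz : z 0 = 0) {r : ℝ} (hr : 0 < r) {q : E n → ℝ}
    (hq : ContDiffOn ℝ ∞ q (HB z r)) (h0 : ∀ y ∈ HB z r, y 0 = 0 → q y = 0)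
    (h1 : ∀ k, ∀ y ∈ HB z r, y 0 = 0 → pd k q y = 0) :
    (∀ x ∈ Eb (0 : V n) r, HasFDerivAt (xz z q) (xz z (fun y => ∑ i, pd i q y •
      (ContinuousLinearMap.proj i : V n →L[ℝ] ℝ)) x) x) ∧
    ContinuousOn (xz z (fun y => ∑ i, pd i q y •
      (ContinuousLinearMap.proj i : V n →L[ℝ] ℝ))) (Eb (0 : V n) r) := by
  have hgc : ContinuousOn (fun y => ∑ i, pd i q y • (ContinuousLinearMap.proj i : V n →L[ℝ] ℝ))
      (HB z r) := continuousOn_finsetSum _ fun i _ =>
    ((HB_rel z r).pd_smooth hq i).continuousOn.smul continuousOn_const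
  have hg0 : ∀ y ∈ HB z r, y 0 = 0 →
      ∑ i, pd i q y • (ContinuousLinearMap.proj i : V n →L[ℝ] ℝ) = 0 := fun y hy hy0 =>
    Finset.sum_eq_zero fun i _ => by rw [h1 i y hy hy0, zero_smul]
  have hcf := xz_cont hz hr hq.continuousOn h0
  have hcf' := xz_cont hz hr hgc hg0
  refine ⟨?_, hcf'⟩
  refine hasF_ext (I := {x : V n | 0 < x 0}) (Eb_open r)
    (isOpen_lt continuous_const (continuous_apply 0)) hcf hcf' ?_ ?_
  · intro x hx hxI
    have hx0 : x 0 ≤ 0 := not_lt.1 hxI
    rcases hx0.lt_or_eq with h | h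
    · exact ⟨xz_neg h, xz_neg h⟩
    · have hxH : em z x ∈ HB z r :=
        (em_HB hz hr x).2 ⟨hx, by rw [Gm, mem_setOf_eq, h]; exact lt_irrefl _⟩
      rw [xz_of h.ge, xz_of h.ge]
      exact ⟨h0 _ hxH (by rw [em_zero hz, h]), hg0 _ hxH (by rw [em_zero hz, h])⟩
  · intro x hx hxI
    have hx0 : 0 < x 0 := hxI
    have hxH : em z x ∈ OB z r := ⟨(em_ball hr x).2 hx, by
      show 0 < em z x 0
      rw [em_zero hz]; exact hx0⟩
    have hd : DifferentiableAt ℝ q (em z x) :=
      (hq.contDiffAt (OB_mem_nhds hxH)).differentiableAt (by simp)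
    have h2 : HasFDerivAt (fun x => q (em z x)) ((fderiv ℝ q (em z x)).comp emL) x :=
      hd.hasFDerivAt.comp x (has_em z x)
    have h3 : (fderiv ℝ q (em z x)).comp (emL : V n →L[ℝ] E n) =
        ∑ i, pd i q (em z x) • (ContinuousLinearMap.proj i : V n →L[ℝ] ℝ) := by
      refine ContinuousLinearMap.ext fun v => ?_
      have h4 : v = ∑ i, v i • (Pi.single i (1 : ℝ) : V n) := by
        funext j
        simp [Finset.sum_apply, Pi.single_apply]
      conv_lhs => rw [h4]
      simp only [map_sum, map_smul, ContinuousLinearMap.comp_apply, emL_single, sum_apply,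
        smul_apply, ContinuousLinearMap.proj_apply, smul_eq_mul]
      refine Finset.sum_congr rfl fun i _ => ?_
      rw [pd_interior hxH.2, mul_comm]
    rw [xz_of hx0.le]
    rw [h3] at h2
    refine h2.congr_of_eventuallyEq ?_
    filter_upwards [(isOpen_lt continuous_const (continuous_apply (0 : Fin n))).mem_nhds hx0]
      with y hy
    exact xz_of (le_of_lt (show (0 : ℝ) < y 0 from hy))

theorem xz_C1 {z : E n} (hz : z 0 = 0) {r : ℝ} (hr : 0 < r) {q : E n → ℝ}
    (hq : ContDiffOn ℝ ∞ q (HB z r)) (h0 : ∀ y ∈ HB z r, y 0 = 0 → q y = 0)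
    (h1 : ∀ k, ∀ y ∈ HB z r, y 0 = 0 → pd k q y = 0) :
    ContDiffOn ℝ 1 (xz z q) (Eb (0 : V n) r) ∧
    ∀ i, ∀ x ∈ Eb (0 : V n) r, LR.pd i (xz z q) x = xz z (pd i q) x := by
  obtain ⟨h2, h3⟩ := xz_has hz hr hq h0 h1
  refine ⟨?_, fun i x hx => ?_⟩
  · have h4 : ContDiffOn ℝ (0 + 1) (xz z q) (Eb (0 : V n) r) := by
      rw [contDiffOn_succ_iff_fderiv_of_isOpen (Eb_open r)]
      refine ⟨fun x hx => (h2 x hx).differentiableAt.differentiableWithinAt, by simp, ?_⟩
      rw [contDiffOn_zero]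
      exact h3.congr fun x hx => (h2 x hx).fderiv
    simpa using h4
  · unfold LR.pd
    rw [(h2 x hx).fderiv]
    by_cases hx0 : 0 ≤ x 0
    · rw [xz_of hx0, xz_of hx0]
      simp only [sum_apply, smul_apply, ContinuousLinearMap.proj_apply, smul_eq_mul,
        Pi.single_apply, mul_ite, mul_one, mul_zero, Finset.sum_ite_eq', Finset.sum_ite_eq,
        Finset.mem_univ, if_true]
    · rw [xz_neg (not_le.1 hx0), xz_neg (not_le.1 hx0), zero_apply]

end Vale.Agent.P088.R2.H509.S3
end
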