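import Vale.Agent.P088.R2.H509.S3.Pt

/-!
# P088, stage 3: the weak equation of the difference of the two solutions
-/

set_option linter.all false

open Bundle Manifold MeasureTheory Set Filter Topology Metric
open scoped ContDiff

noncomputable section

namespace Vale.Agent.P088.R2.H509.S3

open Vale.Agent.P088 Vale.Agent.P088.EYM Vale.Agent.P088.TM
open Vale.Agent.P088.EYM.Q (IsMod)

variable {n : ℕ} [NeZero n] {W₁ W₂ : Model n 1} {ρ₁ ρ₂ : E n → ℝ} {z : E n} {r r₀ C : ℝ}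
  {V₁ V₂ : (E n → ℝ) → E n → ℝ}

/-- finite linear combinations -/
theorem TstR.sum {ι : Type*} (s : Finset ι) {f : ι → E n → ℝ} (hf : ∀ q, TstR z r (f q))
    (c : ι → ℝ) : TstR z r (fun y => ∑ q ∈ s, c q * f q y) := by
  classical
  induction s using Finset.induction_on with
  | empty =>
    refine ⟨by simpa using contDiff_const, r - 1, by linarith, fun x _ => by simp⟩
  | insert a s ha ih =>
    have h1 := (hf a).lin ih (c a) 1
    simpa only [Finset.sum_insert ha, one_mul] using h1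

theorem lin_sum {V : (E n → ℝ) → E n → ℝ}
    (hV : ∀ f g, TstR z r f → TstR z r g → ∀ a b : ℝ, ∀ x,
      V (fun y => a * f y + b * g y) x = a * V f x + b * V g x)
    {ι : Type*} (s : Finset ι) {f : ι → E n → ℝ} (hf : ∀ q, TstR z r (f q)) (c : ι → ℝ)
    (x : E n) : V (fun y => ∑ q ∈ s, c q * f q y) x = ∑ q ∈ s, c q * V (f q) x := by
  classical
  induction s using Finset.induction_on with
  | empty =>
    have h0 : TstR z r (fun _ : E n => (0 : ℝ)) := ⟨contDiff_const, r - 1, by linarith, fun x _ => rfl⟩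
    have h1 := hV _ _ h0 h0 0 0 x
    simpa using h1
  | insert a s ha ih =>
    have h1 := hV _ _ (hf a) (TstR.sum s hf c) (c a) 1 x
    simp only [one_mul] at h1
    simp only [Finset.sum_insert ha]
    rw [h1, ih]

/-- the gradients of the two solutions agree on the flat boundary -/
theorem PSol.dzero (h : PSol W₁ W₂ ρ₁ ρ₂ z r r₀ C V₁ V₂) (hrr : r < r₀) {f : E n → ℝ}
    (hf : TstR z r f) (k : Fin n) :
    ∀ x ∈ HB z r, x 0 = 0 → pd k (fun y => V₂ f y - V₁ f y) x = 0 := by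
  have hsub : HB z r ⊆ HB z r₀ := CRel1_HB_mono z hrr.le
  have hs : ContDiffOn ℝ ∞ (fun y => V₂ f y - V₁ f y) (HB z r₀) := (h.sm₂ f hf).sub (h.sm₁ f hf)
  have ht : ∀ j : Fin n, j ≠ 0 → ∀ x ∈ HB z r, x 0 = 0 →
      pd j (fun y => V₂ f y - V₁ f y) x = 0 := fun j hj x hx hx0 =>
    dc_pd_tan h.rm₁.rel hs (fun y hy hy0 => by
      rw [h.val₁ f hf y hy hy0, h.val₂ f hf y hy hy0, sub_self]) hj x (hsub hx) hx0
  intro x hx hx0
  by_cases hk : k = 0
  · subst hk
    have hpd : ∀ j, pd j (fun y => V₂ f y - V₁ f y) x = pd j (V₂ f) x - pd j (V₁ f) x := fun j =>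
      h.rm₁.rel.pd_sub (h.sm₂ f hf) (h.sm₁ f hf) (hsub hx) j
    have h1 := h.fl f hf x hx hx0
    have h2 : ∑ k, sg W₁.g ρ₁ 0 k x * pd k (fun y => V₂ f y - V₁ f y) x = 0 := by
      simp only [hpd, mul_sub, Finset.sum_sub_distrib]
      unfold fs at h1
      rw [h1, sub_eq_zero]
      exact Finset.sum_congr rfl fun k _ => by rw [h.sf k x hx hx0]
    rw [Finset.sum_eq_single 0 (fun j _ hj => by rw [ht j hj x hx hx0, mul_zero])
      (by simp)] at h2
    have h3 : 0 < sg W₁.g ρ₁ 0 0 x := by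
      have hp := h.rm₁.pos x (hsub hx)
      have hg : (W₁.g x).PosDef := h.rm₁.mod.ok.g_pos x (hsub hx)
      refine mul_pos (pow_pos hp 2) ?_
      refine mul_pos (Real.sqrt_pos.2 hg.det_pos) ?_
      exact hg.inv.diag_pos
    exact (mul_eq_zero.1 h2).resolve_left h3.ne'
  · exact ht k hk x hx hx0

theorem RM.sg_symm {W : Model n 1} {ρ : E n → ℝ} {D : Set (E n)} (h : RM W ρ D) {x : E n}
    (hx : x ∈ D) (j k : Fin n) : sg W.g ρ j k x = sg W.g ρ k j x := by
  unfold sg gg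
  rw [Jacobi_inv_symm (h.mod.ok.g_pos x hx) j k]

/-- `div σ grad` in non-divergence form -/
theorem RM.dS_nd {W : Model n 1} {ρ : E n → ℝ} {D : Set (E n)} (h : RM W ρ D) {f : E n → ℝ}
    (hf : ContDiffOn ℝ ∞ f D) {x : E n} (hx : x ∈ D) :
    dS W.g ρ f x = ∑ j, ∑ k, sg W.g ρ j k x * pd j (pd k f) x := by
  have h1 : ∀ j, pd j (fs W.g ρ f j) x =
      ∑ k, (pd j (sg W.g ρ j k) x * pd k f x + sg W.g ρ j k x * pd j (pd k f) x) := by
    intro j
    have e1 : pd j (fs W.g ρ f j) x = ∑ k, pd j (fun y => sg W.g ρ j k y * pd k f y) x :=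
      h.rel.pd_sum (s := Finset.univ) (f := fun k y => sg W.g ρ j k y * pd k f y)
        (fun k _ => (h.sgs j k).mul (h.rel.pd_smooth hf k)) hx j
    rw [e1]
    exact Finset.sum_congr rfl fun k _ => pdm h.rel (h.sgs j k) (h.rel.pd_smooth hf k) hx j
  unfold dS
  simp only [h1, Finset.sum_add_distrib]
  have h2 : ∑ j, ∑ k, pd j (sg W.g ρ j k) x * pd k f x = 0 := by
    rw [Finset.sum_comm]
    refine Finset.sum_eq_zero fun k _ => ?_
    rw [← Finset.sum_mul, h.div_zero k hx, zero_mul]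
  rw [h2, zero_add]

/-- The weak equation. -/
theorem PSol.weak (h : PSol W₁ W₂ ρ₁ ρ₂ z r r₀ C V₁ V₂) (hrr : r < r₀) {f φ : E n → ℝ}
    (hf : TstR z r f) (hφ : TstR z r φ) :
    ∫ x in HB z r, ∑ i, ∑ j, sg W₂.g ρ₂ i j x * (pd i (fun y => V₂ f y - V₁ f y) x * pd j φ x) =
      ∫ x in HB z r, ∑ i, ∑ j, (sg W₁.g ρ₁ i j x - sg W₂.g ρ₂ i j x) *
        (pd i (V₁ f) x * pd j φ x) := by
  have hsub : HB z r ⊆ HB z r₀ := CRel1_HB_mono z hrr.le
  have hrel := h.rm₁.rel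
  have s₁ := h.sm₁ f hf
  have s₂ := h.sm₂ f hf
  have hφs : ContDiffOn ℝ ∞ φ (HB z r₀) := hφ.sm.contDiffOn
  have hw : ContDiffOn ℝ ∞ (fun y => V₂ f y - V₁ f y) (HB z r₀) := s₂.sub s₁
  obtain ⟨r', hr', hφ0⟩ := hφ.sp
  -- the field
  set U : Fin n → E n → ℝ := fun j y => fs W₂.g ρ₂ (V₂ f) j y - fs W₁.g ρ₁ (V₁ f) j y with hU
  have hUs : ∀ j, ContDiffOn ℝ ∞ (U j) (HB z r₀) := fun j =>
    (h.rm₂.fs_sm s₂ j).sub (h.rm₁.fs_sm s₁ j)
  have hUd : ∀ x ∈ HB z r₀, ∑ j, pd j (U j) x = 0 := by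
    intro x hx
    have e1 : ∀ j, pd j (U j) x = pd j (fs W₂.g ρ₂ (V₂ f) j) x - pd j (fs W₁.g ρ₁ (V₁ f) j) x :=
      fun j => hrel.pd_sub (h.rm₂.fs_sm s₂ j) (h.rm₁.fs_sm s₁ j) hx j
    simp only [e1, Finset.sum_sub_distrib]
    have e2 := h.sol₁ f hf x hx
    have e3 := h.sol₂ f hf x hx
    unfold dS at e2 e3
    rw [e2, e3, sub_zero]
  have hU0 : ∀ x ∈ HB z r, x 0 = 0 → U 0 x = 0 := fun x hx hx0 => by
    simp only [hU, h.fl f hf x hx hx0, sub_self]
  -- the divergence theorem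
  have hint : ∀ j, ∫ x in HB z r, pd j (fun y => φ y * U j y) x = 0 := by
    intro j
    refine AGreen_int hr' (((hφs.mul (hUs j)).mono hsub).of_le (by norm_cast))
      (fun x hx hxb => by simp only [hφ0 x hxb, zero_mul]) j ?_
    by_cases hj : j = 0
    · subst hj
      exact Or.inr fun x hx hx0 => by rw [hU0 x hx hx0, mul_zero]
    · exact Or.inl hj
  have hI : ∀ j, IntegrableOn (fun x => pd j (fun y => φ y * U j y) x) (HB z r) := fun j =>
    int_HB hrr (hrel.pd_smooth (hφs.mul (hUs j)) j).continuousOn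
  have hsum : ∫ x in HB z r, ∑ j, U j x * pd j φ x = 0 := by
    have e1 : ∀ x ∈ HB z r, ∑ j, U j x * pd j φ x = ∑ j, pd j (fun y => φ y * U j y) x := by
      intro x hx
      have e2 : ∀ j, pd j (fun y => φ y * U j y) x = pd j φ x * U j x + φ x * pd j (U j) x :=
        fun j => pdm hrel hφs (hUs j) (hsub hx) j
      simp only [e2, Finset.sum_add_distrib]
      rw [← Finset.mul_sum, hUd x (hsub hx), mul_zero, add_zero]
      exact Finset.sum_congr rfl fun j _ => mul_comm _ _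
    rw [setIntegral_congr_fun (HB_meas z r) e1, integral_finsetSum _ fun j _ => hI j]
    exact Finset.sum_eq_zero fun j _ => hint j
  -- conclusion
  have c1 : IntegrableOn (fun x => ∑ i, ∑ j, sg W₂.g ρ₂ i j x *
      (pd i (fun y => V₂ f y - V₁ f y) x * pd j φ x)) (HB z r) :=
    int_HB hrr (continuousOn_finsetSum _ fun i _ => continuousOn_finsetSum _ fun j _ =>
      (h.rm₂.sgs i j).continuousOn.mul ((hrel.pd_smooth hw i).continuousOn.mul
        (hrel.pd_smooth hφs j).continuousOn))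
  have c2 : IntegrableOn (fun x => ∑ i, ∑ j, (sg W₁.g ρ₁ i j x - sg W₂.g ρ₂ i j x) *
      (pd i (V₁ f) x * pd j φ x)) (HB z r) :=
    int_HB hrr (continuousOn_finsetSum _ fun i _ => continuousOn_finsetSum _ fun j _ =>
      ((h.rm₁.sgs i j).continuousOn.sub (h.rm₂.sgs i j).continuousOn).mul
        ((hrel.pd_smooth s₁ i).continuousOn.mul (hrel.pd_smooth hφs j).continuousOn))
  rw [← sub_eq_zero, ← integral_sub c1 c2, ← hsum]
  refine setIntegral_congr_fun (HB_meas z r) fun x hx => ?_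
  have hpd : ∀ j, pd j (fun y => V₂ f y - V₁ f y) x = pd j (V₂ f) x - pd j (V₁ f) x := fun j =>
    hrel.pd_sub s₂ s₁ (hsub hx) j
  simp only [hpd, hU, fs, sub_mul, Finset.sum_mul, Finset.sum_sub_distrib, mul_sub]
  have g2 : ∀ V : E n → ℝ, ∑ i, ∑ j, sg W₂.g ρ₂ i j x * (pd i V x * pd j φ x) =
      ∑ j, ∑ i, sg W₂.g ρ₂ j i x * pd i V x * pd j φ x := by
    intro V
    rw [Finset.sum_comm]
    refine Finset.sum_congr rfl fun j _ => Finset.sum_congr rfl fun i _ => ?_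
    rw [h.rm₂.sg_symm (hsub hx) i j]
    ring
  have g1 : ∀ V : E n → ℝ, ∑ i, ∑ j, sg W₁.g ρ₁ i j x * (pd i V x * pd j φ x) =
      ∑ j, ∑ i, sg W₁.g ρ₁ j i x * pd i V x * pd j φ x := by
    intro V
    rw [Finset.sum_comm]
    refine Finset.sum_congr rfl fun j _ => Finset.sum_congr rfl fun i _ => ?_
    rw [h.rm₁.sg_symm (hsub hx) i j]
    ring
  rw [g2 (V₂ f), g2 (V₁ f), g1 (V₁ f)]
  ring

end Vale.Agent.P088.R2.H509.S3
end
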